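import Mathlib

namespace Vale.Agent.P252

/-- The Hessian matrix of `u` at `x`: the entry `(i, j)` is the second partial derivative
`∂_i ∂_j u (x)`, written with directional derivatives along the standard basis vectors. -/
noncomputable def hess {n : ℕ} (u : EuclideanSpace ℝ (Fin n) → ℝ) (x : EuclideanSpace ℝ (Fin n)) :
    Matrix (Fin n) (Fin n) ℝ :=
  Matrix.of fun i j =>
    lineDeriv ℝ (fun y => lineDeriv ℝ u y (EuclideanSpace.single j (1:ℝ))) x
      (EuclideanSpace.single i (1:ℝ))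

/-- The function `w = (det D²u)^(-(n+1)/(n+2))`. -/
noncomputable def wfun {n : ℕ} (u : EuclideanSpace ℝ (Fin n) → ℝ) (x : EuclideanSpace ℝ (Fin n)) :
    ℝ :=
  (hess u x).det ^ (-((n:ℝ) + 1) / ((n:ℝ) + 2))

/-- The affine maximal equation `∑ U^{ij} ∂_{ij} w = 0` in `Ω`, where
`U^{ij} = det(D²u) (D²u)⁻¹_{ij}`. -/
def AffineMaximalOn {n : ℕ} (Ω : Set (EuclideanSpace ℝ (Fin n)))
    (u : EuclideanSpace ℝ (Fin n) → ℝ) : Prop :=
  ∀ x ∈ Ω, ∑ i, ∑ j, ((hess u x).det • (hess u x)⁻¹) i j * hess (wfun u) x i j = 0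

end Vale.Agent.P252
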