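import Mathlib
import Vale.Agent.P252.Defs

namespace Vale.Agent.P252

/-- The Berwald-Blaschke quadratic form of the graph of `u` at `x`, evaluated on the vector `v`:
`(det D²u)^(-1/(n+2)) ∑ u_ij v_i v_j`. -/
noncomputable def affForm {n : ℕ} (u : EuclideanSpace ℝ (Fin n) → ℝ)
    (x v : EuclideanSpace ℝ (Fin n)) : ℝ :=
  (hess u x).det ^ (-(1:ℝ) / ((n:ℝ) + 2)) * ∑ i, ∑ j, hess u x i j * v i * v j

/-- Affine completeness of the graph of an entire function `u`: every `C^1` curve
`γ : [0,∞) → R^n` of finite Berwald-Blaschke length stays in a bounded subset of `R^n`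
(so divergent curves have infinite length). -/
def AffineCompleteEntire {n : ℕ} (u : EuclideanSpace ℝ (Fin n) → ℝ) : Prop :=
  ∀ γ : ℝ → EuclideanSpace ℝ (Fin n), ContDiff ℝ 1 γ →
    MeasureTheory.IntegrableOn (fun t => Real.sqrt (affForm u (γ t) (deriv γ t))) (Set.Ici 0) →
    Bornology.IsBounded (γ '' Set.Ici 0)

end Vale.Agent.P252
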