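import Mathlib
open Finset Matrix
open scoped ContDiff

namespace Vale.Agent.P252


abbrev E (n : ℕ) := EuclideanSpace ℝ (Fin n)

noncomputable abbrev e {n : ℕ} (i : Fin n) : E n := EuclideanSpace.single i (1:ℝ)

lemma add_smul_e_apply {n : ℕ} (x : E n) (t : ℝ) (i k : Fin n) :
    (x + t • e i) k = x k + (if k = i then t else 0) := by
  simp [e]

/-- positive C^2 function on the line with nonpositive second derivative has zero derivative -/
lemma deriv_eq_zero_of_pos_of_deriv2_nonpos (g : ℝ → ℝ) (hg : Differentiable ℝ g)
    (hg' : Differentiable ℝ (deriv g)) (hpos : ∀ s, 0 < g s) (h2 : ∀ s, deriv (deriv g) s ≤ 0) :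
    ∀ s, deriv g s = 0 := by
  have hanti : Antitone (deriv g) := antitone_of_deriv_nonpos hg' h2
  intro a
  by_contra hne
  rcases lt_or_gt_of_ne hne with hlt | hgt
  · -- deriv g a < 0 : go right
    set m := deriv g a with hm
    set x := a + (g a) / (-m) + 1 with hx
    have hxa : a < x := by
      have : 0 < g a / (-m) := div_pos (hpos a) (by linarith)
      linarith
    obtain ⟨ξ, hξ, hmv⟩ := exists_deriv_eq_slope g hxa hg.continuous.continuousOn
      (hg.differentiableOn)
    have h1 : deriv g ξ ≤ m := hanti hξ.1.le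
    have h2 : g x - g a ≤ m * (x - a) := by
      rw [hmv] at h1
      rwa [div_le_iff₀ (by linarith)] at h1
    have h3 : m * (x - a) = - g a + m := by
      rw [hx]
      have : -m ≠ 0 := by linarith
      field_simp
      ring
    have := hpos x
    linarith
  · set m := deriv g a with hm
    set x := a - (g a) / m - 1 with hx
    have hxa : x < a := by
      have : 0 < g a / m := div_pos (hpos a) hgt
      linarith
    obtain ⟨ξ, hξ, hmv⟩ := exists_deriv_eq_slope g hxa hg.continuous.continuousOn
      (hg.differentiableOn)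
    have h1 : m ≤ deriv g ξ := hanti hξ.2.le
    have h2 : m * (a - x) ≤ g a - g x := by
      rw [hmv] at h1
      rwa [le_div_iff₀ (by linarith)] at h1
    have h3 : m * (a - x) = g a + m := by
      rw [hx]
      have : m ≠ 0 := by linarith
      field_simp
      ring
    have := hpos x
    linarith

/-- a function with constant second derivative is a quadratic polynomial -/
lemma quadratic_of_deriv2_const (f : ℝ → ℝ) (hf : Differentiable ℝ f)
    (hf' : Differentiable ℝ (deriv f)) (a : ℝ) (h2 : ∀ s, deriv (deriv f) s = a) :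
    ∀ s, f s = (1/2) * a * s^2 + deriv f 0 * s + f 0 := by
  have h1 : ∀ s, deriv f s = a * s + deriv f 0 := by
    have hd : Differentiable ℝ (fun s => deriv f s - a * s) := by fun_prop
    have hz : ∀ s, deriv (fun s => deriv f s - a * s) s = 0 := by
      intro s
      have : HasDerivAt (fun s => deriv f s - a * s) (deriv (deriv f) s - a * 1) s :=
        (hf' s).hasDerivAt.sub ((hasDerivAt_id s).const_mul a)
      rw [this.deriv, h2]; ring
    intro s
    have := is_const_of_deriv_eq_zero hd hz s 0
    linarith
  have hd : Differentiable ℝ (fun s => f s - ((1/2) * a * s^2 + deriv f 0 * s)) := by fun_prop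
  have hz : ∀ s, deriv (fun s => f s - ((1/2) * a * s^2 + deriv f 0 * s)) s = 0 := by
    intro s
    have : HasDerivAt (fun s => f s - ((1/2) * a * s^2 + deriv f 0 * s))
        (deriv f s - ((1/2) * a * (2 * s) + deriv f 0 * 1)) s := by
      apply (hf s).hasDerivAt.sub
      apply HasDerivAt.add
      · have := (hasDerivAt_pow 2 s).const_mul ((1/2) * a)
        simpa using this
      · exact (hasDerivAt_id s).const_mul _
    rw [this.deriv, h1]; ring
  intro s
  have := is_const_of_deriv_eq_zero hd hz s 0
  nlinarith

lemma lineDeriv_coord {n : ℕ} (G : ℝ → ℝ) (x : E n) (i j : Fin n) :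
    lineDeriv ℝ (fun y : E n => G (y j)) x (e i) = if i = j then deriv G (x j) else 0 := by
  unfold lineDeriv
  simp only [add_smul_e_apply]
  by_cases h : i = j
  · subst h
    simp only [if_true]
    rw [deriv_comp_const_add]
    simp
  · have h' : ¬ (j = i) := fun h' => h h'.symm
    simp [h, h']

lemma lineDeriv_sum {n : ℕ} (F : Fin n → ℝ → ℝ) (x : E n) (j : Fin n) :
    lineDeriv ℝ (fun y : E n => ∑ k, F k (y k)) x (e j) = deriv (F j) (x j) := by
  unfold lineDeriv
  have : (fun t : ℝ => ∑ k, F k ((x + t • e j) k))
      = fun t => F j (x j + t) + ∑ k ∈ univ.erase j, F k (x k) := by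
    funext t
    rw [← add_sum_erase univ _ (mem_univ j)]
    congr 1
    · simp
    · apply sum_congr rfl
      intro k hk
      rw [add_smul_e_apply, if_neg (ne_of_mem_erase hk), add_zero]
  rw [this, deriv_add_const, deriv_comp_const_add]
  simp

lemma lineDeriv_mul_prod {n : ℕ} (G : ℝ → ℝ) (g : Fin n → ℝ → ℝ) (x : E n) (i : Fin n) :
    lineDeriv ℝ (fun y : E n => G (y i) * ∏ k ∈ univ.erase i, g k (y k)) x (e i)
      = deriv G (x i) * ∏ k ∈ univ.erase i, g k (x k) := by
  unfold lineDeriv
  have : (fun t : ℝ => G ((x + t • e i) i) * ∏ k ∈ univ.erase i, g k ((x + t • e i) k))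
      = fun t => G (x i + t) * ∏ k ∈ univ.erase i, g k (x k) := by
    funext t
    congr 1
    · simp
    · apply prod_congr rfl
      intro k hk
      rw [add_smul_e_apply, if_neg (ne_of_mem_erase hk), add_zero]
  rw [this, deriv_mul_const_field, deriv_comp_const_add]
  simp

lemma lineDeriv_prod {n : ℕ} (g : Fin n → ℝ → ℝ) (x : E n) (i : Fin n) :
    lineDeriv ℝ (fun y : E n => ∏ k, g k (y k)) x (e i)
      = deriv (g i) (x i) * ∏ k ∈ univ.erase i, g k (x k) := by
  have : (fun y : E n => ∏ k, g k (y k))
      = fun y => g i (y i) * ∏ k ∈ univ.erase i, g k (y k) := by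
    funext y
    rw [mul_prod_erase univ (fun k => g k (y k)) (mem_univ i)]
  rw [this, lineDeriv_mul_prod]

end Vale.Agent.P252
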