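import Mathlib
import Vale.Agent.P252.Defs
import Vale.Agent.P252.Basic

open Finset Matrix

namespace Vale.Agent.P252

variable {m : ℕ}

/-- squared norm of the first `m` coordinates -/
noncomputable def rad (x : E (m+1)) : ℝ := ∑ i : Fin m, (x i.castSucc)^2

/-- last coordinate -/
noncomputable def lst (x : E (m+1)) : ℝ := x (Fin.last m)

/-- `x` with the last coordinate replaced by zero -/
noncomputable def xt (x : E (m+1)) (i : Fin (m+1)) : ℝ := if i = Fin.last m then 0 else x i

/-- indicator of the last coordinate -/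
noncomputable def ep (i : Fin (m+1)) : ℝ := if i = Fin.last m then 1 else 0

/-- the block matrix `[[a I + b x' x'^T, c x'], [c x'^T, d]]` -/
noncomputable def Mblk (a b c d : ℝ) (x : E (m+1)) : Matrix (Fin (m+1)) (Fin (m+1)) ℝ :=
  Matrix.of fun i j => a * ((if i = j then 1 else 0) - ep i * ep j) + b * (xt x i * xt x j)
    + c * (xt x i * ep j + ep i * xt x j) + d * (ep i * ep j)

/-- `Gr`, `Gt` are the two first order derivatives of `G` at all points `(r,t)`, `r ∈ S`. -/
structure HasPartials (S : Set ℝ) (G Gr Gt : ℝ → ℝ → ℝ) : Prop where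
  dr : ∀ r ∈ S, ∀ t, HasDerivAt (fun ρ => G ρ t) (Gr r t) r
  dt : ∀ r ∈ S, ∀ t, HasDerivAt (fun τ => G r τ) (Gt r t) t

end Vale.Agent.P252
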