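import Mathlib
import Vale.Agent.P252.BlkDefs

open Finset Matrix

namespace Vale.Agent.P252

variable {m : ℕ}

namespace BlkAlgAux

theorem Mblk_cc (a b c d : ℝ) (x : E (m+1)) (i j : Fin m) :
    Mblk a b c d x i.castSucc j.castSucc
      = a * (if i = j then 1 else 0) + b * (x i.castSucc * x j.castSucc) := by
  have hne : ∀ k : Fin m, ¬ (k.castSucc = Fin.last m) := fun k => (Fin.castSucc_lt_last k).ne
  by_cases hij : i = j
  · subst hij
    simp [Mblk, ep, xt, hne]
  · have : ¬ (i.castSucc = j.castSucc) := fun h => hij (Fin.castSucc_injective _ h)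
    simp [Mblk, ep, xt, hne, hij, this]

theorem Mblk_cl (a b c d : ℝ) (x : E (m+1)) (i : Fin m) :
    Mblk a b c d x i.castSucc (Fin.last m) = c * x i.castSucc := by
  have hne : ∀ k : Fin m, ¬ (k.castSucc = Fin.last m) := fun k => (Fin.castSucc_lt_last k).ne
  simp [Mblk, ep, xt, hne]

theorem Mblk_lc (a b c d : ℝ) (x : E (m+1)) (j : Fin m) :
    Mblk a b c d x (Fin.last m) j.castSucc = c * x j.castSucc := by
  have hne : ∀ k : Fin m, ¬ (k.castSucc = Fin.last m) := fun k => (Fin.castSucc_lt_last k).ne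
  have hne' : ∀ k : Fin m, ¬ (Fin.last m = k.castSucc) := fun k => (Fin.castSucc_lt_last k).ne'
  simp [Mblk, ep, xt, hne, hne']

theorem Mblk_ll (a b c d : ℝ) (x : E (m+1)) :
    Mblk a b c d x (Fin.last m) (Fin.last m) = d := by
  simp [Mblk, ep, xt]

theorem sum_ep_mul (v : Fin (m+1) → ℝ) : ∑ i, ep i * v i = v (Fin.last m) := by
  simp [ep]

theorem sum_xt_mul (x : E (m+1)) (v : Fin (m+1) → ℝ) :
    ∑ i, xt x i * v i = ∑ k : Fin m, x k.castSucc * v k.castSucc := by
  rw [Fin.sum_univ_castSucc]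
  have hne : ∀ k : Fin m, ¬ (k.castSucc = Fin.last m) := fun k => (Fin.castSucc_lt_last k).ne
  simp [xt, hne]

theorem mulVec_Mblk (a b c d : ℝ) (x : E (m+1)) (v : Fin (m+1) → ℝ) (i : Fin (m+1)) :
    (Mblk a b c d x *ᵥ v) i = a * (v i - ep i * ∑ j, ep j * v j) + b * (xt x i * ∑ j, xt x j * v j)
      + c * (xt x i * ∑ j, ep j * v j + ep i * ∑ j, xt x j * v j) + d * (ep i * ∑ j, ep j * v j) := by
  simp only [Matrix.mulVec, dotProduct, Mblk, Matrix.of_apply]
  have h : ∀ j, (a * ((if i = j then 1 else 0) - ep i * ep j) + b * (xt x i * xt x j)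
      + c * (xt x i * ep j + ep i * xt x j) + d * (ep i * ep j)) * v j
      = a * (if i = j then v j else 0) - a * ep i * (ep j * v j) + b * xt x i * (xt x j * v j)
        + c * xt x i * (ep j * v j) + c * ep i * (xt x j * v j) + d * ep i * (ep j * v j) := by
    intro j
    split_ifs <;> ring
  simp only [h, Finset.sum_add_distrib, Finset.sum_sub_distrib, ← Finset.mul_sum,
    Finset.sum_ite_eq, Finset.mem_univ, if_true]
  ring

theorem quad_Mblk (a b c d : ℝ) (x : E (m+1)) (v : Fin (m+1) → ℝ) :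
    v ⬝ᵥ (Mblk a b c d x *ᵥ v)
      = a * (∑ k : Fin m, v k.castSucc ^ 2) + b * (∑ k : Fin m, x k.castSucc * v k.castSucc) ^ 2
        + 2 * c * (∑ k : Fin m, x k.castSucc * v k.castSucc) * v (Fin.last m)
        + d * v (Fin.last m) ^ 2 := by
  simp only [dotProduct, mulVec_Mblk, sum_ep_mul, sum_xt_mul]
  set ξ := ∑ k : Fin m, x k.castSucc * v k.castSucc with hξ
  set τ := v (Fin.last m) with hτ
  have h : ∀ i, v i * (a * (v i - ep i * τ) + b * (xt x i * ξ) + c * (xt x i * τ + ep i * ξ)
      + d * (ep i * τ)) = a * v i ^ 2 - a * τ * (ep i * v i) + b * ξ * (xt x i * v i)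
        + c * τ * (xt x i * v i) + c * ξ * (ep i * v i) + d * τ * (ep i * v i) := by
    intro i
    ring
  simp only [h, Finset.sum_add_distrib, Finset.sum_sub_distrib, ← Finset.mul_sum, sum_ep_mul,
    sum_xt_mul]
  rw [Fin.sum_univ_castSucc]
  ring

theorem Mblk_contract_aux (a b c d a' b' c' d' : ℝ) (x : E (m+1)) :
    ∑ i, ∑ j, Mblk a b c d x i j * Mblk a' b' c' d' x i j
      = m * a * a' + (a * b' + b * a') * rad x + b * b' * (rad x)^2 + 2 * c * c' * rad x
        + d * d' := by
  simp only [Fin.sum_univ_castSucc, Mblk_cc, Mblk_cl, Mblk_lc, Mblk_ll]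
  have h : ∀ i j : Fin m, (a * (if i = j then 1 else 0) + b * (x i.castSucc * x j.castSucc))
      * (a' * (if i = j then 1 else 0) + b' * (x i.castSucc * x j.castSucc))
      = (if i = j then a * a' + (a * b' + b * a') * (x i.castSucc * x j.castSucc) else 0)
        + b * b' * (x i.castSucc ^ 2 * x j.castSucc ^ 2) := by
    intro i j
    split_ifs <;> ring
  simp only [h, Finset.sum_add_distrib, Finset.sum_ite_eq, Finset.mem_univ, if_true,
    ← Finset.mul_sum, ← Finset.sum_mul, Finset.sum_const, Finset.card_univ, Fintype.card_fin,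
    nsmul_eq_mul]
  have h1 : ∑ i : Fin m, x i.castSucc * x i.castSucc = rad x := by
    unfold rad
    exact Finset.sum_congr rfl fun i _ => by ring
  have h2 : ∑ i : Fin m, c * x i.castSucc * (c' * x i.castSucc) = c * c' * rad x := by
    unfold rad
    rw [Finset.mul_sum]
    exact Finset.sum_congr rfl fun i _ => by ring
  have h3 : ∑ i : Fin m, x i.castSucc ^ 2 = rad x := rfl
  rw [h1, h2, h3]
  ring

theorem Mblk_posDef_aux (a b c d : ℝ) (x : E (m+1)) (ha : 0 < a) (hd : 0 < d)
    (hD : 0 < (a + b * rad x) * d - c^2 * rad x) : (Mblk a b c d x).PosDef := by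
  apply Matrix.PosDef.of_dotProduct_mulVec_pos
  · ext i j
    simp only [Matrix.conjTranspose_apply, Mblk, Matrix.of_apply, star_trivial]
    by_cases hij : i = j
    · subst hij
      ring
    · have : ¬ j = i := fun h => hij h.symm
      simp only [hij, this, if_false]
      ring
  · intro v hv
    rw [star_trivial, quad_Mblk]
    set ξ := ∑ k : Fin m, x k.castSucc * v k.castSucc with hξ
    set τ := v (Fin.last m) with hτ
    set N := ∑ k : Fin m, v k.castSucc ^ 2 with hN
    have hN0 : 0 ≤ N := Finset.sum_nonneg fun _ _ => sq_nonneg _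
    have hCS : ξ ^ 2 ≤ rad x * N := Finset.sum_mul_sq_le_sq_mul_sq _ _ _
    have hr : 0 ≤ rad x := Finset.sum_nonneg fun _ _ => sq_nonneg _
    -- `d * Q` is a sum of squares
    have key : 0 < d * (a * N + b * ξ ^ 2 + 2 * c * ξ * τ + d * τ ^ 2) := by
      have e : d * (a * N + b * ξ ^ 2 + 2 * c * ξ * τ + d * τ ^ 2)
          = (d * τ + c * ξ) ^ 2 + a * d * N + (b * d - c ^ 2) * ξ ^ 2 := by ring
      rw [e]
      by_cases hNz : N = 0
      · -- then `v' = 0`, so `ξ = 0` and `τ ≠ 0`
        have hv' : ∀ k : Fin m, v k.castSucc = 0 := by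
          intro k
          have := (Finset.sum_eq_zero_iff_of_nonneg (fun _ _ => sq_nonneg _)).1 hNz k
            (Finset.mem_univ k)
          exact pow_eq_zero_iff (two_ne_zero) |>.1 this
        have hξ0 : ξ = 0 := by
          rw [hξ]
          exact Finset.sum_eq_zero fun k _ => by rw [hv' k, mul_zero]
        have hτ0 : τ ≠ 0 := by
          intro h
          apply hv
          funext i
          refine Fin.lastCases ?_ (fun k => ?_) i
          · exact h
          · exact hv' k
        rw [hNz, hξ0]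
        have : 0 < (d * τ) ^ 2 := by positivity
        nlinarith
      · have hNpos : 0 < N := lt_of_le_of_ne hN0 (Ne.symm hNz)
        by_cases hs : 0 ≤ b * d - c ^ 2
        · have h1 : 0 < a * d * N := by positivity
          have h2 : 0 ≤ (b * d - c ^ 2) * ξ ^ 2 := mul_nonneg hs (sq_nonneg _)
          nlinarith [sq_nonneg (d * τ + c * ξ)]
        · push Not at hs
          have h2 : (b * d - c ^ 2) * (rad x * N) ≤ (b * d - c ^ 2) * ξ ^ 2 :=
            mul_le_mul_of_nonpos_left hCS hs.le
          have h3 : 0 < ((a + b * rad x) * d - c ^ 2 * rad x) * N := mul_pos hD hNpos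
          nlinarith [sq_nonneg (d * τ + c * ξ)]
    exact (mul_pos_iff_of_pos_left hd).1 key

end BlkAlgAux

end Vale.Agent.P252
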