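import Mathlib
import Vale.Agent.P252.BlkDefs
import Vale.Agent.P252.BlkAlgB

open Finset Matrix

namespace Vale.Agent.P252

variable {m : ℕ}

lemma rad_nonneg (x : E (m+1)) : 0 ≤ rad x := by
  unfold rad; positivity

lemma sum_xt_xt (x : E (m+1)) : ∑ k, xt x k * xt x k = rad x := by
  rw [Fin.sum_univ_castSucc]
  simp only [xt, rad, if_true, mul_zero, add_zero]
  refine Finset.sum_congr rfl (fun i _ => ?_)
  rw [if_neg (Fin.castSucc_lt_last i).ne]
  ring

lemma sum_xt_ep (x : E (m+1)) : ∑ k, xt x k * ep k = 0 := by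
  refine Finset.sum_eq_zero (fun k _ => ?_)
  by_cases h : k = Fin.last m <;> simp [xt, ep, h]

lemma sum_ep_ep : ∑ k : Fin (m+1), ep k * ep k = 1 := by
  simp [ep]

lemma Mblk_apply' (a b c d : ℝ) (x : E (m+1)) (i k : Fin (m+1)) :
    Mblk a b c d x i k = a * (if i = k then 1 else 0) + xt x k * (b * xt x i + c * ep i)
      + ep k * (c * xt x i + (d - a) * ep i) := by
  simp only [Mblk, Matrix.of_apply]
  ring

lemma Mblk_symm (a b c d : ℝ) (x : E (m+1)) (i k : Fin (m+1)) :
    Mblk a b c d x i k = Mblk a b c d x k i := by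
  simp only [Mblk, Matrix.of_apply]
  by_cases h : i = k
  · subst h; ring
  · rw [if_neg h, if_neg (Ne.symm h)]; ring

lemma Mblk_mul_apply (a b c d a' b' c' d' : ℝ) (x : E (m+1)) (i j : Fin (m+1)) :
    (Mblk a b c d x * Mblk a' b' c' d' x) i j =
      a * a' * (if i = j then 1 else 0)
      + a * (xt x i * (b' * xt x j + c' * ep j) + ep i * (c' * xt x j + (d' - a') * ep j))
      + a' * (xt x j * (b * xt x i + c * ep i) + ep j * (c * xt x i + (d - a) * ep i))
      + (b * xt x i + c * ep i) * (b' * xt x j + c' * ep j) * rad x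
      + (c * xt x i + (d - a) * ep i) * (c' * xt x j + (d' - a') * ep j) := by
  rw [Matrix.mul_apply]
  have key : ∀ k, Mblk a b c d x i k * Mblk a' b' c' d' x k j =
      a * a' * ((if i = k then 1 else 0) * (if j = k then 1 else 0))
      + a * ((if i = k then 1 else 0) *
          (xt x k * (b' * xt x j + c' * ep j) + ep k * (c' * xt x j + (d' - a') * ep j)))
      + a' * ((if j = k then 1 else 0) *
          (xt x k * (b * xt x i + c * ep i) + ep k * (c * xt x i + (d - a) * ep i)))
      + (b * xt x i + c * ep i) * (b' * xt x j + c' * ep j) * (xt x k * xt x k)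
      + ((b * xt x i + c * ep i) * (c' * xt x j + (d' - a') * ep j)
          + (c * xt x i + (d - a) * ep i) * (b' * xt x j + c' * ep j)) * (xt x k * ep k)
      + (c * xt x i + (d - a) * ep i) * (c' * xt x j + (d' - a') * ep j) * (ep k * ep k) := by
    intro k
    rw [Mblk_symm a' b' c' d' x k j, Mblk_apply', Mblk_apply']
    ring
  simp only [key, Finset.sum_add_distrib, ← Finset.mul_sum, sum_xt_xt, sum_xt_ep, sum_ep_ep]
  have e1 : ∑ k, ((if i = k then (1:ℝ) else 0) * (if j = k then 1 else 0))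
      = if i = j then 1 else 0 := by
    simp
  have e2 : ∀ g : Fin (m+1) → ℝ, ∀ l : Fin (m+1),
      ∑ k, ((if l = k then (1:ℝ) else 0) * g k) = g l := by
    intro g l
    simp
  rw [e1, e2 (fun k => xt x k * (b' * xt x j + c' * ep j) + ep k * (c' * xt x j + (d' - a') * ep j)),
    e2 (fun k => xt x k * (b * xt x i + c * ep i) + ep k * (c * xt x i + (d - a) * ep i))]
  ring

lemma xt_mul_ep (x : E (m+1)) (i : Fin (m+1)) : xt x i * ep i = 0 := by
  by_cases h : i = Fin.last m <;> simp [xt, ep, h]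

lemma ep_mul_ep (i : Fin (m+1)) : ep i * ep i = ep i := by
  by_cases h : i = Fin.last m <;> simp [ep, h]

/-- PACKAGE C2b. -/
theorem Mblk_inv (a b c d : ℝ) (x : E (m+1)) (ha : a ≠ 0)
    (hD : (a + b * rad x) * d - c^2 * rad x ≠ 0) :
    (Mblk a b c d x)⁻¹ = Mblk (1/a) ((c^2 - b*d) / (a * ((a + b * rad x) * d - c^2 * rad x)))
      (-c / ((a + b * rad x) * d - c^2 * rad x))
      ((a + b * rad x) / ((a + b * rad x) * d - c^2 * rad x)) x := by
  apply Matrix.inv_eq_right_inv
  ext i j
  rw [Mblk_mul_apply, Matrix.one_apply]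
  generalize rad x = ρ at hD ⊢
  generalize xt x i = X
  generalize xt x j = Y
  generalize ep i = P
  generalize ep j = Q
  generalize (if i = j then (1:ℝ) else 0) = δ
  obtain ⟨Δ, hΔ⟩ : ∃ Δ, Δ = (a + b * ρ) * d - c^2 * ρ := ⟨_, rfl⟩
  rw [← hΔ] at hD ⊢
  field_simp
  rw [hΔ]
  ring

/-- PACKAGE C2a. -/
theorem Mblk_det (hm : 1 ≤ m) (a b c d : ℝ) (ha : a ≠ 0) (x : E (m+1)) :
    (Mblk a b c d x).det = a^(m-1) * ((a + b * rad x) * d - c^2 * rad x) := by
  set A : Matrix (Fin (m+1)) (Fin 2) ℝ := Matrix.of fun i l => if l = 0 then xt x i else ep i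
    with hA
  set B : Matrix (Fin 2) (Fin (m+1)) ℝ := Matrix.of fun l j =>
    if l = 0 then (b * xt x j + c * ep j) / a else (c * xt x j + (d - a) * ep j) / a with hB
  have hM : Mblk a b c d x = a • (1 + A * B) := by
    ext i j
    rw [Mblk_symm, Mblk_apply']
    simp only [Matrix.smul_apply, Matrix.add_apply, Matrix.one_apply, Matrix.mul_apply,
      Fin.sum_univ_two, hA, hB, Matrix.of_apply, smul_eq_mul]
    simp only [if_true, one_ne_zero, if_false]
    have : (if j = i then (1:ℝ) else 0) = if i = j then 1 else 0 := by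
      by_cases h : i = j
      · subst h; simp
      · rw [if_neg h, if_neg (Ne.symm h)]
    rw [this]
    field_simp
    ring
  have h00 : (B * A) 0 0 = b * rad x / a := by
    simp only [Matrix.mul_apply, hA, hB, Matrix.of_apply, if_true]
    have : ∀ k, (b * xt x k + c * ep k) / a * xt x k
        = b / a * (xt x k * xt x k) + c / a * (xt x k * ep k) := by
      intro k; ring
    simp only [this, Finset.sum_add_distrib, ← Finset.mul_sum, sum_xt_xt, sum_xt_ep]
    ring
  have h01 : (B * A) 0 1 = c / a := by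
    simp only [Matrix.mul_apply, hA, hB, Matrix.of_apply, if_true, one_ne_zero, if_false]
    have : ∀ k, (b * xt x k + c * ep k) / a * ep k
        = b / a * (xt x k * ep k) + c / a * (ep k * ep k) := by
      intro k; ring
    simp only [this, Finset.sum_add_distrib, ← Finset.mul_sum, sum_ep_ep, sum_xt_ep]
    ring
  have h10 : (B * A) 1 0 = c * rad x / a := by
    simp only [Matrix.mul_apply, hA, hB, Matrix.of_apply, if_true, one_ne_zero, if_false]
    have : ∀ k, (c * xt x k + (d - a) * ep k) / a * xt x k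
        = c / a * (xt x k * xt x k) + (d - a) / a * (xt x k * ep k) := by
      intro k; ring
    simp only [this, Finset.sum_add_distrib, ← Finset.mul_sum, sum_xt_xt, sum_xt_ep]
    ring
  have h11 : (B * A) 1 1 = (d - a) / a := by
    simp only [Matrix.mul_apply, hA, hB, Matrix.of_apply, one_ne_zero, if_false]
    have : ∀ k, (c * xt x k + (d - a) * ep k) / a * ep k
        = c / a * (xt x k * ep k) + (d - a) / a * (ep k * ep k) := by
      intro k; ring
    simp only [this, Finset.sum_add_distrib, ← Finset.mul_sum, sum_ep_ep, sum_xt_ep]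
    ring
  rw [hM, Matrix.det_smul, Matrix.det_one_add_mul_comm, Matrix.det_fin_two]
  simp only [Matrix.add_apply, Matrix.one_apply, h00, h01, h10, h11, Fintype.card_fin]
  simp only [if_true, one_ne_zero, zero_ne_one, if_false]
  obtain ⟨k, rfl⟩ : ∃ k, m = k + 1 := ⟨m - 1, by omega⟩
  simp only [Nat.add_sub_cancel]
  field_simp
  ring

/-- PACKAGE C2c. -/
theorem Mblk_contract (a b c d a' b' c' d' : ℝ) (x : E (m+1)) :
    ∑ i, ∑ j, Mblk a b c d x i j * Mblk a' b' c' d' x i j
      = m * a * a' + (a * b' + b * a') * rad x + b * b' * (rad x)^2 + 2 * c * c' * rad x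
        + d * d' :=
  BlkAlgAux.Mblk_contract_aux a b c d a' b' c' d' x

/-- PACKAGE C2d. -/
theorem Mblk_posDef (a b c d : ℝ) (x : E (m+1)) (ha : 0 < a) (hd : 0 < d)
    (hD : 0 < (a + b * rad x) * d - c^2 * rad x) : (Mblk a b c d x).PosDef :=
  BlkAlgAux.Mblk_posDef_aux a b c d x ha hd hD

end Vale.Agent.P252
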