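import Mathlib
import Vale.Agent.P252.BlkDefs

open Finset Matrix

namespace Vale.Agent.P252

namespace BlkHess

lemma radNonneg {m : ℕ} (y : E (m + 1)) : 0 ≤ rad y :=
  Finset.sum_nonneg fun _ _ => sq_nonneg _

lemma rad_add_castSucc {m : ℕ} (x : E (m + 1)) (s : ℝ) (j : Fin m) :
    rad (x + s • e j.castSucc) = rad x + 2 * s * x j.castSucc + s ^ 2 := by
  unfold rad
  have h : ∀ k : Fin m, ((x + s • e j.castSucc) k.castSucc) ^ 2
      = (x k.castSucc) ^ 2 + (if k = j then 2 * s * x j.castSucc + s ^ 2 else 0) := by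
    intro k
    rw [add_smul_e_apply]
    by_cases hk : k = j
    · subst hk
      simp
      ring
    · have : ¬ (k.castSucc = j.castSucc) := fun h => hk (Fin.castSucc_injective _ h)
      simp [hk, this]
  simp only [h, Finset.sum_add_distrib, Finset.sum_ite_eq', Finset.mem_univ, if_true]
  ring

lemma rad_add_last {m : ℕ} (x : E (m + 1)) (s : ℝ) :
    rad (x + s • e (Fin.last m)) = rad x := by
  unfold rad
  refine Finset.sum_congr rfl fun k _ => ?_
  rw [add_smul_e_apply, if_neg (Fin.castSucc_lt_last k).ne, add_zero]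

lemma lst_add_castSucc {m : ℕ} (x : E (m + 1)) (s : ℝ) (j : Fin m) :
    lst (x + s • e j.castSucc) = lst x := by
  unfold lst
  rw [add_smul_e_apply, if_neg (Fin.castSucc_lt_last j).ne', add_zero]

lemma lst_add_last {m : ℕ} (x : E (m + 1)) (s : ℝ) :
    lst (x + s • e (Fin.last m)) = lst x + s := by
  unfold lst
  rw [add_smul_e_apply, if_pos rfl]

lemma hasDerivAt_quad (a b : ℝ) : HasDerivAt (fun s : ℝ => a + 2 * s * b + s ^ 2) (2 * b) 0 := by
  have h : HasDerivAt (fun s : ℝ => a + 2 * s * b + s ^ 2) (2 * b + 2 * 0) 0 := by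
    apply HasDerivAt.fun_add
    · apply HasDerivAt.const_add
      have := ((hasDerivAt_id (0:ℝ)).const_mul 2).mul_const b
      simpa using this
    · have := hasDerivAt_pow 2 (0:ℝ)
      simpa using this
  simpa using h

/-- partial derivative of `G(|x'|^2, t)` in a horizontal direction -/
lemma lineDeriv_radial_castSucc {m : ℕ} (G : ℝ → ℝ → ℝ) (x : E (m + 1)) (j : Fin m) (g : ℝ)
    (hG : HasDerivAt (fun r => G r (lst x)) g (rad x)) :
    lineDeriv ℝ (fun y : E (m + 1) => G (rad y) (lst y)) x (e j.castSucc)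
      = 2 * x j.castSucc * g := by
  unfold lineDeriv
  simp only [rad_add_castSucc, lst_add_castSucc]
  have h1 : HasDerivAt (fun s : ℝ => rad x + 2 * s * x j.castSucc + s ^ 2)
      (2 * x j.castSucc) 0 := hasDerivAt_quad _ _
  have h0 : rad x = rad x + 2 * (0:ℝ) * x j.castSucc + (0:ℝ) ^ 2 := by ring
  rw [h0] at hG
  have := HasDerivAt.comp (0:ℝ) hG h1
  have h3 := this.deriv
  simp only [Function.comp_def] at h3
  rw [h3]
  ring

/-- partial derivative of `G(|x'|^2, t)` in the vertical direction -/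
lemma lineDeriv_radial_last {m : ℕ} (G : ℝ → ℝ → ℝ) (x : E (m + 1)) (g : ℝ)
    (hG : HasDerivAt (fun t => G (rad x) t) g (lst x)) :
    lineDeriv ℝ (fun y : E (m + 1) => G (rad y) (lst y)) x (e (Fin.last m)) = g := by
  unfold lineDeriv
  simp only [rad_add_last, lst_add_last]
  rw [deriv_comp_const_add]
  simpa using hG.deriv

/-- horizontal partial derivative of `x_j G(|x'|^2, t)` -/
lemma lineDeriv_coord_mul_radial_castSucc {m : ℕ} (G : ℝ → ℝ → ℝ) (x : E (m + 1)) (i j : Fin m)
    (g : ℝ) (hG : HasDerivAt (fun r => G r (lst x)) g (rad x)) :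
    lineDeriv ℝ (fun y : E (m + 1) => 2 * y j.castSucc * G (rad y) (lst y)) x (e i.castSucc)
      = (if i = j then 2 * G (rad x) (lst x) else 0) + 4 * x i.castSucc * x j.castSucc * g := by
  unfold lineDeriv
  simp only [rad_add_castSucc, lst_add_castSucc, add_smul_e_apply]
  have h1 : HasDerivAt (fun s : ℝ => rad x + 2 * s * x i.castSucc + s ^ 2)
      (2 * x i.castSucc) 0 := hasDerivAt_quad _ _
  have h0 : rad x = rad x + 2 * (0:ℝ) * x i.castSucc + (0:ℝ) ^ 2 := by ring
  have hG' := hG
  rw [h0] at hG'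
  have h2 := HasDerivAt.comp (0:ℝ) hG' h1
  simp only [Function.comp_def] at h2
  have h3 : HasDerivAt (fun s : ℝ => 2 * (x j.castSucc + if j.castSucc = i.castSucc then s else 0))
      (if i = j then 2 else 0) 0 := by
    by_cases hij : i = j
    · subst hij
      simp only [if_true]
      have := ((hasDerivAt_id (0:ℝ)).const_add (x i.castSucc)).const_mul 2
      simpa using this
    · have : ¬ (j.castSucc = i.castSucc) := fun h => hij (Fin.castSucc_injective _ h).symm
      simp only [this, hij, if_false, add_zero]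
      exact hasDerivAt_const _ _
  have h4 := (h3.fun_mul h2).deriv
  rw [h4]
  by_cases hij : i = j
  · subst hij
    simp
    ring
  · simp [hij]
    ring

/-- vertical partial derivative of `x_j G(|x'|^2, t)` -/
lemma lineDeriv_coord_mul_radial_last {m : ℕ} (G : ℝ → ℝ → ℝ) (x : E (m + 1)) (j : Fin m)
    (g : ℝ) (hG : HasDerivAt (fun t => G (rad x) t) g (lst x)) :
    lineDeriv ℝ (fun y : E (m + 1) => 2 * y j.castSucc * G (rad y) (lst y)) x (e (Fin.last m))
      = 2 * x j.castSucc * g := by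
  unfold lineDeriv
  simp only [rad_add_last, lst_add_last, add_smul_e_apply]
  have hne : ¬ (j.castSucc = Fin.last m) := (Fin.castSucc_lt_last j).ne
  simp only [hne, if_false, add_zero]
  rw [deriv_const_mul_field, deriv_comp_const_add]
  simp [hG.deriv]


end BlkHess

variable {m : ℕ}

open BlkHess in
/-- PACKAGE C1. Hessian of a function of `(|x'|^2, x_last)`. -/
theorem hess_radial (S : Set ℝ) (hS : ∀ r, 0 ≤ r → r ∈ S) (G Gr Gt Grr Grt Gtt : ℝ → ℝ → ℝ)
    (h0 : HasPartials S G Gr Gt) (h1 : HasPartials S Gr Grr Grt) (h2 : HasPartials S Gt Grt Gtt)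
    (x : E (m+1)) :
    hess (fun y : E (m+1) => G (rad y) (lst y)) x
      = Mblk (2 * Gr (rad x) (lst x)) (4 * Grr (rad x) (lst x)) (2 * Grt (rad x) (lst x))
          (Gtt (rad x) (lst x)) x := by
  have hx : rad x ∈ S := hS _ (radNonneg x)
  have hA : ∀ j : Fin m, (fun y : E (m + 1) =>
      lineDeriv ℝ (fun y : E (m + 1) => G (rad y) (lst y)) y (e j.castSucc))
      = fun y => 2 * y j.castSucc * Gr (rad y) (lst y) := by
    intro j
    funext y
    exact lineDeriv_radial_castSucc G y j _ (h0.dr _ (hS _ (radNonneg y)) _)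
  have hB : (fun y : E (m + 1) =>
      lineDeriv ℝ (fun y : E (m + 1) => G (rad y) (lst y)) y (e (Fin.last m)))
      = fun y => Gt (rad y) (lst y) := by
    funext y
    exact lineDeriv_radial_last G y _ (h0.dt _ (hS _ (radNonneg y)) _)
  have hne : ∀ k : Fin m, ¬ (k.castSucc = Fin.last m) := fun k => (Fin.castSucc_lt_last k).ne
  have hne' : ∀ k : Fin m, ¬ (Fin.last m = k.castSucc) := fun k => (Fin.castSucc_lt_last k).ne'
  ext i j
  refine Fin.lastCases ?_ (fun i => ?_) i <;> refine Fin.lastCases ?_ (fun j => ?_) j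
  · change lineDeriv ℝ (fun y : E (m + 1) =>
      lineDeriv ℝ (fun y : E (m + 1) => G (rad y) (lst y)) y (e (Fin.last m))) x (e (Fin.last m)) = _
    rw [hB, lineDeriv_radial_last Gt x _ (h2.dt _ hx _)]
    simp [Mblk, ep, xt]
  · change lineDeriv ℝ (fun y : E (m + 1) =>
      lineDeriv ℝ (fun y : E (m + 1) => G (rad y) (lst y)) y (e j.castSucc)) x (e (Fin.last m)) = _
    rw [hA j, lineDeriv_coord_mul_radial_last Gr x j _ (h1.dt _ hx _)]
    simp [Mblk, ep, xt, hne, hne']
    ring
  · change lineDeriv ℝ (fun y : E (m + 1) =>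
      lineDeriv ℝ (fun y : E (m + 1) => G (rad y) (lst y)) y (e (Fin.last m))) x (e i.castSucc) = _
    rw [hB, lineDeriv_radial_castSucc Gt x i _ (h2.dr _ hx _)]
    simp [Mblk, ep, xt, hne, hne']
    ring
  · change lineDeriv ℝ (fun y : E (m + 1) =>
      lineDeriv ℝ (fun y : E (m + 1) => G (rad y) (lst y)) y (e j.castSucc)) x (e i.castSucc) = _
    rw [hA j, lineDeriv_coord_mul_radial_castSucc Gr x i j _ (h1.dr _ hx _)]
    by_cases hij : i = j
    · subst hij
      simp [Mblk, ep, xt, hne]
      ring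
    · have : ¬ (i.castSucc = j.castSucc) := fun h => hij (Fin.castSucc_injective _ h)
      simp [Mblk, ep, xt, hne, hij, this]
      ring

end Vale.Agent.P252
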