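import Mathlib

open Finset PowerSeries

namespace Vale.Agent.P252

namespace Formal

/-- `d/dX (X q)` -/
noncomputable def Dq (q : PowerSeries ℝ) : PowerSeries ℝ := PowerSeries.derivative ℝ (X * q)

noncomputable def Gf (p q : PowerSeries ℝ) : PowerSeries ℝ := C (1/2) * p * (q - p)

noncomputable def Btf (p q : PowerSeries ℝ) : PowerSeries ℝ :=
  C (-100) * q + C 23 * p + C 2 * X * p^2 + C 6 * X * p * q

noncomputable def Ef (p q : PowerSeries ℝ) : PowerSeries ℝ :=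
  C 2 * p^2 + C 6 * p * q + q * Btf p q - C 4 * p * Dq q

theorem coeff_Dq (q : PowerSeries ℝ) (j : ℕ) : coeff j (Dq q) = coeff j q * (j + 1) := by
  unfold Dq
  rw [PowerSeries.coeff_derivative, PowerSeries.coeff_succ_X_mul]

/-- the coefficients of `f` and `g` agree up to index `J` -/
def Agree (J : ℕ) (f g : PowerSeries ℝ) : Prop := ∀ j ≤ J, coeff j f = coeff j g

theorem Agree.refl (J : ℕ) (f : PowerSeries ℝ) : Agree J f f := fun _ _ => rfl

theorem Agree.add {J : ℕ} {f g f' g' : PowerSeries ℝ} (h : Agree J f g) (h' : Agree J f' g') :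
    Agree J (f + f') (g + g') := by
  intro j hj
  simp [h j hj, h' j hj]

theorem Agree.sub {J : ℕ} {f g f' g' : PowerSeries ℝ} (h : Agree J f g) (h' : Agree J f' g') :
    Agree J (f - f') (g - g') := by
  intro j hj
  simp [h j hj, h' j hj]

theorem Agree.mul {J : ℕ} {f g f' g' : PowerSeries ℝ} (h : Agree J f g) (h' : Agree J f' g') :
    Agree J (f * f') (g * g') := by
  intro j hj
  rw [PowerSeries.coeff_mul, PowerSeries.coeff_mul]
  refine Finset.sum_congr rfl fun x hx => ?_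
  have hx' := Finset.HasAntidiagonal.mem_antidiagonal.mp hx
  rw [h x.1 (by omega), h' x.2 (by omega)]

theorem Agree.sq {J : ℕ} {f g : PowerSeries ℝ} (h : Agree J f g) : Agree J (f ^ 2) (g ^ 2) := by
  rw [pow_two, pow_two]
  exact h.mul h

theorem Agree.Dq {J : ℕ} {f g : PowerSeries ℝ} (h : Agree J f g) : Agree J (Dq f) (Dq g) := by
  intro j hj
  rw [coeff_Dq, coeff_Dq, h j hj]

theorem Agree.Gf {J : ℕ} {p p' q q' : PowerSeries ℝ} (hp : Agree J p p') (hq : Agree J q q') :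
    Agree J (Gf p q) (Gf p' q') :=
  ((Agree.refl J _).mul hp).mul (hq.sub hp)

theorem Agree.Btf {J : ℕ} {p p' q q' : PowerSeries ℝ} (hp : Agree J p p') (hq : Agree J q q') :
    Agree J (Btf p q) (Btf p' q') :=
  ((((Agree.refl J _).mul hq).add ((Agree.refl J _).mul hp)).add
    ((Agree.refl J _).mul hp.sq)).add (((Agree.refl J _).mul hp).mul hq)

theorem Agree.Ef {J : ℕ} {p p' q q' : PowerSeries ℝ} (hp : Agree J p p') (hq : Agree J q q') :
    Agree J (Ef p q) (Ef p' q') :=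
  ((((Agree.refl J _).mul hp.sq).add (((Agree.refl J _).mul hp).mul hq)).add
    (hq.mul (Agree.Btf hp hq))).sub (((Agree.refl J _).mul hp).mul hq.Dq)

/-- the truncated solutions -/
noncomputable def st : ℕ → PowerSeries ℝ × PowerSeries ℝ
  | 0 => (C 1, C (23/120))
  | J + 1 =>
    ((st J).1 + C (coeff J (Gf (st J).1 (st J).2) / (J + 1)) * X ^ (J + 1),
     (st J).2 + C ((23 * (coeff J (Gf (st J).1 (st J).2) / (J + 1))
        + coeff J (Ef (st J).1 (st J).2)) / (20 * (J + 2) + 100)) * X ^ (J + 1))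

theorem st_high (J j : ℕ) (h : J < j) : coeff j (st J).1 = 0 ∧ coeff j (st J).2 = 0 := by
  induction J with
  | zero =>
    have : j ≠ 0 := by omega
    simp [st, PowerSeries.coeff_C, this]
  | succ J ih =>
    have h1 := ih (by omega)
    have : j ≠ J + 1 := by omega
    simp [st, h1.1, h1.2, this]

theorem st_succ_low (J j : ℕ) (h : j ≤ J) :
    coeff j (st (J + 1)).1 = coeff j (st J).1 ∧ coeff j (st (J + 1)).2 = coeff j (st J).2 := by
  have : j ≠ J + 1 := by omega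
  simp [st, this]

theorem st_stable (j J : ℕ) (h : j ≤ J) :
    coeff j (st J).1 = coeff j (st j).1 ∧ coeff j (st J).2 = coeff j (st j).2 := by
  induction J, h using Nat.le_induction with
  | base => exact ⟨rfl, rfl⟩
  | succ J hJ ih =>
    have := st_succ_low J j hJ
    exact ⟨this.1.trans ih.1, this.2.trans ih.2⟩

noncomputable def Ps : PowerSeries ℝ := PowerSeries.mk fun j => coeff j (st j).1

noncomputable def Qs : PowerSeries ℝ := PowerSeries.mk fun j => coeff j (st j).2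

theorem agree_Ps (J : ℕ) : Agree J Ps (st J).1 := by
  intro j hj
  rw [Ps, PowerSeries.coeff_mk, (st_stable j J hj).1]

theorem agree_Qs (J : ℕ) : Agree J Qs (st J).2 := by
  intro j hj
  rw [Qs, PowerSeries.coeff_mk, (st_stable j J hj).2]

theorem coeff_zero_Ps : coeff 0 Ps = 1 := by
  simp [Ps, st]

theorem coeff_zero_Qs : coeff 0 Qs = 23 / 120 := by
  simp [Qs, st]

theorem coeff_succ_Ps (J : ℕ) : coeff (J + 1) Ps = coeff J (Gf Ps Qs) / (J + 1) := by
  rw [Agree.Gf (agree_Ps J) (agree_Qs J) J le_rfl]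
  simp [Ps, st, (st_high J (J + 1) (by omega)).1]

theorem coeff_succ_Qs (J : ℕ) : coeff (J + 1) Qs
    = (23 * coeff (J + 1) Ps + coeff J (Ef Ps Qs)) / (20 * (J + 2) + 100) := by
  rw [coeff_succ_Ps, Agree.Gf (agree_Ps J) (agree_Qs J) J le_rfl,
    Agree.Ef (agree_Ps J) (agree_Qs J) J le_rfl]
  simp [Qs, st, (st_high J (J + 1) (by omega)).2]

theorem ode_one : PowerSeries.derivative ℝ Ps = Gf Ps Qs := by
  ext j
  rw [PowerSeries.coeff_derivative, coeff_succ_Ps]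
  have : (j : ℝ) + 1 ≠ 0 := by positivity
  field_simp

theorem ode_two : C 20 * Dq Qs + C 100 * Qs = C 23 * Ps + X * Ef Ps Qs := by
  ext j
  cases j with
  | zero =>
    simp only [map_add, PowerSeries.coeff_C_mul, coeff_Dq, PowerSeries.coeff_zero_X_mul,
      coeff_zero_Ps, coeff_zero_Qs]
    norm_num
  | succ J =>
    simp only [map_add, PowerSeries.coeff_C_mul, coeff_Dq, PowerSeries.coeff_succ_X_mul]
    rw [coeff_succ_Qs]
    have : (20 * ((J : ℝ) + 2) + 100) ≠ 0 := by positivity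
    push_cast
    field_simp
    ring

/-- partial sums of the l1 norm at radius `1/50` -/
noncomputable def S (J : ℕ) (f : PowerSeries ℝ) : ℝ :=
  ∑ j ∈ range (J + 1), |coeff j f| * (1/50 : ℝ) ^ j

theorem S_nonneg (J : ℕ) (f : PowerSeries ℝ) : 0 ≤ S J f :=
  Finset.sum_nonneg fun _ _ => by positivity

theorem S_add_le (J : ℕ) (f g : PowerSeries ℝ) : S J (f + g) ≤ S J f + S J g := by
  unfold S
  rw [← Finset.sum_add_distrib]
  refine Finset.sum_le_sum fun j _ => ?_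
  rw [map_add, ← add_mul]
  exact mul_le_mul_of_nonneg_right (abs_add_le _ _) (by positivity)

theorem S_sub_le (J : ℕ) (f g : PowerSeries ℝ) : S J (f - g) ≤ S J f + S J g := by
  unfold S
  rw [← Finset.sum_add_distrib]
  refine Finset.sum_le_sum fun j _ => ?_
  rw [map_sub, ← add_mul]
  exact mul_le_mul_of_nonneg_right (abs_sub _ _) (by positivity)

theorem sum_anti_le (F G : ℕ → ℝ) (hF : ∀ i, 0 ≤ F i) (hG : ∀ i, 0 ≤ G i) (J : ℕ) :
    ∑ j ∈ range (J + 1), ∑ x ∈ antidiagonal j, F x.1 * G x.2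
      ≤ (∑ i ∈ range (J + 1), F i) * ∑ k ∈ range (J + 1), G k := by
  rw [Finset.sum_mul_sum, ← Finset.sum_product', ← Finset.sum_biUnion]
  · apply Finset.sum_le_sum_of_subset_of_nonneg
    · intro x hx
      simp only [Finset.mem_biUnion, Finset.mem_range, Finset.HasAntidiagonal.mem_antidiagonal,
        Finset.mem_product] at hx ⊢
      omega
    · intro x _ _
      exact mul_nonneg (hF _) (hG _)
  · intro i _ j _ hij
    rw [Function.onFun, Finset.disjoint_left]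
    intro x hx hx'
    rw [Finset.HasAntidiagonal.mem_antidiagonal] at hx hx'
    omega

theorem S_mul_le (J : ℕ) (f g : PowerSeries ℝ) : S J (f * g) ≤ S J f * S J g := by
  unfold S
  refine le_trans ?_ (sum_anti_le (fun i => |coeff i f| * (1/50 : ℝ) ^ i)
    (fun i => |coeff i g| * (1/50 : ℝ) ^ i) (fun _ => by positivity) (fun _ => by positivity) J)
  refine Finset.sum_le_sum fun j _ => ?_
  rw [PowerSeries.coeff_mul]
  refine le_trans (mul_le_mul_of_nonneg_right (Finset.abs_sum_le_sum_abs _ _) (by positivity)) ?_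
  rw [Finset.sum_mul]
  refine le_of_eq (Finset.sum_congr rfl fun x hx => ?_)
  have hx' := Finset.HasAntidiagonal.mem_antidiagonal.mp hx
  rw [abs_mul, ← hx', pow_add]
  ring

theorem S_C_mul (J : ℕ) (c : ℝ) (f : PowerSeries ℝ) : S J (C c * f) = |c| * S J f := by
  unfold S
  rw [Finset.mul_sum]
  refine Finset.sum_congr rfl fun j _ => ?_
  rw [PowerSeries.coeff_C_mul, abs_mul]
  ring

theorem S_succ (J : ℕ) (f : PowerSeries ℝ) :
    S (J + 1) f = |coeff 0 f| + ∑ j ∈ range (J + 1), |coeff (j + 1) f| * (1/50 : ℝ) ^ (j + 1) := by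
  unfold S
  rw [Finset.sum_range_succ']
  simp
  ring

theorem S_mono (J : ℕ) (f : PowerSeries ℝ) : S J f ≤ S (J + 1) f := by
  unfold S
  rw [Finset.sum_range_succ _ (J + 1)]
  have : 0 ≤ |coeff (J + 1) f| * (1/50 : ℝ) ^ (J + 1) := by positivity
  linarith

theorem S_succ_X_mul (J : ℕ) (f : PowerSeries ℝ) : S (J + 1) (X * f) = (1/50) * S J f := by
  rw [S_succ, PowerSeries.coeff_zero_X_mul, abs_zero, zero_add]
  unfold S
  rw [Finset.mul_sum]
  refine Finset.sum_congr rfl fun j _ => ?_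
  rw [PowerSeries.coeff_succ_X_mul, pow_succ]
  ring

theorem S_X_mul_le (J : ℕ) (f : PowerSeries ℝ) : S J (X * f) ≤ (1/50) * S J f :=
  (S_mono J _).trans (S_succ_X_mul J f).le

theorem S_X_le (J : ℕ) : S J (X : PowerSeries ℝ) ≤ 1/50 := by
  have h := S_X_mul_le J (C 1)
  have h1 : S J (C (1:ℝ)) = 1 := by
    unfold S
    rw [Finset.sum_range_succ']
    simp
  rw [h1] at h
  simpa using h

theorem le_mul' {J : ℕ} {f g : PowerSeries ℝ} {a b : ℝ} (h1 : S J f ≤ a) (h2 : S J g ≤ b) :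
    S J (f * g) ≤ a * b :=
  (S_mul_le J f g).trans (mul_le_mul h1 h2 (S_nonneg _ _) ((S_nonneg _ _).trans h1))

theorem le_add' {J : ℕ} {f g : PowerSeries ℝ} {a b : ℝ} (h1 : S J f ≤ a) (h2 : S J g ≤ b) :
    S J (f + g) ≤ a + b :=
  (S_add_le J f g).trans (add_le_add h1 h2)

theorem le_sub' {J : ℕ} {f g : PowerSeries ℝ} {a b : ℝ} (h1 : S J f ≤ a) (h2 : S J g ≤ b) :
    S J (f - g) ≤ a + b :=
  (S_sub_le J f g).trans (add_le_add h1 h2)

theorem le_C_mul' {J : ℕ} {f : PowerSeries ℝ} {a : ℝ} (c : ℝ) (h1 : S J f ≤ a) :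
    S J (C c * f) ≤ |c| * a := by
  rw [S_C_mul]
  exact mul_le_mul_of_nonneg_left h1 (abs_nonneg _)

theorem le_sq' {J : ℕ} {f : PowerSeries ℝ} {a : ℝ} (h1 : S J f ≤ a) : S J (f ^ 2) ≤ a * a := by
  rw [pow_two]
  exact le_mul' h1 h1

theorem S_Gf_le {J : ℕ} {p q : PowerSeries ℝ} (hp : S J p ≤ 3/2) (hq : S J q ≤ 3) :
    S J (Gf p q) ≤ 27/8 := by
  have h := le_mul' (le_C_mul' (1/2) hp) (le_sub' hq hp)
  refine h.trans (le_of_eq ?_)
  rw [abs_of_pos (by norm_num : (0:ℝ) < 1/2)]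
  norm_num

theorem S_Btf_le {J : ℕ} {p q : PowerSeries ℝ} (hp : S J p ≤ 3/2) (hq : S J q ≤ 3) :
    S J (Btf p q) ≤ 336 := by
  have h := le_add' (le_add' (le_add' (le_C_mul' (-100) hq) (le_C_mul' 23 hp))
    (le_mul' (le_C_mul' 2 (S_X_le J)) (le_sq' hp)))
    (le_mul' (le_mul' (le_C_mul' 6 (S_X_le J)) hp) hq)
  refine h.trans ?_
  rw [abs_neg, abs_of_pos (by norm_num : (0:ℝ) < 100), abs_of_pos (by norm_num : (0:ℝ) < 23),
    abs_of_pos (by norm_num : (0:ℝ) < 2), abs_of_pos (by norm_num : (0:ℝ) < 6)]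
  norm_num

theorem S_Ef_le {J : ℕ} {p q : PowerSeries ℝ} (hp : S J p ≤ 3/2) (hq : S J q ≤ 3)
    (hD : S J (Dq q) ≤ 3) : S J (Ef p q) ≤ 1060 := by
  have h := le_sub' (le_add' (le_add' (le_C_mul' 2 (le_sq' hp)) (le_mul' (le_C_mul' 6 hp) hq))
    (le_mul' hq (S_Btf_le hp hq))) (le_mul' (le_C_mul' 4 hp) hD)
  refine h.trans ?_
  rw [abs_of_pos (by norm_num : (0:ℝ) < 4),
    abs_of_pos (by norm_num : (0:ℝ) < 2), abs_of_pos (by norm_num : (0:ℝ) < 6)]
  norm_num

theorem S_le_S_Dq (J : ℕ) (q : PowerSeries ℝ) : S J q ≤ S J (Dq q) := by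
  unfold S
  refine Finset.sum_le_sum fun j _ => ?_
  rw [coeff_Dq, abs_mul]
  have h1 : (1:ℝ) ≤ |(j:ℝ) + 1| := by
    rw [abs_of_pos (by positivity)]
    have : (0:ℝ) ≤ j := Nat.cast_nonneg j
    linarith
  have h2 : |coeff j q| ≤ |coeff j q| * |(j:ℝ) + 1| := le_mul_of_one_le_right (abs_nonneg _) h1
  exact mul_le_mul_of_nonneg_right h2 (by positivity)

theorem S_succ_Ps_le (J : ℕ) : S (J + 1) Ps ≤ 1 + (1/50) * S J (Gf Ps Qs) := by
  rw [S_succ, coeff_zero_Ps, abs_one]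
  refine add_le_add le_rfl ?_
  unfold S
  rw [Finset.mul_sum]
  refine Finset.sum_le_sum fun j _ => ?_
  rw [coeff_succ_Ps, abs_div, pow_succ]
  have h1 : (1:ℝ) ≤ |(j:ℝ) + 1| := by
    rw [abs_of_pos (by positivity)]
    have : (0:ℝ) ≤ j := Nat.cast_nonneg j
    linarith
  have h2 : |coeff j (Gf Ps Qs)| / |(j:ℝ) + 1| ≤ |coeff j (Gf Ps Qs)| :=
    div_le_self (abs_nonneg _) h1
  have h3 : (0:ℝ) ≤ (1/50) ^ j * (1/50) := by positivity
  calc |coeff j (Gf Ps Qs)| / |(j:ℝ) + 1| * ((1/50) ^ j * (1/50))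
      ≤ |coeff j (Gf Ps Qs)| * ((1/50) ^ j * (1/50)) := mul_le_mul_of_nonneg_right h2 h3
    _ = 1/50 * (|coeff j (Gf Ps Qs)| * (1/50) ^ j) := by ring

theorem abs_coeff_succ_Dq_le (j : ℕ) : |coeff (j + 1) (Dq Qs)|
    ≤ (23 * |coeff (j + 1) Ps| + |coeff j (Ef Ps Qs)|) / 20 := by
  rw [coeff_Dq, coeff_succ_Qs]
  have hj : (0:ℝ) ≤ j := Nat.cast_nonneg j
  have hpos : (0:ℝ) < 20 * ((j:ℝ) + 2) + 100 := by positivity
  set N := 23 * coeff (j + 1) Ps + coeff j (Ef Ps Qs) with hN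
  have hNle : |N| ≤ 23 * |coeff (j + 1) Ps| + |coeff j (Ef Ps Qs)| := by
    refine (abs_add_le _ _).trans ?_
    rw [abs_mul, abs_of_pos (by norm_num : (0:ℝ) < 23)]
  have h1 : N / (20 * ((j:ℝ) + 2) + 100) * (((j + 1 : ℕ) : ℝ) + 1)
      = N * (((j:ℝ) + 2) / (20 * ((j:ℝ) + 2) + 100)) := by
    push_cast
    field_simp
    ring
  rw [h1, abs_mul]
  have h2 : |((j:ℝ) + 2) / (20 * ((j:ℝ) + 2) + 100)| ≤ 1 / 20 := by
    rw [abs_of_nonneg (by positivity), div_le_div_iff₀ hpos (by norm_num)]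
    linarith
  calc |N| * |((j:ℝ) + 2) / (20 * ((j:ℝ) + 2) + 100)| ≤ |N| * (1/20) :=
        mul_le_mul_of_nonneg_left h2 (abs_nonneg _)
    _ ≤ (23 * |coeff (j + 1) Ps| + |coeff j (Ef Ps Qs)|) * (1/20) :=
        mul_le_mul_of_nonneg_right hNle (by norm_num)
    _ = _ := by ring

theorem S_succ_Dq_le (J : ℕ) :
    S (J + 1) (Dq Qs) ≤ (23/20) * S (J + 1) Ps + (1/1000) * S J (Ef Ps Qs) := by
  rw [S_succ, S_succ (f := Ps), coeff_zero_Ps, abs_one]
  have h0 : |coeff 0 (Dq Qs)| = 23/120 := by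
    rw [coeff_Dq, coeff_zero_Qs]
    norm_num
  rw [h0]
  have h1 : ∑ j ∈ range (J + 1), |coeff (j + 1) (Dq Qs)| * (1/50 : ℝ) ^ (j + 1)
      ≤ (23/20) * ∑ j ∈ range (J + 1), |coeff (j + 1) Ps| * (1/50 : ℝ) ^ (j + 1)
        + (1/1000) * S J (Ef Ps Qs) := by
    unfold S
    rw [Finset.mul_sum, Finset.mul_sum, ← Finset.sum_add_distrib]
    refine Finset.sum_le_sum fun j _ => ?_
    have h2 := abs_coeff_succ_Dq_le j
    have h3 : (0:ℝ) ≤ (1/50 : ℝ) ^ (j + 1) := by positivity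
    calc |coeff (j + 1) (Dq Qs)| * (1/50 : ℝ) ^ (j + 1)
        ≤ (23 * |coeff (j + 1) Ps| + |coeff j (Ef Ps Qs)|) / 20 * (1/50 : ℝ) ^ (j + 1) :=
          mul_le_mul_of_nonneg_right h2 h3
      _ = _ := by
          rw [pow_succ]
          ring
  linarith

theorem bounds (J : ℕ) : S J Ps ≤ 3/2 ∧ S J (Dq Qs) ≤ 3 := by
  induction J with
  | zero =>
    constructor
    · simp [S, coeff_zero_Ps]
      norm_num
    · have : coeff 0 (Dq Qs) = 23/120 := by
        rw [coeff_Dq, coeff_zero_Qs]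
        norm_num
      simp only [S, zero_add, Finset.sum_range_one, this]
      norm_num
  | succ J ih =>
    obtain ⟨hp, hD⟩ := ih
    have hq : S J Qs ≤ 3 := (S_le_S_Dq J Qs).trans hD
    have h1 := S_succ_Ps_le J
    have h2 := S_Gf_le hp hq
    have h3 := S_succ_Dq_le J
    have h4 := S_Ef_le hp hq hD
    constructor <;> linarith

end Formal

open Formal in
/-- PACKAGE S2. Formal power series solution of the singular system (m = 10), with l1 bounds of the
partial sums at radius 1/50. -/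
theorem exists_formal_solution : ∃ p q : PowerSeries ℝ,
    coeff 0 p = 1 ∧
    PowerSeries.derivative ℝ p = C (1/2) * p * (q - p) ∧
    C 2 * (C 10 + C 2 * X * p) * PowerSeries.derivative ℝ (X * q)
      = (1 + X * q) * (C (-100) * q + C 23 * p + C 2 * X * p^2 + C 6 * X * p * q) ∧
    (∀ J, ∑ j ∈ range (J+1), |coeff j p| * (1/50 : ℝ)^j ≤ 3/2) ∧
    (∀ J, ∑ j ∈ range (J+1), |coeff j q| * (1/50 : ℝ)^j ≤ 3) := by
  refine ⟨Ps, Qs, coeff_zero_Ps, ode_one, ?_, fun J => (bounds J).1,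
    fun J => (S_le_S_Dq J Qs).trans (bounds J).2⟩
  have h := ode_two
  unfold Ef Btf Dq at h
  have c2 : (C (2:ℝ) : PowerSeries ℝ) = 2 := map_ofNat C 2
  have c4 : (C (4:ℝ) : PowerSeries ℝ) = 4 := map_ofNat C 4
  have c6 : (C (6:ℝ) : PowerSeries ℝ) = 6 := map_ofNat C 6
  have c10 : (C (10:ℝ) : PowerSeries ℝ) = 10 := map_ofNat C 10
  have c20 : (C (20:ℝ) : PowerSeries ℝ) = 20 := map_ofNat C 20
  have c23 : (C (23:ℝ) : PowerSeries ℝ) = 23 := map_ofNat C 23
  have c100 : (C (100:ℝ) : PowerSeries ℝ) = 100 := map_ofNat C 100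
  have cm100 : (C (-100:ℝ) : PowerSeries ℝ) = -100 := by rw [map_neg, c100]
  rw [c2, c4, c6, c20, c23, c100, cm100] at h
  rw [c2, c6, c10, c23, cm100]
  linear_combination h

end Vale.Agent.P252
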