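import Mathlib

open Set Metric
open scoped ContDiff NNReal

namespace Vale.Agent.P252

/-- the polynomial `B(P,R)` of the planar system with parameter `μ` -/
def BfG (μ P R : ℝ) : ℝ := μ^2 * (1 - R) + (2*μ-3) * P + 2 * P^2 + 6 * P * R

/-- `(P,R)` solves the planar system on `[r₀, r₁]` (one sided derivatives at the ends) and stays in
the box `[Pl,μ/2] x [1/2,7/2]`. -/
structure BoxSolG (μ Pl r₀ r₁ : ℝ) (P R : ℝ → ℝ) : Prop where
  memP : ∀ r ∈ Icc r₀ r₁, P r ∈ Icc Pl (μ/2)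
  memR : ∀ r ∈ Icc r₀ r₁, R r ∈ Icc (1/2 : ℝ) (7/2)
  dP : ∀ r ∈ Icc r₀ r₁, HasDerivWithinAt P (P r * (1 + R r - P r) / (2 * r)) (Icc r₀ r₁) r
  dR : ∀ r ∈ Icc r₀ r₁,
    HasDerivWithinAt R (R r * BfG μ (P r) (R r) / ((μ + 2 * P r) * (2 * r))) (Icc r₀ r₁) r

/-- the box -/
def bxG (μ Pl : ℝ) : Set (ℝ × ℝ) := Icc Pl (μ/2) ×ˢ Icc (1/2 : ℝ) (7/2)

/-- the autonomous part of the field -/
noncomputable def GfG (μ : ℝ) (z : ℝ × ℝ) : ℝ × ℝ :=
  (z.1 * (1 + z.2 - z.1), z.2 * BfG μ z.1 z.2 / (μ + 2 * z.1))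

/-- the field -/
noncomputable def vfG (μ t : ℝ) (z : ℝ × ℝ) : ℝ × ℝ :=
  (z.1 * (1 + z.2 - z.1) / (2 * t), z.2 * BfG μ z.1 z.2 / ((μ + 2 * z.1) * (2 * t)))

theorem vfG_eq (μ t : ℝ) (z : ℝ × ℝ) : vfG μ t z = (1 / (2 * t)) • GfG μ z := by
  unfold vfG GfG
  ext
  · simp only [Prod.smul_mk, smul_eq_mul]
    ring
  · simp only [Prod.smul_mk, smul_eq_mul]
    rw [div_mul_eq_div_div]
    ring

theorem den_posG {μ Pl : ℝ} (hμ : 9 ≤ μ) (hPl : 0 < Pl) {z : ℝ × ℝ} (hz : z ∈ bxG μ Pl) :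
    0 < μ + 2 * z.1 := by
  have := hz.1.1
  linarith

theorem contDiffOn_GfG {μ Pl : ℝ} (hμ : 9 ≤ μ) (hPl : 0 < Pl) (n : ℕ∞ω) :
    ContDiffOn ℝ n (GfG μ) (bxG μ Pl) := by
  unfold GfG BfG
  apply ContDiffOn.prodMk
  · fun_prop
  · apply ContDiffOn.div
    · fun_prop
    · fun_prop
    · intro z hz
      exact (den_posG hμ hPl hz).ne'

theorem exists_lipschitz_GfG {μ Pl : ℝ} (hμ : 9 ≤ μ) (hPl : 0 < Pl) :
    ∃ K : ℝ≥0, LipschitzOnWith K (GfG μ) (bxG μ Pl) := by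
  apply LocallyLipschitzOn.exists_lipschitzOnWith_of_compact
  · exact isCompact_Icc.prod isCompact_Icc
  · exact (contDiffOn_GfG hμ hPl 1).locallyLipschitzOn ((convex_Icc _ _).prod (convex_Icc _ _))

theorem exists_lipschitz_vfG {μ Pl r₀ : ℝ} (hμ : 9 ≤ μ) (hPl : 0 < Pl) (hr₀ : 0 < r₀) :
    ∃ K : ℝ≥0, ∀ t, r₀ ≤ t → LipschitzOnWith K (vfG μ t) (bxG μ Pl) := by
  obtain ⟨K, hK⟩ := exists_lipschitz_GfG hμ hPl
  refine ⟨Real.toNNReal (1 / (2 * r₀)) * K, fun t ht => ?_⟩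
  apply LipschitzOnWith.of_dist_le_mul
  intro x hx y hy
  rw [vfG_eq, vfG_eq, dist_smul₀]
  have h1 := hK.dist_le_mul x hx y hy
  have ht0 : 0 < t := lt_of_lt_of_le hr₀ ht
  have h2 : ‖1 / (2 * t)‖ ≤ 1 / (2 * r₀) := by
    rw [Real.norm_eq_abs, abs_of_pos (by positivity)]
    apply one_div_le_one_div_of_le (by positivity)
    linarith
  calc ‖1 / (2 * t)‖ * dist (GfG μ x) (GfG μ y) ≤ (1 / (2 * r₀)) * (K * dist x y) :=
        mul_le_mul h2 h1 dist_nonneg (by positivity)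
    _ = ((Real.toNNReal (1 / (2 * r₀)) * K : ℝ≥0) : ℝ) * dist x y := by
        rw [NNReal.coe_mul, Real.coe_toNNReal _ (by positivity)]
        ring

/-- clamp to the box -/
noncomputable def clG (μ Pl : ℝ) (z : ℝ × ℝ) : ℝ × ℝ :=
  (max Pl (min z.1 (μ/2)), max (1/2 : ℝ) (min z.2 (7/2)))

theorem clG_mem {μ Pl : ℝ} (hPl : Pl ≤ μ/2) (z : ℝ × ℝ) : clG μ Pl z ∈ bxG μ Pl := by
  refine ⟨⟨le_max_left _ _, max_le hPl (min_le_right _ _)⟩,
    ⟨le_max_left _ _, max_le (by norm_num) (min_le_right _ _)⟩⟩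

theorem clG_of_mem {μ Pl : ℝ} {z : ℝ × ℝ} (hz : z ∈ bxG μ Pl) : clG μ Pl z = z := by
  obtain ⟨⟨h1, h2⟩, ⟨h3, h4⟩⟩ := hz
  unfold clG
  rw [min_eq_left h2, max_eq_right h1, min_eq_left h4, max_eq_right h3]

theorem clG_lipschitz (μ Pl : ℝ) : LipschitzWith 1 (clG μ Pl) := by
  have h1 : LipschitzWith 1 fun z : ℝ × ℝ => max Pl (min z.1 (μ/2)) :=
    (LipschitzWith.prod_fst.min_const (μ/2)).const_max Pl
  have h2 : LipschitzWith 1 fun z : ℝ × ℝ => max (1/2 : ℝ) (min z.2 (7/2)) :=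
    (LipschitzWith.prod_snd.min_const (7/2)).const_max (1/2)
  have h := h1.prodMk h2
  rw [max_self] at h
  exact h

theorem exists_bound_vfG {μ Pl r₀ : ℝ} (hμ : 9 ≤ μ) (hPl : 0 < Pl) (hr₀ : 0 < r₀) :
    ∃ L : ℝ≥0, ∀ t, r₀ ≤ t → ∀ z ∈ bxG μ Pl, ‖vfG μ t z‖ ≤ L := by
  obtain ⟨M, hM⟩ :=
    (isCompact_Icc.prod isCompact_Icc : IsCompact (bxG μ Pl)).exists_bound_of_continuousOn
    (contDiffOn_GfG hμ hPl 0).continuousOn
  refine ⟨Real.toNNReal (1 / (2 * r₀) * |M|), fun t ht z hz => ?_⟩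
  rw [Real.coe_toNNReal _ (by positivity), vfG_eq, norm_smul]
  have ht0 : 0 < t := lt_of_lt_of_le hr₀ ht
  have h2 : ‖1 / (2 * t)‖ ≤ 1 / (2 * r₀) := by
    rw [Real.norm_eq_abs, abs_of_pos (by positivity)]
    apply one_div_le_one_div_of_le (by positivity)
    linarith
  exact mul_le_mul h2 ((hM z hz).trans (le_abs_self M)) (norm_nonneg _) (by positivity)

theorem exists_clampedG {μ Pl r₀ r₁ : ℝ} (hμ : 9 ≤ μ) (hr₀ : 0 < r₀) (hr : r₀ ≤ r₁) (hPl : 0 < Pl)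
    (hPl5 : Pl ≤ μ/2) (z₀ : ℝ × ℝ) : ∃ α : ℝ → ℝ × ℝ, α r₀ = z₀ ∧
      ∀ t ∈ Icc r₀ r₁, HasDerivWithinAt α (vfG μ t (clG μ Pl (α t))) (Icc r₀ r₁) t := by
  obtain ⟨K, hK⟩ := exists_lipschitz_vfG hμ hPl hr₀
  obtain ⟨L, hL⟩ := exists_bound_vfG hμ hPl hr₀
  have hpl : IsPicardLindelof (fun t z => vfG μ t (clG μ Pl z)) (tmin := r₀) (tmax := r₁)
      ⟨r₀, le_rfl, hr⟩ z₀ (L * Real.toNNReal (r₁ - r₀)) 0 L K := by
    refine ⟨fun t ht => ?_, fun x _ => ?_, fun t ht x _ => hL t ht.1 _ (clG_mem hPl5 x), ?_⟩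
    · have h := (hK t ht.1).comp ((clG_lipschitz μ Pl).lipschitzOnWith
        (s := closedBall z₀ (L * Real.toNNReal (r₁ - r₀) : ℝ≥0))) (fun z _ => clG_mem hPl5 z)
      rw [mul_one] at h
      exact h
    · simp only [vfG_eq]
      apply ContinuousOn.fun_smul _ continuousOn_const
      apply ContinuousOn.div continuousOn_const (by fun_prop)
      intro t ht
      have : 0 < t := lt_of_lt_of_le hr₀ ht.1
      positivity
    · simp only [sub_self, NNReal.coe_mul, NNReal.coe_zero, sub_zero]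
      rw [max_eq_left (by linarith), Real.coe_toNNReal _ (by linarith)]
  obtain ⟨α, h1, h2⟩ := hpl.exists_eq_forall_mem_Icc_hasDerivWithinAt₀
  exact ⟨α, h1, h2⟩

theorem hasDerivWithinAt_fstG {α : ℝ → ℝ × ℝ} {a : ℝ × ℝ} {s : Set ℝ} {t : ℝ}
    (h : HasDerivWithinAt α a s t) : HasDerivWithinAt (fun t => (α t).1) a.1 s t := by
  have h2 := (hasFDerivAt_fst (𝕜 := ℝ) (E := ℝ) (F := ℝ) (p := α t)).comp_hasDerivWithinAt t h
  simp only [ContinuousLinearMap.coe_fst'] at h2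
  exact h2

theorem hasDerivWithinAt_sndG {α : ℝ → ℝ × ℝ} {a : ℝ × ℝ} {s : Set ℝ} {t : ℝ}
    (h : HasDerivWithinAt α a s t) : HasDerivWithinAt (fun t => (α t).2) a.2 s t := by
  have h2 := (hasFDerivAt_snd (𝕜 := ℝ) (E := ℝ) (F := ℝ) (p := α t)).comp_hasDerivWithinAt t h
  simp only [ContinuousLinearMap.coe_snd'] at h2
  exact h2

/-- weak barrier from above -/
theorem weak_barrier_le {f f' : ℝ → ℝ} {a b c : ℝ}
    (hf : ∀ t ∈ Icc a b, HasDerivWithinAt f (f' t) (Icc a b) t) (ha : f a ≤ c)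
    (bound : ∀ t ∈ Ico a b, c ≤ f t → f' t ≤ 0) : ∀ t ∈ Icc a b, f t ≤ c := by
  intro t ht
  have key : ∀ ε : ℝ, 0 < ε → f t ≤ c + ε * (t - a) := by
    intro ε hε
    exact image_le_of_deriv_right_lt_deriv_boundary' (f := f) (f' := f')
      (B := fun x => c + ε * (x - a)) (B' := fun _ => ε)
      (fun r hr => (hf r hr).continuousWithinAt)
      (fun t ht => (hf t (Ico_subset_Icc_self ht)).mono_of_mem_nhdsWithin
        (Icc_mem_nhdsGE_of_mem ht))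
      (by simpa using ha) (by fun_prop)
      (fun x _ => by
        have h : HasDerivAt (fun x => c + ε * (x - a)) (ε * 1) x :=
          (((hasDerivAt_id x).sub_const a).const_mul ε).const_add c
        rw [mul_one] at h
        exact h.hasDerivWithinAt)
      (fun x hx h => by
        have h1 : c ≤ f x := by
          rw [h]
          have : 0 ≤ ε * (x - a) := mul_nonneg hε.le (by linarith [hx.1])
          linarith
        exact lt_of_le_of_lt (bound x hx h1) hε) ht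
  by_contra hcon
  push Not at hcon
  have hta : 0 ≤ t - a := by linarith [ht.1]
  have h := key ((f t - c) / (2 * (t - a + 1))) (by
    apply div_pos (by linarith)
    linarith)
  have h3 : (f t - c) / (2 * (t - a + 1)) * (t - a) ≤ (f t - c) / 2 := by
    rw [div_mul_eq_mul_div, div_le_div_iff₀ (by linarith) (by norm_num)]
    nlinarith
  linarith

/-- weak barrier from below -/
theorem weak_barrier_ge {f f' : ℝ → ℝ} {a b c : ℝ}
    (hf : ∀ t ∈ Icc a b, HasDerivWithinAt f (f' t) (Icc a b) t) (ha : c ≤ f a)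
    (bound : ∀ t ∈ Ico a b, f t ≤ c → 0 ≤ f' t) : ∀ t ∈ Icc a b, c ≤ f t := by
  intro t ht
  have := weak_barrier_le (f := fun t => - f t) (f' := fun t => - f' t) (c := -c)
    (fun t ht => (hf t ht).neg) (by linarith)
    (fun t ht h => by
      have : f t ≤ c := by linarith
      have := bound t ht this
      linarith) t ht
  linarith

/-- PACKAGE GB1. Existence on every compact interval (`μ ≥ 9`; the barriers `P = μ/2`, `R = 7/2`
are only weak for `μ = 9`). -/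
theorem exists_boxSolG (μ Pl r₀ r₁ P₀ R₀ : ℝ) (hμ : 9 ≤ μ) (hr₀ : 0 < r₀) (hr : r₀ ≤ r₁)
    (hPl : 0 < Pl) (hPl1 : Pl ≤ 1)
    (hP₀ : P₀ ∈ Icc Pl (μ/2)) (hR₀ : R₀ ∈ Icc (1/2 : ℝ) (7/2)) :
    ∃ P R : ℝ → ℝ, P r₀ = P₀ ∧ R r₀ = R₀ ∧ BoxSolG μ Pl r₀ r₁ P R := by
  have hPl5 : Pl ≤ μ/2 := by linarith
  obtain ⟨α, h0, hα⟩ := exists_clampedG hμ hr₀ hr hPl hPl5 (P₀, R₀)
  have hP := fun t ht => hasDerivWithinAt_fstG (hα t ht)
  have hR := fun t ht => hasDerivWithinAt_sndG (hα t ht)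
  have hc : ∀ t, clG μ Pl (α t) ∈ bxG μ Pl := fun t => clG_mem hPl5 _
  have e1 : (α r₀).1 = P₀ := by rw [h0]
  have e2 : (α r₀).2 = R₀ := by rw [h0]
  have b1 : ∀ t ∈ Icc r₀ r₁, (α t).1 ≤ μ/2 := by
    apply weak_barrier_le hP (by rw [e1]; exact hP₀.2)
    intro t ht h
    have ht0 : 0 < t := lt_of_lt_of_le hr₀ ht.1
    have hc2 := (hc t).2.2
    have hc1 : (clG μ Pl (α t)).1 = μ/2 := by
      simp only [clG, min_eq_right h]
      exact max_eq_right hPl5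
    simp only [vfG, hc1]
    apply div_nonpos_of_nonpos_of_nonneg _ (by positivity)
    apply mul_nonpos_of_nonneg_of_nonpos (by linarith)
    linarith
  have b2 : ∀ t ∈ Icc r₀ r₁, Pl ≤ (α t).1 := by
    apply weak_barrier_ge hP (by rw [e1]; exact hP₀.1)
    intro t ht h
    have ht0 : 0 < t := lt_of_lt_of_le hr₀ ht.1
    have hc2 := (hc t).2.1
    have hc1 : (clG μ Pl (α t)).1 = Pl := by
      simp only [clG, min_eq_left (h.trans hPl5)]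
      exact max_eq_left h
    simp only [vfG, hc1]
    apply div_nonneg _ (by positivity)
    apply mul_nonneg hPl.le
    linarith
  have b3 : ∀ t ∈ Icc r₀ r₁, (α t).2 ≤ 7/2 := by
    apply weak_barrier_le hR (by rw [e2]; exact hR₀.2)
    intro t ht h
    have ht0 : 0 < t := lt_of_lt_of_le hr₀ ht.1
    have hc1 := (hc t).1
    have hc2 : (clG μ Pl (α t)).2 = 7/2 := by
      simp only [clG, min_eq_right h]
      norm_num
    have hd := den_posG hμ hPl (hc t)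
    simp only [vfG, hc2]
    apply div_nonpos_of_nonpos_of_nonneg _ (by positivity)
    have hB : BfG μ (clG μ Pl (α t)).1 (7/2) ≤ 0 := by
      unfold BfG
      have h1 := hc1.1
      have h2 := hc1.2
      nlinarith [mul_nonneg (sub_nonneg.2 h2) (by linarith : (0:ℝ) ≤ (clG μ Pl (α t)).1),
        mul_nonneg (sub_nonneg.2 h2) (by linarith : (0:ℝ) ≤ μ),
        mul_nonneg (by linarith : (0:ℝ) ≤ μ - 9) (by linarith : (0:ℝ) ≤ μ)]
    apply mul_nonpos_of_nonneg_of_nonpos (by norm_num) hB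
  have b4 : ∀ t ∈ Icc r₀ r₁, 1/2 ≤ (α t).2 := by
    apply weak_barrier_ge hR (by rw [e2]; exact hR₀.1)
    intro t ht h
    have ht0 : 0 < t := lt_of_lt_of_le hr₀ ht.1
    have hc1 := (hc t).1
    have hc2 : (clG μ Pl (α t)).2 = 1/2 := by
      simp only [clG, min_eq_left (h.trans (by norm_num : (1/2:ℝ) ≤ 7/2))]
      exact max_eq_left h
    have hd := den_posG hμ hPl (hc t)
    simp only [vfG, hc2]
    apply div_nonneg _ (by positivity)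
    have hB : 0 ≤ BfG μ (clG μ Pl (α t)).1 (1/2) := by
      unfold BfG
      have h1 := hc1.1
      nlinarith [mul_nonneg (by linarith : (0:ℝ) ≤ μ) (by linarith : (0:ℝ) ≤ (clG μ Pl (α t)).1),
        sq_nonneg μ, sq_nonneg (clG μ Pl (α t)).1]
    positivity
  have hmem : ∀ t ∈ Icc r₀ r₁, α t ∈ bxG μ Pl :=
    fun t ht => ⟨⟨b2 t ht, b1 t ht⟩, ⟨b4 t ht, b3 t ht⟩⟩
  refine ⟨fun t => (α t).1, fun t => (α t).2, e1, e2, fun t ht => (hmem t ht).1,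
    fun t ht => (hmem t ht).2, fun t ht => ?_, fun t ht => ?_⟩
  · have := hP t ht
    rw [clG_of_mem (hmem t ht)] at this
    exact this
  · have := hR t ht
    rw [clG_of_mem (hmem t ht)] at this
    exact this

theorem BoxSolG.hasDeriv {μ Pl r₀ r₁ : ℝ} {P R : ℝ → ℝ} (h : BoxSolG μ Pl r₀ r₁ P R) :
    ∀ r ∈ Icc r₀ r₁, HasDerivWithinAt (fun r => (P r, R r)) (vfG μ r (P r, R r)) (Icc r₀ r₁) r :=
  fun r hr => (h.dP r hr).prodMk (h.dR r hr)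

theorem BoxSolG.mem {μ Pl r₀ r₁ : ℝ} {P R : ℝ → ℝ} (h : BoxSolG μ Pl r₀ r₁ P R) :
    ∀ r ∈ Icc r₀ r₁, (P r, R r) ∈ bxG μ Pl :=
  fun r hr => ⟨h.memP r hr, h.memR r hr⟩

/-- PACKAGE GB2. Uniqueness in the box. -/
theorem BoxSolG.unique {μ Pl r₀ r₁ : ℝ} {P R P' R' : ℝ → ℝ} (hμ : 9 ≤ μ) (hr₀ : 0 < r₀)
    (hPl : 0 < Pl)
    (h : BoxSolG μ Pl r₀ r₁ P R) (h' : BoxSolG μ Pl r₀ r₁ P' R') (hP : P r₀ = P' r₀)
    (hR : R r₀ = R' r₀) :
    ∀ r ∈ Icc r₀ r₁, P r = P' r ∧ R r = R' r := by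
  obtain ⟨K, hK⟩ := exists_lipschitz_vfG hμ hPl hr₀
  have key := ODE_solution_unique_of_mem_Icc_right (v := vfG μ) (s := fun _ => bxG μ Pl) (K := K)
    (f := fun r => (P r, R r)) (g := fun r => (P' r, R' r)) (a := r₀) (b := r₁)
    (fun t ht => hK t ht.1)
    (fun r hr => (h.hasDeriv r hr).continuousWithinAt)
    (fun t ht => (h.hasDeriv t (Ico_subset_Icc_self ht)).mono_of_mem_nhdsWithin
      (Icc_mem_nhdsGE_of_mem ht))
    (fun t ht => h.mem t (Ico_subset_Icc_self ht))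
    (fun r hr => (h'.hasDeriv r hr).continuousWithinAt)
    (fun t ht => (h'.hasDeriv t (Ico_subset_Icc_self ht)).mono_of_mem_nhdsWithin
      (Icc_mem_nhdsGE_of_mem ht))
    (fun t ht => h'.mem t (Ico_subset_Icc_self ht))
    (by simp [hP, hR])
  intro r hr
  have := key hr
  simpa using this

theorem BoxSolG.mono {μ Pl r₀ r₁ r₂ : ℝ} {P R : ℝ → ℝ} (h : BoxSolG μ Pl r₀ r₁ P R)
    (h2 : r₂ ≤ r₁) : BoxSolG μ Pl r₀ r₂ P R := by
  have hs : Icc r₀ r₂ ⊆ Icc r₀ r₁ := Icc_subset_Icc_right h2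
  exact ⟨fun r hr => h.memP r (hs hr), fun r hr => h.memR r (hs hr),
    fun r hr => (h.dP r (hs hr)).mono hs, fun r hr => (h.dR r (hs hr)).mono hs⟩

theorem BoxSolG.congr {μ Pl r₀ r₁ : ℝ} {P R P' R' : ℝ → ℝ} (h : BoxSolG μ Pl r₀ r₁ P R)
    (hP : ∀ r ∈ Icc r₀ r₁, P' r = P r) (hR : ∀ r ∈ Icc r₀ r₁, R' r = R r) :
    BoxSolG μ Pl r₀ r₁ P' R' := by
  refine ⟨fun r hr => ?_, fun r hr => ?_, fun r hr => ?_, fun r hr => ?_⟩
  · rw [hP r hr]
    exact h.memP r hr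
  · rw [hR r hr]
    exact h.memR r hr
  · rw [hP r hr, hR r hr]
    exact (h.dP r hr).congr hP (hP r hr)
  · rw [hP r hr, hR r hr]
    exact (h.dR r hr).congr hR (hR r hr)

theorem contDiffOn_vfG {μ Pl r₀ r₁ : ℝ} (hμ : 9 ≤ μ) (hPl : 0 < Pl) (hr₀ : 0 < r₀) :
    ContDiffOn ℝ ∞ (Function.uncurry (vfG μ)) (Icc r₀ r₁ ×ˢ bxG μ Pl) := by
  unfold vfG BfG Function.uncurry
  apply ContDiffOn.prodMk
  · apply ContDiffOn.div
    · fun_prop
    · fun_prop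
    · intro z hz
      have : 0 < z.1 := lt_of_lt_of_le hr₀ hz.1.1
      positivity
  · apply ContDiffOn.div
    · fun_prop
    · fun_prop
    · intro z hz
      have h1 : 0 < z.1 := lt_of_lt_of_le hr₀ hz.1.1
      have h2 := den_posG hμ hPl hz.2
      positivity

theorem BoxSolG.contDiffOn {μ Pl r₀ r₁ : ℝ} {P R : ℝ → ℝ} (hμ : 9 ≤ μ) (hr₀ : 0 < r₀)
    (hPl : 0 < Pl) (h : BoxSolG μ Pl r₀ r₁ P R) :
    ContDiffOn ℝ ∞ (fun r => (P r, R r)) (Icc r₀ r₁) :=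
  ODE.contDiffOn_enat_Icc_of_hasDerivWithinAt (f := vfG μ) (u := bxG μ Pl)
    (contDiffOn_vfG hμ hPl hr₀) h.hasDeriv h.mem

/-- PACKAGE GB3. Global solution on `[r₀, ∞)`, smooth in the interior. -/
theorem exists_global_boxSolG (μ Pl r₀ P₀ R₀ : ℝ) (hμ : 9 ≤ μ) (hr₀ : 0 < r₀) (hPl : 0 < Pl)
    (hPl1 : Pl ≤ 1) (hP₀ : P₀ ∈ Icc Pl (μ/2)) (hR₀ : R₀ ∈ Icc (1/2 : ℝ) (7/2)) :
    ∃ P R : ℝ → ℝ, P r₀ = P₀ ∧ R r₀ = R₀ ∧ (∀ r₁, r₀ ≤ r₁ → BoxSolG μ Pl r₀ r₁ P R) ∧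
      ContDiffOn ℝ ∞ P (Ioi r₀) ∧ ContDiffOn ℝ ∞ R (Ioi r₀) := by
  have hex : ∀ T : ℝ, ∃ P R : ℝ → ℝ, P r₀ = P₀ ∧ R r₀ = R₀ ∧ BoxSolG μ Pl r₀ (max T r₀) P R :=
    fun T => exists_boxSolG μ Pl r₀ (max T r₀) P₀ R₀ hμ hr₀ (le_max_right _ _) hPl hPl1 hP₀ hR₀
  choose PT RT hPT hRT hBT using hex
  have hag : ∀ r₁, r₀ ≤ r₁ → ∀ r ∈ Icc r₀ r₁, PT r r = PT r₁ r ∧ RT r r = RT r₁ r := by
    intro r₁ h1 r hr
    have e1 : max r r₀ = r := max_eq_left hr.1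
    have e2 : max r₁ r₀ = r₁ := max_eq_left h1
    have b1 : BoxSolG μ Pl r₀ r (PT r) (RT r) := by
      have := hBT r
      rwa [e1] at this
    have b2 : BoxSolG μ Pl r₀ r (PT r₁) (RT r₁) := by
      have := hBT r₁
      rw [e2] at this
      exact this.mono hr.2
    exact BoxSolG.unique hμ hr₀ hPl b1 b2 (by rw [hPT, hPT]) (by rw [hRT, hRT]) r ⟨hr.1, le_rfl⟩
  have hbox : ∀ r₁, r₀ ≤ r₁ → BoxSolG μ Pl r₀ r₁ (fun r => PT r r) (fun r => RT r r) := by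
    intro r₁ h1
    have e2 : max r₁ r₀ = r₁ := max_eq_left h1
    have b := hBT r₁
    rw [e2] at b
    exact b.congr (fun r hr => (hag r₁ h1 r hr).1) (fun r hr => (hag r₁ h1 r hr).2)
  have hsm : ∀ r ∈ Ioi r₀, ContDiffAt ℝ ∞ (fun r => (PT r r, RT r r)) r := by
    intro r hr
    have hr' : r₀ < r := hr
    have h := (hbox (r + 1) (by linarith)).contDiffOn hμ hr₀ hPl
    exact h.contDiffAt (Icc_mem_nhds hr' (by linarith))
  refine ⟨fun r => PT r r, fun r => RT r r, hPT r₀, hRT r₀, hbox, ?_, ?_⟩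
  · intro r hr
    exact ((hsm r hr).fst).contDiffWithinAt
  · intro r hr
    exact ((hsm r hr).snd).contDiffWithinAt

end Vale.Agent.P252
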