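import Mathlib

open Finset PowerSeries

namespace Vale.Agent.P252

namespace GFormal

/-- `d/dX (X q)` -/
noncomputable def Dq (q : PowerSeries ℝ) : PowerSeries ℝ := PowerSeries.derivative ℝ (X * q)

noncomputable def Gf (p q : PowerSeries ℝ) : PowerSeries ℝ := C (1/2) * p * (q - p)

noncomputable def Btf (μ : ℝ) (p q : PowerSeries ℝ) : PowerSeries ℝ :=
  C (-μ^2) * q + C (2*μ+3) * p + C 2 * X * p^2 + C 6 * X * p * q

noncomputable def Ef (μ : ℝ) (p q : PowerSeries ℝ) : PowerSeries ℝ :=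
  C 2 * p^2 + C 6 * p * q + q * Btf μ p q - C 4 * p * Dq q

theorem coeff_Dq (q : PowerSeries ℝ) (j : ℕ) : coeff j (Dq q) = coeff j q * (j + 1) := by
  unfold Dq
  rw [PowerSeries.coeff_derivative, PowerSeries.coeff_succ_X_mul]

/-- the coefficients of `f` and `g` agree up to index `J` -/
def Agree (J : ℕ) (f g : PowerSeries ℝ) : Prop := ∀ j ≤ J, coeff j f = coeff j g

theorem Agree.refl (J : ℕ) (f : PowerSeries ℝ) : Agree J f f := fun _ _ => rfl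

theorem Agree.add {J : ℕ} {f g f' g' : PowerSeries ℝ} (h : Agree J f g) (h' : Agree J f' g') :
    Agree J (f + f') (g + g') := by
  intro j hj
  simp [h j hj, h' j hj]

theorem Agree.sub {J : ℕ} {f g f' g' : PowerSeries ℝ} (h : Agree J f g) (h' : Agree J f' g') :
    Agree J (f - f') (g - g') := by
  intro j hj
  simp [h j hj, h' j hj]

theorem Agree.mul {J : ℕ} {f g f' g' : PowerSeries ℝ} (h : Agree J f g) (h' : Agree J f' g') :
    Agree J (f * f') (g * g') := by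
  intro j hj
  rw [PowerSeries.coeff_mul, PowerSeries.coeff_mul]
  refine Finset.sum_congr rfl fun x hx => ?_
  have hx' := Finset.HasAntidiagonal.mem_antidiagonal.mp hx
  rw [h x.1 (by omega), h' x.2 (by omega)]

theorem Agree.sq {J : ℕ} {f g : PowerSeries ℝ} (h : Agree J f g) : Agree J (f ^ 2) (g ^ 2) := by
  rw [pow_two, pow_two]
  exact h.mul h

theorem Agree.Dq {J : ℕ} {f g : PowerSeries ℝ} (h : Agree J f g) : Agree J (Dq f) (Dq g) := by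
  intro j hj
  rw [coeff_Dq, coeff_Dq, h j hj]

theorem Agree.Gf {J : ℕ} {p p' q q' : PowerSeries ℝ} (hp : Agree J p p') (hq : Agree J q q') :
    Agree J (Gf p q) (Gf p' q') :=
  ((Agree.refl J _).mul hp).mul (hq.sub hp)

theorem Agree.Btf (μ : ℝ) {J : ℕ} {p p' q q' : PowerSeries ℝ} (hp : Agree J p p')
    (hq : Agree J q q') : Agree J (Btf μ p q) (Btf μ p' q') :=
  ((((Agree.refl J _).mul hq).add ((Agree.refl J _).mul hp)).add
    ((Agree.refl J _).mul hp.sq)).add (((Agree.refl J _).mul hp).mul hq)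

theorem Agree.Ef (μ : ℝ) {J : ℕ} {p p' q q' : PowerSeries ℝ} (hp : Agree J p p')
    (hq : Agree J q q') : Agree J (Ef μ p q) (Ef μ p' q') :=
  ((((Agree.refl J _).mul hp.sq).add (((Agree.refl J _).mul hp).mul hq)).add
    (hq.mul (Agree.Btf μ hp hq))).sub (((Agree.refl J _).mul hp).mul hq.Dq)

/-- the truncated solutions -/
noncomputable def st (μ : ℝ) : ℕ → PowerSeries ℝ × PowerSeries ℝ
  | 0 => (C 1, C ((2*μ+3) / (2*μ + μ^2)))
  | J + 1 =>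
    ((st μ J).1 + C (coeff J (Gf (st μ J).1 (st μ J).2) / (J + 1)) * X ^ (J + 1),
     (st μ J).2 + C (((2*μ+3) * (coeff J (Gf (st μ J).1 (st μ J).2) / (J + 1))
        + coeff J (Ef μ (st μ J).1 (st μ J).2)) / (2 * μ * (J + 2) + μ^2)) * X ^ (J + 1))

theorem st_high (μ : ℝ) (J j : ℕ) (h : J < j) :
    coeff j (st μ J).1 = 0 ∧ coeff j (st μ J).2 = 0 := by
  induction J with
  | zero =>
    have : j ≠ 0 := by omega
    simp [st, PowerSeries.coeff_C, this]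
  | succ J ih =>
    have h1 := ih (by omega)
    have : j ≠ J + 1 := by omega
    simp [st, h1.1, h1.2, this]

theorem st_succ_low (μ : ℝ) (J j : ℕ) (h : j ≤ J) :
    coeff j (st μ (J + 1)).1 = coeff j (st μ J).1 ∧
      coeff j (st μ (J + 1)).2 = coeff j (st μ J).2 := by
  have : j ≠ J + 1 := by omega
  simp [st, this]

theorem st_stable (μ : ℝ) (j J : ℕ) (h : j ≤ J) :
    coeff j (st μ J).1 = coeff j (st μ j).1 ∧ coeff j (st μ J).2 = coeff j (st μ j).2 := by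
  induction J, h using Nat.le_induction with
  | base => exact ⟨rfl, rfl⟩
  | succ J hJ ih =>
    have := st_succ_low μ J j hJ
    exact ⟨this.1.trans ih.1, this.2.trans ih.2⟩

noncomputable def Ps (μ : ℝ) : PowerSeries ℝ := PowerSeries.mk fun j => coeff j (st μ j).1

noncomputable def Qs (μ : ℝ) : PowerSeries ℝ := PowerSeries.mk fun j => coeff j (st μ j).2

theorem agree_Ps (μ : ℝ) (J : ℕ) : Agree J (Ps μ) (st μ J).1 := by
  intro j hj
  rw [Ps, PowerSeries.coeff_mk, (st_stable μ j J hj).1]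

theorem agree_Qs (μ : ℝ) (J : ℕ) : Agree J (Qs μ) (st μ J).2 := by
  intro j hj
  rw [Qs, PowerSeries.coeff_mk, (st_stable μ j J hj).2]

theorem coeff_zero_Ps (μ : ℝ) : coeff 0 (Ps μ) = 1 := by
  simp [Ps, st]

theorem coeff_zero_Qs (μ : ℝ) : coeff 0 (Qs μ) = (2*μ+3) / (2*μ + μ^2) := by
  simp [Qs, st]

theorem coeff_succ_Ps (μ : ℝ) (J : ℕ) :
    coeff (J + 1) (Ps μ) = coeff J (Gf (Ps μ) (Qs μ)) / (J + 1) := by
  rw [Agree.Gf (agree_Ps μ J) (agree_Qs μ J) J le_rfl]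
  simp [Ps, st, (st_high μ J (J + 1) (by omega)).1]

theorem coeff_succ_Qs (μ : ℝ) (J : ℕ) : coeff (J + 1) (Qs μ)
    = ((2*μ+3) * coeff (J + 1) (Ps μ) + coeff J (Ef μ (Ps μ) (Qs μ))) / (2 * μ * (J + 2) + μ^2) := by
  rw [coeff_succ_Ps, Agree.Gf (agree_Ps μ J) (agree_Qs μ J) J le_rfl,
    Agree.Ef μ (agree_Ps μ J) (agree_Qs μ J) J le_rfl]
  simp [Qs, st, (st_high μ J (J + 1) (by omega)).2]

theorem ode_one (μ : ℝ) : PowerSeries.derivative ℝ (Ps μ) = Gf (Ps μ) (Qs μ) := by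
  ext j
  rw [PowerSeries.coeff_derivative, coeff_succ_Ps]
  have : (j : ℝ) + 1 ≠ 0 := by positivity
  field_simp

theorem ode_two (μ : ℝ) (hμ : 0 < μ) : C (2*μ) * Dq (Qs μ) + C (μ^2) * Qs μ
    = C (2*μ+3) * Ps μ + X * Ef μ (Ps μ) (Qs μ) := by
  ext j
  cases j with
  | zero =>
    simp only [LinearMap.map_add, PowerSeries.coeff_C_mul, coeff_Dq, PowerSeries.coeff_zero_X_mul,
      coeff_zero_Ps, coeff_zero_Qs]
    have : 2 * μ + μ ^ 2 ≠ 0 := by positivity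
    push_cast
    field_simp
    ring
  | succ J =>
    simp only [LinearMap.map_add, PowerSeries.coeff_C_mul, coeff_Dq, PowerSeries.coeff_succ_X_mul]
    rw [coeff_succ_Qs]
    have : (2 * μ * ((J : ℝ) + 2) + μ ^ 2) ≠ 0 := by positivity
    push_cast
    field_simp
    ring

/-- partial sums of the l1 norm at radius `ρ` -/
noncomputable def S (ρ : ℝ) (J : ℕ) (f : PowerSeries ℝ) : ℝ :=
  ∑ j ∈ range (J + 1), |coeff j f| * ρ ^ j

section bounds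

variable {ρ : ℝ} (hρ : 0 ≤ ρ)

include hρ

theorem S_nonneg (J : ℕ) (f : PowerSeries ℝ) : 0 ≤ S ρ J f :=
  Finset.sum_nonneg fun _ _ => by positivity

theorem S_add_le (J : ℕ) (f g : PowerSeries ℝ) : S ρ J (f + g) ≤ S ρ J f + S ρ J g := by
  unfold S
  rw [← Finset.sum_add_distrib]
  refine Finset.sum_le_sum fun j _ => ?_
  rw [map_add, ← add_mul]
  exact mul_le_mul_of_nonneg_right (abs_add_le _ _) (by positivity)

theorem S_sub_le (J : ℕ) (f g : PowerSeries ℝ) : S ρ J (f - g) ≤ S ρ J f + S ρ J g := by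
  unfold S
  rw [← Finset.sum_add_distrib]
  refine Finset.sum_le_sum fun j _ => ?_
  rw [map_sub, ← add_mul]
  exact mul_le_mul_of_nonneg_right (abs_sub _ _) (by positivity)

omit hρ in
theorem sum_anti_le (F G : ℕ → ℝ) (hF : ∀ i, 0 ≤ F i) (hG : ∀ i, 0 ≤ G i) (J : ℕ) :
    ∑ j ∈ range (J + 1), ∑ x ∈ antidiagonal j, F x.1 * G x.2
      ≤ (∑ i ∈ range (J + 1), F i) * ∑ k ∈ range (J + 1), G k := by
  rw [Finset.sum_mul_sum, ← Finset.sum_product', ← Finset.sum_biUnion]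
  · apply Finset.sum_le_sum_of_subset_of_nonneg
    · intro x hx
      simp only [Finset.mem_biUnion, Finset.mem_range, Finset.HasAntidiagonal.mem_antidiagonal,
        Finset.mem_product] at hx ⊢
      omega
    · intro x _ _
      exact mul_nonneg (hF _) (hG _)
  · intro i _ j _ hij
    rw [Function.onFun, Finset.disjoint_left]
    intro x hx hx'
    rw [Finset.HasAntidiagonal.mem_antidiagonal] at hx hx'
    omega

theorem S_mul_le (J : ℕ) (f g : PowerSeries ℝ) : S ρ J (f * g) ≤ S ρ J f * S ρ J g := by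
  unfold S
  refine le_trans ?_ (sum_anti_le (fun i => |coeff i f| * ρ ^ i)
    (fun i => |coeff i g| * ρ ^ i) (fun _ => by positivity) (fun _ => by positivity) J)
  refine Finset.sum_le_sum fun j _ => ?_
  rw [PowerSeries.coeff_mul]
  refine le_trans (mul_le_mul_of_nonneg_right (Finset.abs_sum_le_sum_abs _ _) (by positivity)) ?_
  rw [Finset.sum_mul]
  refine le_of_eq (Finset.sum_congr rfl fun x hx => ?_)
  have hx' := Finset.HasAntidiagonal.mem_antidiagonal.mp hx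
  rw [abs_mul, ← hx', pow_add]
  ring

omit hρ in
theorem S_C_mul (J : ℕ) (c : ℝ) (f : PowerSeries ℝ) : S ρ J (C c * f) = |c| * S ρ J f := by
  unfold S
  rw [Finset.mul_sum]
  refine Finset.sum_congr rfl fun j _ => ?_
  rw [PowerSeries.coeff_C_mul, abs_mul]
  ring

omit hρ in
theorem S_succ (J : ℕ) (f : PowerSeries ℝ) :
    S ρ (J + 1) f = |coeff 0 f| + ∑ j ∈ range (J + 1), |coeff (j + 1) f| * ρ ^ (j + 1) := by
  unfold S
  rw [Finset.sum_range_succ']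
  simp
  ring

theorem S_mono (J : ℕ) (f : PowerSeries ℝ) : S ρ J f ≤ S ρ (J + 1) f := by
  unfold S
  rw [Finset.sum_range_succ _ (J + 1)]
  have : 0 ≤ |coeff (J + 1) f| * ρ ^ (J + 1) := by positivity
  linarith

omit hρ in
theorem S_succ_X_mul (J : ℕ) (f : PowerSeries ℝ) : S ρ (J + 1) (X * f) = ρ * S ρ J f := by
  rw [S_succ, PowerSeries.coeff_zero_X_mul, abs_zero, zero_add]
  unfold S
  rw [Finset.mul_sum]
  refine Finset.sum_congr rfl fun j _ => ?_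
  rw [PowerSeries.coeff_succ_X_mul, pow_succ]
  ring

theorem S_X_mul_le (J : ℕ) (f : PowerSeries ℝ) : S ρ J (X * f) ≤ ρ * S ρ J f :=
  (S_mono hρ J _).trans (S_succ_X_mul J f).le

theorem S_X_le (J : ℕ) : S ρ J (X : PowerSeries ℝ) ≤ ρ := by
  have h := S_X_mul_le hρ J (C 1)
  have h1 : S ρ J (C (1:ℝ)) = 1 := by
    unfold S
    rw [Finset.sum_range_succ']
    simp
  rw [h1] at h
  simpa using h

theorem le_mul' {J : ℕ} {f g : PowerSeries ℝ} {a b : ℝ} (h1 : S ρ J f ≤ a) (h2 : S ρ J g ≤ b) :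
    S ρ J (f * g) ≤ a * b :=
  (S_mul_le hρ J f g).trans (mul_le_mul h1 h2 (S_nonneg hρ _ _) ((S_nonneg hρ _ _).trans h1))

theorem le_add' {J : ℕ} {f g : PowerSeries ℝ} {a b : ℝ} (h1 : S ρ J f ≤ a) (h2 : S ρ J g ≤ b) :
    S ρ J (f + g) ≤ a + b :=
  (S_add_le hρ J f g).trans (add_le_add h1 h2)

theorem le_sub' {J : ℕ} {f g : PowerSeries ℝ} {a b : ℝ} (h1 : S ρ J f ≤ a) (h2 : S ρ J g ≤ b) :
    S ρ J (f - g) ≤ a + b :=
  (S_sub_le hρ J f g).trans (add_le_add h1 h2)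

omit hρ in
theorem le_C_mul' {J : ℕ} {f : PowerSeries ℝ} {a : ℝ} (c : ℝ) (h1 : S ρ J f ≤ a) :
    S ρ J (C c * f) ≤ |c| * a := by
  rw [S_C_mul]
  exact mul_le_mul_of_nonneg_left h1 (abs_nonneg _)

theorem le_sq' {J : ℕ} {f : PowerSeries ℝ} {a : ℝ} (h1 : S ρ J f ≤ a) :
    S ρ J (f ^ 2) ≤ a * a := by
  rw [pow_two]
  exact le_mul' hρ h1 h1

theorem S_Gf_le {J : ℕ} {p q : PowerSeries ℝ} (hp : S ρ J p ≤ 3/2) (hq : S ρ J q ≤ 3) :
    S ρ J (Gf p q) ≤ 27/8 := by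
  have h := le_mul' hρ (le_C_mul' (1/2) hp) (le_sub' hρ hq hp)
  refine h.trans (le_of_eq ?_)
  rw [abs_of_pos (by norm_num : (0:ℝ) < 1/2)]
  norm_num

theorem S_Btf_le (μ : ℝ) (hμ : 0 < μ) {J : ℕ} {p q : PowerSeries ℝ} (hp : S ρ J p ≤ 3/2)
    (hq : S ρ J q ≤ 3) :
    S ρ J (Btf μ p q) ≤ 3 * μ^2 + 3 * μ + 9/2 + (63/2) * ρ := by
  have h := le_add' hρ (le_add' hρ (le_add' hρ (le_C_mul' (-μ^2) hq) (le_C_mul' (2*μ+3) hp))
    (le_mul' hρ (le_C_mul' 2 (S_X_le hρ J)) (le_sq' hρ hp)))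
    (le_mul' hρ (le_mul' hρ (le_C_mul' 6 (S_X_le hρ J)) hp) hq)
  refine h.trans (le_of_eq ?_)
  rw [abs_neg, abs_of_pos (by positivity : (0:ℝ) < μ^2), abs_of_pos (by positivity : (0:ℝ) < 2*μ+3),
    abs_of_pos (by norm_num : (0:ℝ) < 2), abs_of_pos (by norm_num : (0:ℝ) < 6)]
  ring

theorem S_Ef_le (μ : ℝ) (hμ : 0 < μ) {J : ℕ} {p q : PowerSeries ℝ} (hp : S ρ J p ≤ 3/2)
    (hq : S ρ J q ≤ 3) (hD : S ρ J (Dq q) ≤ 3) :
    S ρ J (Ef μ p q) ≤ 9 * μ^2 + 9 * μ + 63 + (189/2) * ρ := by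
  have h := le_sub' hρ (le_add' hρ (le_add' hρ (le_C_mul' 2 (le_sq' hρ hp))
    (le_mul' hρ (le_C_mul' 6 hp) hq))
    (le_mul' hρ hq (S_Btf_le hρ μ hμ hp hq))) (le_mul' hρ (le_C_mul' 4 hp) hD)
  refine h.trans (le_of_eq ?_)
  rw [abs_of_pos (by norm_num : (0:ℝ) < 4),
    abs_of_pos (by norm_num : (0:ℝ) < 2), abs_of_pos (by norm_num : (0:ℝ) < 6)]
  ring

theorem S_le_S_Dq (J : ℕ) (q : PowerSeries ℝ) : S ρ J q ≤ S ρ J (Dq q) := by
  unfold S
  refine Finset.sum_le_sum fun j _ => ?_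
  rw [coeff_Dq, abs_mul]
  have h1 : (1:ℝ) ≤ |(j:ℝ) + 1| := by
    rw [abs_of_pos (by positivity)]
    have : (0:ℝ) ≤ j := Nat.cast_nonneg j
    linarith
  have h2 : |coeff j q| ≤ |coeff j q| * |(j:ℝ) + 1| := le_mul_of_one_le_right (abs_nonneg _) h1
  exact mul_le_mul_of_nonneg_right h2 (by positivity)

theorem S_succ_Ps_le (μ : ℝ) (J : ℕ) :
    S ρ (J + 1) (Ps μ) ≤ 1 + ρ * S ρ J (Gf (Ps μ) (Qs μ)) := by
  rw [S_succ, coeff_zero_Ps, abs_one]
  refine add_le_add le_rfl ?_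
  unfold S
  rw [Finset.mul_sum]
  refine Finset.sum_le_sum fun j _ => ?_
  rw [coeff_succ_Ps, abs_div, pow_succ]
  have h1 : (1:ℝ) ≤ |(j:ℝ) + 1| := by
    rw [abs_of_pos (by positivity)]
    have : (0:ℝ) ≤ j := Nat.cast_nonneg j
    linarith
  have h2 : |coeff j (Gf (Ps μ) (Qs μ))| / |(j:ℝ) + 1| ≤ |coeff j (Gf (Ps μ) (Qs μ))| :=
    div_le_self (abs_nonneg _) h1
  have h3 : (0:ℝ) ≤ ρ ^ j * ρ := by positivity
  calc |coeff j (Gf (Ps μ) (Qs μ))| / |(j:ℝ) + 1| * (ρ ^ j * ρ)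
      ≤ |coeff j (Gf (Ps μ) (Qs μ))| * (ρ ^ j * ρ) := mul_le_mul_of_nonneg_right h2 h3
    _ = ρ * (|coeff j (Gf (Ps μ) (Qs μ))| * ρ ^ j) := by ring

omit hρ in
theorem abs_coeff_succ_Dq_le (μ : ℝ) (hμ : 0 < μ) (j : ℕ) : |coeff (j + 1) (Dq (Qs μ))|
    ≤ ((2*μ+3) * |coeff (j + 1) (Ps μ)| + |coeff j (Ef μ (Ps μ) (Qs μ))|) * (1 / (2*μ)) := by
  rw [coeff_Dq, coeff_succ_Qs]
  have hj : (0:ℝ) ≤ j := Nat.cast_nonneg j
  have hpos : (0:ℝ) < 2 * μ * ((j:ℝ) + 2) + μ^2 := by positivity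
  set N := (2*μ+3) * coeff (j + 1) (Ps μ) + coeff j (Ef μ (Ps μ) (Qs μ)) with hN
  have hNle : |N| ≤ (2*μ+3) * |coeff (j + 1) (Ps μ)| + |coeff j (Ef μ (Ps μ) (Qs μ))| := by
    refine (abs_add_le _ _).trans ?_
    rw [abs_mul, abs_of_pos (by positivity : (0:ℝ) < 2*μ+3)]
  have h1 : N / (2 * μ * ((j:ℝ) + 2) + μ^2) * (((j + 1 : ℕ) : ℝ) + 1)
      = N * (((j:ℝ) + 2) / (2 * μ * ((j:ℝ) + 2) + μ^2)) := by
    push_cast
    field_simp
    ring
  rw [h1, abs_mul]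
  have h2 : |((j:ℝ) + 2) / (2 * μ * ((j:ℝ) + 2) + μ^2)| ≤ 1 / (2*μ) := by
    rw [abs_of_nonneg (by positivity), div_le_div_iff₀ hpos (by positivity)]
    nlinarith [sq_nonneg μ]
  calc |N| * |((j:ℝ) + 2) / (2 * μ * ((j:ℝ) + 2) + μ^2)| ≤ |N| * (1/(2*μ)) :=
        mul_le_mul_of_nonneg_left h2 (abs_nonneg _)
    _ ≤ _ := mul_le_mul_of_nonneg_right hNle (by positivity)

theorem S_succ_Dq_le (μ : ℝ) (hμ : 0 < μ) (J : ℕ) :
    S ρ (J + 1) (Dq (Qs μ)) ≤ ((2*μ+3) / (2*μ)) * S ρ (J + 1) (Ps μ)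
      + (ρ / (2*μ)) * S ρ J (Ef μ (Ps μ) (Qs μ)) := by
  rw [S_succ, S_succ (f := Ps μ), coeff_zero_Ps, abs_one]
  have h0 : |coeff 0 (Dq (Qs μ))| ≤ (2*μ+3) / (2*μ) := by
    rw [coeff_Dq, coeff_zero_Qs]
    push_cast
    rw [zero_add, mul_one, abs_of_pos (by positivity)]
    apply div_le_div_of_nonneg_left (by positivity) (by positivity)
    nlinarith [sq_nonneg μ]
  have h1 : ∑ j ∈ range (J + 1), |coeff (j + 1) (Dq (Qs μ))| * ρ ^ (j + 1)
      ≤ ((2*μ+3) / (2*μ)) * ∑ j ∈ range (J + 1), |coeff (j + 1) (Ps μ)| * ρ ^ (j + 1)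
        + (ρ / (2*μ)) * S ρ J (Ef μ (Ps μ) (Qs μ)) := by
    unfold S
    rw [Finset.mul_sum, Finset.mul_sum, ← Finset.sum_add_distrib]
    refine Finset.sum_le_sum fun j _ => ?_
    have h2 := abs_coeff_succ_Dq_le μ hμ j
    have h3 : (0:ℝ) ≤ ρ ^ (j + 1) := by positivity
    calc |coeff (j + 1) (Dq (Qs μ))| * ρ ^ (j + 1)
        ≤ ((2*μ+3) * |coeff (j + 1) (Ps μ)| + |coeff j (Ef μ (Ps μ) (Qs μ))|) * (1 / (2*μ))
            * ρ ^ (j + 1) := mul_le_mul_of_nonneg_right h2 h3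
      _ = _ := by
          rw [pow_succ]
          ring
  rw [mul_add, mul_one]
  linarith

end bounds

theorem final_ineq (μ : ℝ) (hμ : 9 ≤ μ) :
    ((2*μ+3) / (2*μ)) * (1 + 1/(5*μ) * (27/8))
      + ((1/(5*μ)) / (2*μ)) * (9 * μ^2 + 9 * μ + 63 + (189/2) * (1/(5*μ))) ≤ 3 := by
  have hμ0 : 0 < μ := by linarith
  have e : ((2*μ+3) / (2*μ)) * (1 + 1/(5*μ) * (27/8))
      + ((1/(5*μ)) / (2*μ)) * (9 * μ^2 + 9 * μ + 63 + (189/2) * (1/(5*μ)))
      = (760 * μ^3 + 1230 * μ^2 + 2925 * μ + 756) / (400 * μ^3) := by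
    field_simp
    ring
  rw [e, div_le_iff₀ (by positivity)]
  have h2 : 81 ≤ μ^2 := by nlinarith
  have h3 : 9 * μ^2 ≤ μ^3 := by nlinarith
  nlinarith

theorem bounds (μ : ℝ) (hμ : 9 ≤ μ) (J : ℕ) :
    S (1/(5*μ)) J (Ps μ) ≤ 3/2 ∧ S (1/(5*μ)) J (Dq (Qs μ)) ≤ 3 := by
  have hμ0 : 0 < μ := by linarith
  have hρ : (0:ℝ) ≤ 1/(5*μ) := by positivity
  have hρ' : 1/(5*μ) ≤ 1/45 := by
    apply one_div_le_one_div_of_le (by norm_num)
    linarith
  induction J with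
  | zero =>
    constructor
    · simp [S, coeff_zero_Ps]
      norm_num
    · have h0 : coeff 0 (Dq (Qs μ)) = (2*μ+3) / (2*μ + μ^2) := by
        rw [coeff_Dq, coeff_zero_Qs]
        push_cast
        ring
      simp only [S, zero_add, Finset.sum_range_one, h0, pow_zero, mul_one]
      rw [abs_of_pos (by positivity), div_le_iff₀ (by positivity)]
      nlinarith
  | succ J ih =>
    obtain ⟨hp, hD⟩ := ih
    have hq : S (1/(5*μ)) J (Qs μ) ≤ 3 := (S_le_S_Dq hρ J (Qs μ)).trans hD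
    have h1 := S_succ_Ps_le hρ μ J
    have h2 := S_Gf_le hρ hp hq
    have h3 := S_succ_Dq_le hρ μ hμ0 J
    have h4 := S_Ef_le hρ μ hμ0 hp hq hD
    have h5 : S (1/(5*μ)) (J + 1) (Ps μ) ≤ 1 + 1/(5*μ) * (27/8) :=
      h1.trans (add_le_add le_rfl (mul_le_mul_of_nonneg_left h2 hρ))
    constructor
    · nlinarith
    · have h6 : ((2*μ+3) / (2*μ)) * S (1/(5*μ)) (J + 1) (Ps μ)
          ≤ ((2*μ+3) / (2*μ)) * (1 + 1/(5*μ) * (27/8)) :=
        mul_le_mul_of_nonneg_left h5 (by positivity)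
      have h7 : ((1/(5*μ)) / (2*μ)) * S (1/(5*μ)) J (Ef μ (Ps μ) (Qs μ))
          ≤ ((1/(5*μ)) / (2*μ)) * (9 * μ^2 + 9 * μ + 63 + (189/2) * (1/(5*μ))) :=
        mul_le_mul_of_nonneg_left h4 (by positivity)
      have h8 := final_ineq μ hμ
      linarith

end GFormal

open GFormal in
/-- PACKAGE GS2. Formal power series solution of the singular system with real parameter `μ ≥ 9`,
with l1 bounds of the partial sums at radius `1/(5 μ)`. -/
theorem exists_formal_solution_gen (μ : ℝ) (hμ : 9 ≤ μ) : ∃ p q : PowerSeries ℝ,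
    coeff 0 p = 1 ∧
    PowerSeries.derivative ℝ p = C (1/2) * p * (q - p) ∧
    C 2 * (C μ + C 2 * X * p) * PowerSeries.derivative ℝ (X * q)
      = (1 + X * q) * (C (-μ^2) * q + C (2*μ+3) * p + C 2 * X * p^2 + C 6 * X * p * q) ∧
    (∀ J, ∑ j ∈ range (J+1), |coeff j p| * (1/(5*μ) : ℝ)^j ≤ 3/2) ∧
    (∀ J, ∑ j ∈ range (J+1), |coeff j q| * (1/(5*μ) : ℝ)^j ≤ 3) := by
  have hμ0 : 0 < μ := by linarith
  have hρ : (0:ℝ) ≤ 1/(5*μ) := by positivity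
  refine ⟨Ps μ, Qs μ, coeff_zero_Ps μ, ode_one μ, ?_, fun J => (bounds μ hμ J).1,
    fun J => (S_le_S_Dq hρ J (Qs μ)).trans (bounds μ hμ J).2⟩
  have h := ode_two μ hμ0
  unfold Ef Btf Dq at h
  have c2 : (C (2:ℝ) : PowerSeries ℝ) = 2 := map_ofNat C 2
  have c4 : (C (4:ℝ) : PowerSeries ℝ) = 4 := map_ofNat C 4
  have c6 : (C (6:ℝ) : PowerSeries ℝ) = 6 := map_ofNat C 6
  have c2μ : (C (2*μ) : PowerSeries ℝ) = 2 * C μ := by rw [map_mul, c2]
  have cμ2 : (C (-μ^2) : PowerSeries ℝ) = - C (μ^2) := by rw [map_neg]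
  rw [c2, c4, c6, c2μ, cμ2] at h
  rw [c2, c6, cμ2]
  linear_combination h

end Vale.Agent.P252
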