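import Mathlib

open Finset PowerSeries
open scoped ContDiff

namespace Vale.Agent.P252

/-- the coefficients of `f` are absolutely summable at radius `ρ` -/
def SummableAt (ρ : ℝ) (f : PowerSeries ℝ) : Prop := Summable fun j => |coeff j f| * ρ^j

/-- value of the power series `f` at the real number `r` -/
noncomputable def ev (f : PowerSeries ℝ) (r : ℝ) : ℝ := ∑' j, coeff j f * r^j

/-- the l1 norm at radius `ρ` -/
noncomputable def nrm (ρ : ℝ) (f : PowerSeries ℝ) : ℝ := ∑' j, |coeff j f| * ρ^j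

variable {ρ ρ' r : ℝ} {f g : PowerSeries ℝ}

/-- PACKAGE S1 (all statements of this file). -/
theorem summableAt_of_partial_sums (hρ : 0 ≤ ρ) (K : ℝ)
    (h : ∀ J, ∑ j ∈ range (J+1), |coeff j f| * ρ^j ≤ K) : SummableAt ρ f ∧ nrm ρ f ≤ K := by
  have hnn : ∀ j, 0 ≤ |coeff j f| * ρ^j := fun j => by positivity
  have h' : ∀ J, ∑ j ∈ range J, |coeff j f| * ρ^j ≤ K := by
    intro J
    refine le_trans ?_ (h J)
    exact Finset.sum_le_sum_of_subset_of_nonneg (Finset.range_subset_range.mpr (Nat.le_succ J))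
      (fun j _ _ => hnn j)
  have hs : Summable fun j => |coeff j f| * ρ^j := summable_of_sum_range_le hnn h'
  exact ⟨hs, hs.tsum_le_of_sum_range_le h'⟩

theorem summableAt_abs_iff : SummableAt |ρ| f ↔ SummableAt ρ f := by
  unfold SummableAt
  rw [← summable_abs_iff (f := fun j => |coeff j f| * ρ^j)]
  refine summable_congr (fun j => ?_)
  rw [abs_mul, abs_abs, abs_pow]

theorem SummableAt.mono (hf : SummableAt ρ f) (h0 : 0 ≤ ρ') (h : ρ' ≤ ρ) : SummableAt ρ' f := by
  refine Summable.of_nonneg_of_le (fun n => by positivity) (fun n => ?_) hf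
  exact mul_le_mul_of_nonneg_left (pow_le_pow_left₀ h0 h n) (abs_nonneg _)

theorem SummableAt.summable_norm (h : SummableAt ρ f) (hx : |r| ≤ ρ) :
    Summable fun n => ‖coeff n f * r ^ n‖ := by
  refine Summable.of_nonneg_of_le (fun n => norm_nonneg _) (fun n => ?_) h
  rw [norm_mul, norm_pow, Real.norm_eq_abs, Real.norm_eq_abs]
  exact mul_le_mul_of_nonneg_left (pow_le_pow_left₀ (abs_nonneg r) hx n) (abs_nonneg _)

theorem SummableAt.summable_ev (hf : SummableAt ρ f) (hr : |r| ≤ ρ) :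
    Summable fun j => coeff j f * r^j :=
  (hf.summable_norm hr).of_norm

theorem abs_ev_le (hf : SummableAt ρ f) (hr : |r| ≤ ρ) : |ev f r| ≤ nrm ρ f := by
  unfold ev nrm
  have h1 : ‖∑' j, coeff j f * r^j‖ ≤ ∑' j, ‖coeff j f * r^j‖ :=
    norm_tsum_le_tsum_norm (hf.summable_norm hr)
  rw [Real.norm_eq_abs] at h1
  refine h1.trans ((hf.summable_norm hr).tsum_le_tsum (fun n => ?_) hf)
  rw [norm_mul, norm_pow, Real.norm_eq_abs, Real.norm_eq_abs]
  exact mul_le_mul_of_nonneg_left (pow_le_pow_left₀ (abs_nonneg r) hr n) (abs_nonneg _)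

/-- distance to the constant coefficient -/
theorem abs_ev_sub_le (hf : SummableAt ρ f) (hr : |r| ≤ ρ) :
    |ev f r - coeff 0 f| ≤ nrm ρ f - |coeff 0 f| := by
  have hs := hf.summable_ev hr
  have hsn := hf.summable_norm hr
  have e1 : ev f r = coeff 0 f + ∑' j, coeff (j+1) f * r^(j+1) := by
    unfold ev
    rw [hs.tsum_eq_zero_add]; simp
  have e2 : nrm ρ f = |coeff 0 f| + ∑' j, |coeff (j+1) f| * ρ^(j+1) := by
    unfold nrm
    rw [Summable.tsum_eq_zero_add hf]; simp
  rw [e1, e2, add_sub_cancel_left, add_sub_cancel_left]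
  have hsn' : Summable fun j => ‖coeff (j+1) f * r^(j+1)‖ := (summable_nat_add_iff 1).mpr hsn
  have hf' : Summable fun j => |coeff (j+1) f| * ρ^(j+1) :=
    (summable_nat_add_iff (f := fun j => |coeff j f| * ρ^j) 1).mpr hf
  have h1 : ‖∑' j, coeff (j+1) f * r^(j+1)‖ ≤ ∑' j, ‖coeff (j+1) f * r^(j+1)‖ :=
    norm_tsum_le_tsum_norm hsn'
  rw [Real.norm_eq_abs] at h1
  refine h1.trans (hsn'.tsum_le_tsum (fun n => ?_) hf')
  rw [norm_mul, norm_pow, Real.norm_eq_abs, Real.norm_eq_abs]
  exact mul_le_mul_of_nonneg_left (pow_le_pow_left₀ (abs_nonneg r) hr (n+1)) (abs_nonneg _)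

theorem summableAt_monomial (k : ℕ) (c : ℝ) : SummableAt ρ (monomial k c) := by
  refine summable_of_ne_finset_zero (s := {k}) (fun n hn => ?_)
  have : n ≠ k := by simpa using hn
  simp [coeff_monomial, this]

theorem summableAt_C (a : ℝ) : SummableAt ρ (C a) := by
  rw [← monomial_zero_eq_C_apply]; exact summableAt_monomial 0 a

theorem summableAt_X : SummableAt ρ (X : PowerSeries ℝ) := by
  rw [X_eq]; exact summableAt_monomial 1 1

theorem SummableAt.add (hf : SummableAt ρ f) (hg : SummableAt ρ g) : SummableAt ρ (f + g) := by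
  rw [← summableAt_abs_iff] at hf hg ⊢
  refine Summable.of_nonneg_of_le (fun n => by positivity) (fun n => ?_) (Summable.add hf hg)
  rw [map_add, ← add_mul]
  exact mul_le_mul_of_nonneg_right (abs_add_le _ _) (by positivity)

theorem SummableAt.neg (hf : SummableAt ρ f) : SummableAt ρ (-f) := by
  simpa [SummableAt] using hf

theorem SummableAt.sub (hf : SummableAt ρ f) (hg : SummableAt ρ g) : SummableAt ρ (f - g) := by
  rw [sub_eq_add_neg]; exact hf.add hg.neg

theorem SummableAt.mul (hρ : 0 ≤ ρ) (hf : SummableAt ρ f) (hg : SummableAt ρ g) :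
    SummableAt ρ (f * g) := by
  have hf' : Summable fun n => ‖|coeff n f| * ρ ^ n‖ := by
    refine hf.congr (fun n => ?_)
    rw [Real.norm_of_nonneg (by positivity)]
  have hg' : Summable fun n => ‖|coeff n g| * ρ ^ n‖ := by
    refine hg.congr (fun n => ?_)
    rw [Real.norm_of_nonneg (by positivity)]
  have key := summable_norm_sum_mul_antidiagonal_of_summable_norm hf' hg'
  refine Summable.of_nonneg_of_le (fun n => by positivity) (fun n => ?_) key
  rw [coeff_mul]
  have h1 : |∑ p ∈ Finset.HasAntidiagonal.antidiagonal n, coeff p.1 f * coeff p.2 g| * ρ ^ n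
      ≤ ∑ p ∈ Finset.HasAntidiagonal.antidiagonal n,
          (|coeff p.1 f| * ρ ^ p.1) * (|coeff p.2 g| * ρ ^ p.2) := by
    calc |∑ p ∈ Finset.HasAntidiagonal.antidiagonal n, coeff p.1 f * coeff p.2 g| * ρ ^ n
        ≤ (∑ p ∈ Finset.HasAntidiagonal.antidiagonal n, |coeff p.1 f * coeff p.2 g|) * ρ ^ n :=
          mul_le_mul_of_nonneg_right (Finset.abs_sum_le_sum_abs _ _) (by positivity)
      _ = ∑ p ∈ Finset.HasAntidiagonal.antidiagonal n,
            (|coeff p.1 f| * ρ ^ p.1) * (|coeff p.2 g| * ρ ^ p.2) := by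
          rw [Finset.sum_mul]
          refine Finset.sum_congr rfl (fun p hp => ?_)
          have hp' : p.1 + p.2 = n := Finset.HasAntidiagonal.mem_antidiagonal.mp hp
          rw [← hp', pow_add, abs_mul]; ring
  exact h1.trans (le_abs_self _)

theorem ev_monomial (k : ℕ) (c x : ℝ) : ev (monomial k c) x = c * x ^ k := by
  unfold ev
  rw [tsum_eq_single k]
  · simp
  · intro n hn; simp [coeff_monomial, hn]

theorem ev_C (a : ℝ) : ev (C a) r = a := by
  rw [← monomial_zero_eq_C_apply, ev_monomial]; simp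

theorem ev_X : ev (X : PowerSeries ℝ) r = r := by
  rw [X_eq, ev_monomial]; simp

theorem ev_add (hf : SummableAt ρ f) (hg : SummableAt ρ g) (hr : |r| ≤ ρ) :
    ev (f + g) r = ev f r + ev g r := by
  unfold ev
  rw [← (hf.summable_ev hr).tsum_add (hg.summable_ev hr)]
  refine tsum_congr (fun n => ?_)
  rw [map_add, add_mul]

theorem ev_neg (f : PowerSeries ℝ) (x : ℝ) : ev (-f) x = - ev f x := by
  unfold ev
  rw [← tsum_neg]
  refine tsum_congr (fun n => ?_)
  rw [map_neg, neg_mul]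

theorem ev_sub (hf : SummableAt ρ f) (hg : SummableAt ρ g) (hr : |r| ≤ ρ) :
    ev (f - g) r = ev f r - ev g r := by
  rw [sub_eq_add_neg, ev_add hf hg.neg hr, ev_neg, sub_eq_add_neg]

theorem ev_mul (hf : SummableAt ρ f) (hg : SummableAt ρ g) (hr : |r| ≤ ρ) :
    ev (f * g) r = ev f r * ev g r := by
  unfold ev
  rw [tsum_mul_tsum_eq_tsum_sum_antidiagonal_of_summable_norm (hf.summable_norm hr)
    (hg.summable_norm hr)]
  refine tsum_congr (fun n => ?_)
  rw [coeff_mul, Finset.sum_mul]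
  refine Finset.sum_congr rfl (fun p hp => ?_)
  have hp' : p.1 + p.2 = n := Finset.HasAntidiagonal.mem_antidiagonal.mp hp
  rw [← hp', pow_add]; ring

theorem SummableAt.bound (hf : SummableAt ρ f) :
    ∃ Cst, 0 ≤ Cst ∧ ∀ n, |coeff n f| * ρ ^ n ≤ Cst := by
  obtain ⟨Cst, hC⟩ := (Summable.tendsto_atTop_zero hf).bddAbove_range
  refine ⟨max Cst 0, le_max_right _ _, fun n => le_max_of_le_left (hC ⟨n, rfl⟩)⟩

theorem SummableAt.derivative (hf : SummableAt ρ f) (h0 : 0 ≤ ρ') (h : ρ' < ρ) :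
    SummableAt ρ' (PowerSeries.derivative ℝ f) := by
  obtain ⟨Cst, hC0, hC⟩ := hf.bound
  have hρ : 0 < ρ := lt_of_le_of_lt h0 h
  set q : ℝ := ρ' / ρ with hq
  have hq0 : 0 ≤ q := by positivity
  have hq1 : q < 1 := by rw [hq, div_lt_one hρ]; exact h
  have hs1 : Summable fun n : ℕ => ((n : ℝ) ^ 1 * q ^ n) :=
    summable_pow_mul_geometric_of_norm_lt_one 1 (by rwa [Real.norm_of_nonneg hq0])
  have hs2 : Summable fun n : ℕ => q ^ n := summable_geometric_of_lt_one hq0 hq1
  have hs : Summable fun n : ℕ => (Cst / ρ) * (((n : ℝ) ^ 1 * q ^ n) + q ^ n) :=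
    (hs1.add hs2).mul_left _
  refine Summable.of_nonneg_of_le (fun n => by positivity) (fun n => ?_) hs
  rw [coeff_derivative, abs_mul]
  have h1 : |coeff (n + 1) f| ≤ Cst / ρ ^ (n + 1) := by
    rw [le_div_iff₀ (by positivity)]; exact hC (n + 1)
  have h2 : |((n : ℝ) + 1)| = (n : ℝ) + 1 := abs_of_nonneg (by positivity)
  rw [h2]
  calc |coeff (n + 1) f| * ((n : ℝ) + 1) * ρ' ^ n
      ≤ Cst / ρ ^ (n + 1) * ((n : ℝ) + 1) * ρ' ^ n := by gcongr
    _ = (Cst / ρ) * (((n : ℝ) ^ 1 * q ^ n) + q ^ n) := by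
        rw [hq, div_pow, pow_succ]; field_simp

theorem hasDerivAt_ev (hf : SummableAt ρ f) (hr : |r| < ρ) :
    HasDerivAt (ev f) (ev (PowerSeries.derivative ℝ f) r) r := by
  obtain ⟨s, hxr, hrρ⟩ := exists_between hr
  have hr0 : 0 ≤ s := (abs_nonneg r).trans hxr.le
  have hd : SummableAt s (PowerSeries.derivative ℝ f) := hf.derivative hr0 hrρ
  have hfr : SummableAt s f := hf.mono hr0 hrρ.le
  have key : HasDerivAt (fun z => ∑' n : ℕ, coeff n f * z ^ n)
      (∑' n : ℕ, coeff n f * ((n : ℝ) * r ^ (n - 1))) r := by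
    refine hasDerivAt_tsum_of_isPreconnected (𝕜 := ℝ) (F := ℝ)
      (g := fun (n : ℕ) (z : ℝ) => coeff n f * z ^ n)
      (g' := fun (n : ℕ) (z : ℝ) => coeff n f * ((n : ℝ) * z ^ (n - 1)))
      (u := fun n : ℕ => |coeff n f| * ((n : ℝ) * s ^ (n - 1)))
      (t := Metric.ball (0 : ℝ) s) ?_ Metric.isOpen_ball
      (convex_ball (0 : ℝ) s).isPreconnected ?_ ?_ (y₀ := r) ?_ ?_ ?_
    · rw [← summable_nat_add_iff 1]
      refine Summable.congr hd (fun n => ?_)
      rw [coeff_derivative, abs_mul, abs_of_nonneg (by positivity : (0 : ℝ) ≤ (n : ℝ) + 1)]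
      simp only [Nat.add_sub_cancel]
      push_cast; ring
    · intro n y _
      exact ((hasDerivAt_pow n y).const_mul (coeff n f))
    · intro n y hy
      have hy' : |y| ≤ s := by
        have : |y| < s := by simpa [Metric.mem_ball, Real.dist_eq] using hy
        exact this.le
      rw [norm_mul, norm_mul, norm_pow, Real.norm_eq_abs, Real.norm_eq_abs, Real.norm_eq_abs,
        abs_of_nonneg (by positivity : (0 : ℝ) ≤ (n : ℝ))]
      gcongr
    · simpa [Metric.mem_ball, Real.dist_eq] using hxr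
    · exact hfr.summable_ev hxr.le
    · simpa [Metric.mem_ball, Real.dist_eq] using hxr
  have hval : (∑' n : ℕ, coeff n f * ((n : ℝ) * r ^ (n - 1)))
      = ev (PowerSeries.derivative ℝ f) r := by
    unfold ev
    have hs : Summable fun n : ℕ => coeff n f * ((n : ℝ) * r ^ (n - 1)) := by
      rw [← summable_nat_add_iff 1]
      refine (hd.summable_ev hxr.le).congr (fun n => ?_)
      rw [coeff_derivative]
      simp only [Nat.add_sub_cancel]
      push_cast; ring
    rw [hs.tsum_eq_zero_add]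
    simp only [Nat.cast_zero, zero_mul, mul_zero, zero_add]
    refine tsum_congr (fun n => ?_)
    rw [coeff_derivative]
    simp only [Nat.add_sub_cancel]
    push_cast; ring
  rw [← hval]
  exact key

theorem deriv_ev (hf : SummableAt ρ f) (hr : |r| < ρ) :
    deriv (ev f) r = ev (PowerSeries.derivative ℝ f) r :=
  (hasDerivAt_ev hf hr).deriv

theorem contDiffOn_ev_nat (n : ℕ) : ∀ (f : PowerSeries ℝ) (ρ : ℝ), SummableAt ρ f →
    ContDiffOn ℝ n (ev f) (Set.Ioo (-ρ) ρ) := by
  induction n with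
  | zero =>
    intro f ρ hf
    rw [Nat.cast_zero, contDiffOn_zero]
    intro x hx
    exact (hasDerivAt_ev hf (abs_lt.mpr hx)).continuousAt.continuousWithinAt
  | succ n ih =>
    intro f ρ hf x hx
    have hx' : |x| < ρ := abs_lt.mpr hx
    obtain ⟨s, hxr, hrρ⟩ := exists_between hx'
    have hr0 : 0 ≤ s := (abs_nonneg x).trans hxr.le
    have hd : SummableAt s (PowerSeries.derivative ℝ f) := hf.derivative hr0 hrρ
    have hfr : SummableAt s f := hf.mono hr0 hrρ.le
    have hon : ContDiffOn ℝ ((n : ℕ) + 1 : ℕ) (ev f) (Set.Ioo (-s) s) := by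
      have := (contDiffOn_succ_iff_deriv_of_isOpen (𝕜 := ℝ) (n := (n : WithTop ℕ∞))
        (f := ev f) (isOpen_Ioo (a := -s) (b := s))).mpr
      push_cast
      refine this ⟨?_, ?_, ?_⟩
      · intro y hy
        exact (hasDerivAt_ev hfr (abs_lt.mpr hy)).differentiableAt.differentiableWithinAt
      · intro h; exact absurd h (by simp)
      · refine (ih _ s hd).congr (fun y hy => ?_)
        exact deriv_ev hfr (abs_lt.mpr hy)
    have hat : ContDiffAt ℝ ((n : ℕ) + 1 : ℕ) (ev f) x :=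
      hon.contDiffAt (Ioo_mem_nhds (abs_lt.mp hxr).1 (abs_lt.mp hxr).2)
    exact hat.contDiffWithinAt

theorem contDiffOn_ev (hf : SummableAt ρ f) : ContDiffOn ℝ ∞ (ev f) (Set.Ioo (-ρ) ρ) :=
  contDiffOn_infty.mpr (fun n => contDiffOn_ev_nat n f ρ hf)

end Vale.Agent.P252
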