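import Mathlib
import Vale.Agent.P252.Series
import Vale.Agent.P252.GFormal
import Vale.Agent.P252.Local

open Finset PowerSeries
open scoped ContDiff

namespace Vale.Agent.P252

/-- PACKAGE GS3. Local analytic solution near the axis `r = 0`, parameter `μ ≥ 9`. -/
theorem exists_local_solution_gen (μ : ℝ) (hμ : 9 ≤ μ) : ∃ p q q' : ℝ → ℝ,
    (∀ r, |r| < 1/(5*μ) → HasDerivAt p (p r * (q r - p r) / 2) r ∧ HasDerivAt q (q' r) r ∧
      2 * (μ + 2 * r * p r) * (r * q' r + q r)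
        = (1 + r * q r) * (-μ^2 * q r + (2*μ+3) * p r + 2 * r * p r ^ 2 + 6 * r * p r * q r) ∧
      |p r - 1| ≤ 1/2 ∧ |q r| ≤ 3) ∧
    ContDiffOn ℝ ∞ p (Set.Ioo (-(1/(5*μ))) (1/(5*μ))) ∧
    ContDiffOn ℝ ∞ q (Set.Ioo (-(1/(5*μ))) (1/(5*μ))) := by
  obtain ⟨pF, qF, h0, hdp, hdq, hbp, hbq⟩ := exists_formal_solution_gen μ hμ
  have hρ : (0 : ℝ) ≤ 1/(5*μ) := by positivity
  obtain ⟨hp, hpn⟩ := summableAt_of_partial_sums (ρ := 1/(5*μ)) hρ (3/2) hbp
  obtain ⟨hq, hqn⟩ := summableAt_of_partial_sums (ρ := 1/(5*μ)) hρ 3 hbq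
  refine ⟨ev pF, ev qF, ev (PowerSeries.derivative ℝ qF), ?_, contDiffOn_ev hp, contDiffOn_ev hq⟩
  intro r hr
  have hrr : |r| ≤ |r| := le_rfl
  have P : EvAt |r| r pF (ev pF r) := ⟨hp.mono (abs_nonneg r) hr.le, rfl⟩
  have Q : EvAt |r| r qF (ev qF r) := ⟨hq.mono (abs_nonneg r) hr.le, rfl⟩
  have Q' : EvAt |r| r (PowerSeries.derivative ℝ qF) (ev (PowerSeries.derivative ℝ qF) r) :=
    ⟨hq.derivative (abs_nonneg r) hr, rfl⟩
  have Xe := evAt_X |r| r
  refine ⟨?_, hasDerivAt_ev hq hr, ?_, ?_, ?_⟩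
  · have h1 := hasDerivAt_ev hp hr
    have h2 : EvAt |r| r (C (1/2) * pF * (qF - pF)) (1/2 * ev pF r * (ev qF r - ev pF r)) :=
      ((evAt_C _ _ _).mul hrr P).mul hrr (Q.sub hrr P)
    rw [hdp, h2.2] at h1
    convert h1 using 1
    ring
  · have hX : PowerSeries.derivative ℝ (X * qF) = qF + X * PowerSeries.derivative ℝ qF := by
      rw [Derivation.leibniz, derivative_X]
      simp only [smul_eq_mul, mul_one]
      ring
    have L : EvAt |r| r (C 2 * (C μ + C 2 * X * pF) * PowerSeries.derivative ℝ (X * qF))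
        (2 * (μ + 2 * r * ev pF r) * (ev qF r + r * ev (PowerSeries.derivative ℝ qF) r)) := by
      rw [hX]
      exact ((evAt_C _ _ _).mul hrr ((evAt_C _ _ _).add hrr
        (((evAt_C _ _ _).mul hrr Xe).mul hrr P))).mul hrr (Q.add hrr (Xe.mul hrr Q'))
    have R : EvAt |r| r
        ((1 + X * qF) * (C (-μ^2) * qF + C (2*μ+3) * pF + C 2 * X * pF^2 + C 6 * X * pF * qF))
        ((1 + r * ev qF r) * (-μ^2 * ev qF r + (2*μ+3) * ev pF r + 2 * r * (ev pF r * ev pF r)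
          + 6 * r * ev pF r * ev qF r)) := by
      rw [pow_two pF]
      exact ((evAt_one _ _).add hrr (Xe.mul hrr Q)).mul hrr
        (((((evAt_C _ _ _).mul hrr Q).add hrr ((evAt_C _ _ _).mul hrr P)).add hrr
          (((evAt_C _ _ _).mul hrr Xe).mul hrr (P.mul hrr P))).add hrr
          ((((evAt_C _ _ _).mul hrr Xe).mul hrr P).mul hrr Q))
    have e := L.2
    rw [hdq, R.2] at e
    linarith [e]
  · have h := abs_ev_sub_le hp hr.le
    rw [h0] at h
    simp only [abs_one] at h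
    linarith
  · exact (abs_ev_le hq hr.le).trans hqn

end Vale.Agent.P252
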