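import Mathlib
import Vale.Agent.P252.GProfileDefs
import Vale.Agent.P252.GLocal
import Vale.Agent.P252.GGlobal

open Set
open scoped ContDiff

namespace Vale.Agent.P252

/-- extra quantitative information on a profile -/
structure ProfileBounds (μ : ℝ) (p q : ℝ → ℝ) (r₀ Pl pmax : ℝ) : Prop where
  r₀pos : 0 < r₀
  Plpos : 0 < Pl
  pub : ∀ r, 0 ≤ r → p r ≤ pmax
  Pub : ∀ r, 0 ≤ r → r * p r ≤ μ/2
  Rub : ∀ r, 0 ≤ r → 1 + r * q r ≤ 7/2
  Rlb : ∀ r, 0 ≤ r → 1/2 ≤ 1 + r * q r
  Plb : ∀ r, r₀ ≤ r → Pl ≤ r * p r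

/-- PACKAGE AC0. Same proof as `exists_profile_gen` (GGlue.lean), keeping the box bounds. -/
theorem exists_profile_gen_bounds (μ : ℝ) (hμ : 9 ≤ μ) :
    ∃ (δ : ℝ) (φ p q q' : ℝ → ℝ) (r₀ Pl pmax : ℝ), ProfileG μ δ φ p q q' ∧
      ProfileBounds μ p q r₀ Pl pmax := by
  obtain ⟨p1, q1, q1', hloc, hsp1, hsq1⟩ := exists_local_solution_gen μ hμ
  have hμ0 : 0 < μ := by linarith
  obtain ⟨ρ, hρ⟩ : ∃ ρ : ℝ, ρ = 1/(5*μ) := ⟨_, rfl⟩
  rw [← hρ] at hloc hsp1 hsq1
  have hρ0 : 0 < ρ := by rw [hρ]; positivity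
  have hρ1 : ρ ≤ 1/45 := by
    rw [hρ]; exact one_div_le_one_div_of_le (by norm_num) (by linarith)
  have hp1 : ∀ r, |r| < ρ → 1/2 ≤ p1 r ∧ p1 r ≤ 3/2 := by
    intro r hr
    have := (hloc r hr).2.2.2.1
    rw [abs_le] at this
    constructor <;> linarith [this.1, this.2]
  have hq1 : ∀ r, |r| < ρ → -3 ≤ q1 r ∧ q1 r ≤ 3 := by
    intro r hr
    exact abs_le.mp (hloc r hr).2.2.2.2
  have h100 : |ρ/2| < ρ := by rw [abs_of_pos (by linarith)]; linarith
  have hrq : ∀ r, |r| < ρ → |r * q1 r| ≤ ρ * 3 := by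
    intro r hr
    rw [abs_mul]
    exact mul_le_mul hr.le (abs_le.mpr (hq1 r hr)) (abs_nonneg _) hρ0.le
  have hrp : ∀ r, |r| < ρ → |r * p1 r| ≤ ρ * (3/2) := by
    intro r hr
    have hp := hp1 r hr
    rw [abs_mul]
    exact mul_le_mul hr.le (abs_le.mpr ⟨by linarith [hp.1], hp.2⟩) (abs_nonneg _) hρ0.le
  have habs : ∀ r ∈ Icc (ρ/2) (3*ρ/4), |r| < ρ := by
    intro r hr
    rw [abs_of_pos (by linarith [hr.1])]; linarith [hr.2]
  have hPlow : ∀ r ∈ Icc (ρ/2) (3*ρ/4), ρ/4 ≤ r * p1 r := by
    intro r hr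
    have h := hp1 r (habs r hr)
    have : (ρ/2) * (1/2) ≤ r * p1 r := mul_le_mul hr.1 h.1 (by norm_num) (by linarith [hr.1])
    linarith
  have hmid : ρ/2 ∈ Icc (ρ/2) (3*ρ/4) := ⟨le_rfl, by linarith⟩
  obtain ⟨P, R, hP0, hR0, hbox, hsP, hsR⟩ := exists_global_boxSolG μ (ρ/4) (ρ/2)
    ((ρ/2) * p1 (ρ/2)) (1 + (ρ/2) * q1 (ρ/2)) hμ (by linarith) (by linarith) (by linarith)
    ⟨hPlow _ hmid, by linarith [(abs_le.mp (hrp _ h100)).2]⟩
    ⟨by linarith [(abs_le.mp (hrq _ h100)).1], by linarith [(abs_le.mp (hrq _ h100)).2]⟩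
  -- the local solution is a box solution on a short interval
  have hlocbox : BoxSolG μ (ρ/4) (ρ/2) (3*ρ/4) (fun r => r * p1 r) (fun r => 1 + r * q1 r) := by
    refine ⟨?_, ?_, ?_, ?_⟩
    · intro r hr
      constructor
      · exact hPlow r hr
      · show r * p1 r ≤ μ/2
        linarith [(abs_le.mp (hrp _ (habs r hr))).2]
    · intro r hr
      constructor
      · show 1/2 ≤ 1 + r * q1 r
        linarith [(abs_le.mp (hrq _ (habs r hr))).1]
      · show 1 + r * q1 r ≤ 7/2
        linarith [(abs_le.mp (hrq _ (habs r hr))).2]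
    · intro r hr
      have hr0 : 0 < r := by linarith [hr.1]
      have h := (hloc r (habs r hr)).1
      have hd : HasDerivAt (fun r => r * p1 r) (1 * p1 r + r * (p1 r * (q1 r - p1 r) / 2)) r :=
        (hasDerivAt_id' r).mul h
      have e : (fun r => r * p1 r) r * (1 + (fun r => 1 + r * q1 r) r - (fun r => r * p1 r) r)
          / (2 * r) = 1 * p1 r + r * (p1 r * (q1 r - p1 r) / 2) := by
        simp only []
        field_simp
        ring
      rw [e]
      exact hd.hasDerivWithinAt
    · intro r hr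
      have hr0 : 0 < r := by linarith [hr.1]
      have h := (hloc r (habs r hr)).2.1
      have L3 := (hloc r (habs r hr)).2.2.1
      have hpp := hp1 r (habs r hr)
      have hd : HasDerivAt (fun r => 1 + r * q1 r) (1 * q1 r + r * q1' r) r :=
        ((hasDerivAt_id' r).mul h).const_add 1
      have hpos : 0 < (μ + 2 * (r * p1 r)) * (2 * r) := by
        have : 0 < r * p1 r := mul_pos hr0 (by linarith [hpp.1])
        positivity
      have e : (fun r => 1 + r * q1 r) r
          * BfG μ ((fun r => r * p1 r) r) ((fun r => 1 + r * q1 r) r)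
          / ((μ + 2 * (fun r => r * p1 r) r) * (2 * r)) = 1 * q1 r + r * q1' r := by
        simp only []
        rw [div_eq_iff hpos.ne']
        unfold BfG
        linear_combination (-r) * L3
      rw [e]
      exact hd.hasDerivWithinAt
  have huniq := BoxSolG.unique hμ (by linarith) (by linarith) (hbox (3*ρ/4) (by linarith)) hlocbox
    (by simp only [hP0]) (by simp only [hR0])
  -- interior derivatives of the global solution
  have hdP : ∀ r, ρ/2 < r → HasDerivAt P (P r * (1 + R r - P r) / (2 * r)) r := by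
    intro r hr
    have hb := hbox (r+1) (by linarith)
    exact (hb.dP r ⟨hr.le, by linarith⟩).hasDerivAt (Icc_mem_nhds hr (by linarith))
  have hdR : ∀ r, ρ/2 < r →
      HasDerivAt R (R r * BfG μ (P r) (R r) / ((μ + 2 * P r) * (2 * r))) r := by
    intro r hr
    have hb := hbox (r+1) (by linarith)
    exact (hb.dR r ⟨hr.le, by linarith⟩).hasDerivAt (Icc_mem_nhds hr (by linarith))
  have hPm : ∀ r, ρ/2 ≤ r → P r ∈ Icc (ρ/4) (μ/2) := fun r hr =>
    (hbox r hr).memP r ⟨hr, le_rfl⟩
  have hRm : ∀ r, ρ/2 ≤ r → R r ∈ Icc (1/2:ℝ) (7/2) := fun r hr =>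
    (hbox r hr).memR r ⟨hr, le_rfl⟩
  -- the glued functions
  let p : ℝ → ℝ := fun r => if r < 5*ρ/8 then p1 r else P r / r
  let q : ℝ → ℝ := fun r => if r < 5*ρ/8 then q1 r else (R r - 1) / r
  let q' : ℝ → ℝ := fun r => if r < 5*ρ/8 then q1' r else
    ((R r * BfG μ (P r) (R r) / ((μ + 2 * P r) * (2 * r))) * r - (R r - 1)) / r^2
  have hpL : ∀ r, r < 3*ρ/4 → p r = p1 r := by
    intro r h2
    by_cases h : r < 5*ρ/8
    · simp only [p, if_pos h]
    · have hr : r ∈ Icc (ρ/2) (3*ρ/4) := ⟨by linarith [not_lt.mp h], h2.le⟩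
      have hr0 : r ≠ 0 := by linarith [hr.1]
      simp only [p, if_neg h]
      rw [(huniq r hr).1]
      field_simp
  have hqL : ∀ r, r < 3*ρ/4 → q r = q1 r := by
    intro r h2
    by_cases h : r < 5*ρ/8
    · simp only [q, if_pos h]
    · have hr : r ∈ Icc (ρ/2) (3*ρ/4) := ⟨by linarith [not_lt.mp h], h2.le⟩
      have hr0 : r ≠ 0 := by linarith [hr.1]
      simp only [q, if_neg h]
      rw [(huniq r hr).2]
      field_simp
      ring
  have hpG : ∀ r, ρ/2 < r → p r = P r / r := by
    intro r h1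
    by_cases h : r < 5*ρ/8
    · have hr : r ∈ Icc (ρ/2) (3*ρ/4) := ⟨h1.le, by linarith⟩
      have hr0 : r ≠ 0 := by linarith [hr.1]
      simp only [p, if_pos h]
      rw [(huniq r hr).1]
      field_simp
    · simp only [p, if_neg h]
  have hqG : ∀ r, ρ/2 < r → q r = (R r - 1) / r := by
    intro r h1
    by_cases h : r < 5*ρ/8
    · have hr : r ∈ Icc (ρ/2) (3*ρ/4) := ⟨h1.le, by linarith⟩
      have hr0 : r ≠ 0 := by linarith [hr.1]
      simp only [q, if_pos h]
      rw [(huniq r hr).2]
      field_simp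
      ring
    · simp only [q, if_neg h]
  have hpLe : ∀ r, r < 3*ρ/4 → p =ᶠ[nhds r] p1 := fun r h =>
    Filter.eventually_of_mem (Iio_mem_nhds h) (fun y hy => hpL y hy)
  have hqLe : ∀ r, r < 3*ρ/4 → q =ᶠ[nhds r] q1 := fun r h =>
    Filter.eventually_of_mem (Iio_mem_nhds h) (fun y hy => hqL y hy)
  have hpGe : ∀ r, ρ/2 < r → p =ᶠ[nhds r] fun y => P y / y := fun r h =>
    Filter.eventually_of_mem (Ioi_mem_nhds h) (fun y hy => hpG y hy)
  have hqGe : ∀ r, ρ/2 < r → q =ᶠ[nhds r] fun y => (R y - 1) / y := fun r h =>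
    Filter.eventually_of_mem (Ioi_mem_nhds h) (fun y hy => hqG y hy)
  have habs' : ∀ r : ℝ, -ρ < r → r < 5*ρ/8 → |r| < ρ := by
    intro r h1 h2
    rw [abs_lt]; constructor <;> linarith
  -- the differential equations
  have dp : ∀ r, -ρ < r → HasDerivAt p (p r * (q r - p r) / 2) r := by
    intro r hr
    by_cases h : r < 5*ρ/8
    · have h2 : r < 3*ρ/4 := by linarith
      rw [hpL r h2, hqL r h2]
      exact ((hloc r (habs' r hr h)).1).congr_of_eventuallyEq (hpLe r h2)
    · have h1 : ρ/2 < r := by linarith [not_lt.mp h]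
      have hr0 : r ≠ 0 := by linarith
      rw [hpG r h1, hqG r h1]
      have hd := ((hdP r h1).div (hasDerivAt_id' r) hr0).congr_of_eventuallyEq (hpGe r h1)
      have e : P r / r * ((R r - 1) / r - P r / r) / 2
          = (P r * (1 + R r - P r) / (2 * r) * r - P r * 1) / r ^ 2 := by
        field_simp
        ring
      rw [e]
      exact hd
  have dq : ∀ r, -ρ < r → HasDerivAt q (q' r) r := by
    intro r hr
    by_cases h : r < 5*ρ/8
    · have h2 : r < 3*ρ/4 := by linarith
      simp only [q', if_pos h]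
      exact ((hloc r (habs' r hr h)).2.1).congr_of_eventuallyEq (hqLe r h2)
    · have h1 : ρ/2 < r := by linarith [not_lt.mp h]
      have hr0 : r ≠ 0 := by linarith
      simp only [q', if_neg h]
      have hd := (((hdR r h1).sub_const 1).div (hasDerivAt_id' r) hr0).congr_of_eventuallyEq
        (hqGe r h1)
      have e : (R r * BfG μ (P r) (R r) / ((μ + 2 * P r) * (2 * r)) * r - (R r - 1)) / r ^ 2
          = (R r * BfG μ (P r) (R r) / ((μ + 2 * P r) * (2 * r)) * r - (R r - 1) * 1) / r ^ 2 := by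
        rw [mul_one]
      rw [e]
      exact hd
  have ode : ∀ r, -ρ < r → 2 * (μ + 2 * r * p r) * (r * q' r + q r)
      = (1 + r * q r) * (-μ^2 * q r + (2*μ+3) * p r + 2 * r * p r ^ 2 + 6 * r * p r * q r) := by
    intro r hr
    by_cases h : r < 5*ρ/8
    · have h2 : r < 3*ρ/4 := by linarith
      rw [hpL r h2, hqL r h2]
      simp only [q', if_pos h]
      exact (hloc r (habs' r hr h)).2.2.1
    · have h1 : ρ/2 < r := by linarith [not_lt.mp h]
      have hr0 : r ≠ 0 := by linarith
      have hP := hPm r h1.le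
      have hD : (μ + 2 * P r) ≠ 0 := by linarith [hP.1]
      rw [hpG r h1, hqG r h1]
      simp only [q', if_neg h]
      unfold BfG
      field_simp
      ring
  have ppos : ∀ r, -ρ < r → 0 < p r := by
    intro r hr
    by_cases h : r < 5*ρ/8
    · rw [hpL r (by linarith)]
      linarith [(hp1 r (habs' r hr h)).1]
    · have h1 : ρ/2 < r := by linarith [not_lt.mp h]
      rw [hpG r h1]
      exact div_pos (by linarith [(hPm r h1.le).1]) (by linarith)
  have Rpos : ∀ r, -ρ < r → 0 < 1 + r * q r := by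
    intro r hr
    by_cases h : r < 5*ρ/8
    · rw [hqL r (by linarith)]
      linarith [(abs_le.mp (hrq r (habs' r hr h))).1]
    · have h1 : ρ/2 < r := by linarith [not_lt.mp h]
      have hr0 : r ≠ 0 := by linarith
      rw [hqG r h1]
      have : 1 + r * ((R r - 1) / r) = R r := by field_simp; ring
      rw [this]
      linarith [(hRm r h1.le).1]
  have Dpos : ∀ r, -ρ < r → 0 < μ + 2 * r * p r := by
    intro r hr
    by_cases h : r < 5*ρ/8
    · rw [hpL r (by linarith)]
      have := (abs_le.mp (hrp r (habs' r hr h))).1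
      nlinarith
    · have h1 : ρ/2 < r := by linarith [not_lt.mp h]
      have hr0 : r ≠ 0 := by linarith
      rw [hpG r h1]
      have : μ + 2 * r * (P r / r) = μ + 2 * P r := by field_simp
      rw [this]
      linarith [(hPm r h1.le).1]
  -- smoothness of p
  have hsp : ContDiffOn ℝ ∞ p (Ioi (-ρ)) := by
    intro x hx
    have hx' : -ρ < x := hx
    refine ContDiffAt.contDiffWithinAt ?_
    by_cases h : x < 5*ρ/8
    · have h2 : x < 3*ρ/4 := by linarith
      exact (hsp1.contDiffAt (Ioo_mem_nhds hx' (by linarith))).congr_of_eventuallyEq (hpLe x h2)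
    · have h1 : ρ/2 < x := by linarith [not_lt.mp h]
      have hr0 : x ≠ 0 := by linarith
      exact ((hsP.contDiffAt (Ioi_mem_nhds h1)).div contDiffAt_id hr0).congr_of_eventuallyEq
        (hpGe x h1)
  have hpc : ContinuousOn p (Ioi (-ρ)) := hsp.continuousOn
  -- the primitive
  let I : ℝ → ℝ := fun r => ∫ x in (0:ℝ)..r, p x
  have dI : ∀ r, -ρ < r → HasDerivAt I (p r) r := by
    intro r hr
    have hsub : uIcc (0:ℝ) r ⊆ Ioi (-ρ) := by
      intro y hy
      have := hy.1
      have hm : -ρ < min 0 r := lt_min (by linarith) hr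
      exact lt_of_lt_of_le hm this
    exact intervalIntegral.integral_hasDerivAt_right
      ((hpc.mono hsub).intervalIntegrable)
      (hpc.stronglyMeasurableAtFilter isOpen_Ioi r hr)
      ((dp r hr).continuousAt)
  have hsI : ContDiffOn ℝ ∞ I (Ioi (-ρ)) := by
    rw [contDiffOn_infty_iff_deriv_of_isOpen isOpen_Ioi]
    refine ⟨fun r hr => (dI r hr).differentiableAt.differentiableWithinAt, ?_⟩
    exact hsp.congr (fun r hr => (dI r hr).deriv)
  refine ⟨ρ, fun r => Real.exp (I r), p, q, q', ρ, ρ/4, 3/2 + 4*μ/(5*ρ), ?_, ?_⟩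
  · refine ⟨hρ0, ?_, dp, dq, ode, fun r _ => Real.exp_pos _, ppos, Rpos, Dpos, hsI.exp⟩
    intro r hr
    have h := (dI r hr).exp
    have e : p r * Real.exp (I r) = Real.exp (I r) * p r := mul_comm _ _
    rw [e]
    exact h
  · have hq0 : 0 < 4*μ/(5*ρ) := by positivity
    refine ⟨hρ0, by linarith, ?_, ?_, ?_, ?_, ?_⟩
    · intro r hr
      by_cases h : r < 5*ρ/8
      · rw [hpL r (by linarith)]
        linarith [(hp1 r (habs' r (by linarith) h)).2]
      · have h1 : ρ/2 < r := by linarith [not_lt.mp h]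
        have hr0 : 0 < r := by linarith
        rw [hpG r h1]
        have h2 : P r / r ≤ 4*μ/(5*ρ) := by
          rw [div_le_div_iff₀ hr0 (by positivity)]
          have h3 := (hPm r h1.le).2
          have h4 := not_lt.mp h
          have h5 : P r * (5*ρ) ≤ (μ/2) * (5*ρ) := mul_le_mul_of_nonneg_right h3 (by positivity)
          have h6 : 4*μ*(5*ρ/8) ≤ 4*μ*r := mul_le_mul_of_nonneg_left h4 (by positivity)
          linarith
        linarith
    · intro r hr
      by_cases h : r < 5*ρ/8
      · rw [hpL r (by linarith)]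
        linarith [(abs_le.mp (hrp r (habs' r (by linarith) h))).2]
      · have h1 : ρ/2 < r := by linarith [not_lt.mp h]
        have hr0 : r ≠ 0 := by linarith
        rw [hpG r h1]
        have : r * (P r / r) = P r := by field_simp
        rw [this]
        exact (hPm r h1.le).2
    · intro r hr
      by_cases h : r < 5*ρ/8
      · rw [hqL r (by linarith)]
        linarith [(abs_le.mp (hrq r (habs' r (by linarith) h))).2]
      · have h1 : ρ/2 < r := by linarith [not_lt.mp h]
        have hr0 : r ≠ 0 := by linarith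
        rw [hqG r h1]
        have : 1 + r * ((R r - 1) / r) = R r := by field_simp; ring
        rw [this]
        exact (hRm r h1.le).2
    · intro r hr
      by_cases h : r < 5*ρ/8
      · rw [hqL r (by linarith)]
        linarith [(abs_le.mp (hrq r (habs' r (by linarith) h))).1]
      · have h1 : ρ/2 < r := by linarith [not_lt.mp h]
        have hr0 : r ≠ 0 := by linarith
        rw [hqG r h1]
        have : 1 + r * ((R r - 1) / r) = R r := by field_simp; ring
        rw [this]
        exact (hRm r h1.le).1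
    · intro r hr
      have h1 : ρ/2 < r := by linarith
      have hr0 : r ≠ 0 := by linarith
      rw [hpG r h1]
      have : r * (P r / r) = P r := by field_simp
      rw [this]
      exact (hPm r h1.le).1

end Vale.Agent.P252
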