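import Mathlib
import Vale.Agent.P252.GReduceU

open Set Matrix
open scoped ContDiff

namespace Vale.Agent.P252.Gen

open Vale.Agent.P252

variable {m : ℕ} {μ δ : ℝ} {φ p q q' : ℝ → ℝ}

noncomputable def Lf (m : ℕ) (φ p q : ℝ → ℝ) (r : ℝ) : ℝ :=
  (φ r)^(m+1) * (p r)^m * (1 + r * q r)

noncomputable def Wf (m : ℕ) (φ p q : ℝ → ℝ) (r : ℝ) : ℝ :=
  (Lf m φ p q r) ^ (-((m:ℝ)+2)/((m:ℝ)+3))

noncomputable def gf (μ : ℝ) (p q : ℝ → ℝ) (r : ℝ) : ℝ :=
  (μ+2) * p r * (μ + 1 + 2*r*p r + 2*r*q r) / (2 * (μ + 2*r*p r))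

noncomputable def gf' (μ : ℝ) (p q q' : ℝ → ℝ) (r : ℝ) : ℝ :=
  ((μ+2) * (p r*(q r - p r)/2) * (μ + 1 + 2*r*p r + 2*r*q r)
    + (μ+2) * p r * (2*p r + 2*r*(p r*(q r-p r)/2) + 2*q r + 2*(r*q' r))) / (2*(μ+2*r*p r))
  - (μ+2)*p r*(μ+1+2*r*p r+2*r*q r)*(2*(2*p r + 2*r*(p r*(q r - p r)/2)))/(2*(μ+2*r*p r))^2

noncomputable def Zf (μ : ℝ) (φ : ℝ → ℝ) (r t : ℝ) : ℝ := (φ r + t^2) ^ ((μ+2)/2)

lemma Lf_pos (h : ProfileG μ δ φ p q q') {r : ℝ} (hr : -δ < r) : 0 < Lf m φ p q r := by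
  unfold Lf
  have h1 := h.φpos r hr
  have h2 := h.ppos r hr
  have h3 := h.Rpos r hr
  positivity

lemma Wf_pos (h : ProfileG μ δ φ p q q') {r : ℝ} (hr : -δ < r) : 0 < Wf m φ p q r :=
  Real.rpow_pos_of_pos (Lf_pos h hr) _

lemma S_pos (h : ProfileG μ δ φ p q q') {r : ℝ} (hr : -δ < r) (t : ℝ) : 0 < φ r + t^2 := by
  have := h.φpos r hr
  positivity

lemma rq'_eq (h : ProfileG μ δ φ p q q') {r : ℝ} (hr : -δ < r) :
    r * q' r = (1 + r * q r) * (-μ^2 * q r + (2*μ+3) * p r + 2 * r * p r ^ 2 + 6 * r * p r * q r)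
      / (2 * (μ + 2 * r * p r)) - q r := by
  have hode := h.ode r hr
  have hD := (h.Dpos r hr).ne'
  rw [eq_sub_iff_add_eq, eq_div_iff (by positivity)]
  linarith

lemma Lf_hasDerivAt (h : ProfileG (m:ℝ) δ φ p q q') {r : ℝ} (hr : -δ < r) :
    HasDerivAt (Lf m φ p q) (Lf m φ p q r *
      (((m:ℝ)+3) * p r * ((m:ℝ) + 1 + 2*r*p r + 2*r*q r) / (2*((m:ℝ)+2*r*p r)))) r := by
  have h1 := h.dφ r hr
  have h2 := h.dp r hr
  have h3 := h.dq r hr
  have hD := (h.Dpos r hr).ne'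
  have h4 : HasDerivAt (fun r => 1 + r * q r) (1 * q r + r * q' r) r :=
    ((hasDerivAt_id r).mul h3).const_add 1
  have h5 := ((h1.pow (m+1)).mul (h2.pow m)).mul h4
  have hfun : Lf m φ p q = (φ ^ (m+1) * p ^ m * fun r => 1 + r * q r) := by
    funext s; simp [Lf]
  rw [hfun]
  refine h5.congr_deriv ?_
  simp only [Pi.mul_apply, Pi.pow_apply, Nat.add_sub_cancel]
  have hpm : ∀ y : ℝ, (m:ℝ) * p r^(m-1) * (p r * y) = (m:ℝ) * p r^m * y := by
    intro y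
    cases m with
    | zero => simp
    | succ k => simp only [Nat.add_sub_cancel, pow_succ]; ring
  have e1 : p r * (q r - p r) / 2 = p r * ((q r - p r) / 2) := by ring
  rw [e1, hpm, rq'_eq h hr, pow_succ]
  generalize hDD : (m:ℝ) + 2 * r * p r = D at *
  generalize φ r ^ m = A
  generalize p r ^ m = B
  push_cast
  field_simp
  subst hDD
  ring

lemma Wf_hasDerivAt (h : ProfileG (m:ℝ) δ φ p q q') {r : ℝ} (hr : -δ < r) :
    HasDerivAt (Wf m φ p q) (-(gf (m:ℝ) p q r) * Wf m φ p q r) r := by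
  have h1 := Lf_hasDerivAt h hr
  have hL := Lf_pos (m := m) h hr
  have h2 := h1.rpow_const (p := -((m:ℝ)+2)/((m:ℝ)+3)) (Or.inl hL.ne')
  unfold Wf
  refine h2.congr_deriv ?_
  rw [Real.rpow_sub_one hL.ne']
  unfold gf
  have hD := (h.Dpos r hr).ne'
  have hm3 : (m:ℝ) + 3 ≠ 0 := by positivity
  generalize hDD : (m:ℝ) + 2 * r * p r = D at *
  field_simp

lemma gf_hasDerivAt (h : ProfileG μ δ φ p q q') {r : ℝ} (hr : -δ < r) :
    HasDerivAt (gf μ p q) (gf' μ p q q' r) r := by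
  have h2 := h.dp r hr
  have h3 := h.dq r hr
  have hD := (h.Dpos r hr).ne'
  have hid := hasDerivAt_id r
  have hrp : HasDerivAt (fun r => r * p r) (1 * p r + r * (p r * (q r - p r)/2)) r := hid.mul h2
  have hrq : HasDerivAt (fun r => r * q r) (1 * q r + r * q' r) r := hid.mul h3
  have hnum := (h2.const_mul (μ+2)).mul (((hrp.const_mul 2).const_add (μ+1)).add (hrq.const_mul 2))
  have hden := ((hrp.const_mul 2).const_add μ).const_mul 2
  have hdiv := hnum.div hden (by simpa [mul_assoc] using hD)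
  have hfun : gf μ p q = ((fun y => (μ+2) * p y) * ((fun x => μ + 1 + 2 * (x * p x))
      + fun y => 2 * (y * q y))) / (fun x => 2 * (μ + 2 * (x * p x))) := by
    funext s; simp [gf, mul_assoc]
  rw [hfun]
  refine hdiv.congr_deriv ?_
  simp only [Pi.mul_apply, Pi.add_apply]
  unfold gf'
  have e1 : μ + 2 * (r * p r) = μ + 2 * r * p r := by ring
  rw [e1]
  generalize hDD : μ + 2 * r * p r = D at *
  field_simp
  ring

lemma hasDerivAt_S_r (h : ProfileG μ δ φ p q q') {r : ℝ} (hr : -δ < r) (t : ℝ) :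
    HasDerivAt (fun ρ => φ ρ + t^2) (p r * φ r) r := (h.dφ r hr).add_const _

lemma hasDerivAt_S_t (c t : ℝ) : HasDerivAt (fun τ : ℝ => c + τ^2) (2 * t) t := by
  have := ((hasDerivAt_id t).pow 2).const_add c
  refine this.congr_deriv ?_
  simp

lemma Zf_dr (h : ProfileG μ δ φ p q q') {r : ℝ} (hr : -δ < r) (t : ℝ) :
    HasDerivAt (fun ρ => Zf μ φ ρ t) ((μ+2)/2 * (p r * φ r) * Zf μ φ r t / (φ r + t^2)) r := by
  have hS := S_pos h hr t
  have h1 := (hasDerivAt_S_r h hr t).rpow_const (p := (μ+2)/2) (Or.inl hS.ne')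
  unfold Zf
  refine h1.congr_deriv ?_
  rw [Real.rpow_sub_one hS.ne']
  ring

lemma Zf_dt (h : ProfileG μ δ φ p q q') {r : ℝ} (hr : -δ < r) (t : ℝ) :
    HasDerivAt (fun τ => Zf μ φ r τ) ((μ+2)/2 * (2 * t) * Zf μ φ r t / (φ r + t^2)) t := by
  have hS := S_pos h hr t
  have h1 := (hasDerivAt_S_t (φ r) t).rpow_const (p := (μ+2)/2) (Or.inl hS.ne')
  unfold Zf
  refine h1.congr_deriv ?_
  rw [Real.rpow_sub_one hS.ne']
  ring

noncomputable def Gw (m : ℕ) (φ p q : ℝ → ℝ) (r t : ℝ) : ℝ := Zf (m:ℝ) φ r t * Wf m φ p q r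

noncomputable def Gwr (m : ℕ) (φ p q : ℝ → ℝ) (r t : ℝ) : ℝ :=
  Zf (m:ℝ) φ r t * Wf m φ p q r * (((m:ℝ)+2)/2 * p r * φ r / (φ r + t^2) - gf (m:ℝ) p q r)

noncomputable def Gwt (m : ℕ) (φ p q : ℝ → ℝ) (r t : ℝ) : ℝ :=
  2 * (((m:ℝ)+2)/2) * t * (Zf (m:ℝ) φ r t * Wf m φ p q r) / (φ r + t^2)

noncomputable def Gwrr (m : ℕ) (φ p q q' : ℝ → ℝ) (r t : ℝ) : ℝ :=
  Zf (m:ℝ) φ r t * Wf m φ p q r * (((m:ℝ)+2)/2 * p r * φ r / (φ r + t^2) - gf (m:ℝ) p q r)^2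
  + Zf (m:ℝ) φ r t * Wf m φ p q r * (((m:ℝ)+2)/2 * (φ r * p r * (p r + q r) / 2) / (φ r + t^2)
      - ((m:ℝ)+2)/2 * (p r)^2 * (φ r)^2 / (φ r + t^2)^2 - gf' (m:ℝ) p q q' r)

noncomputable def Gwrt (m : ℕ) (φ p q : ℝ → ℝ) (r t : ℝ) : ℝ :=
  Zf (m:ℝ) φ r t * Wf m φ p q r * ((2 * (((m:ℝ)+2)/2) * t / (φ r + t^2))
      * (((m:ℝ)+2)/2 * p r * φ r / (φ r + t^2) - gf (m:ℝ) p q r)
    - 2 * t * (((m:ℝ)+2)/2) * p r * φ r / (φ r + t^2)^2)

noncomputable def Gwtt (m : ℕ) (φ p q : ℝ → ℝ) (r t : ℝ) : ℝ :=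
  2 * (((m:ℝ)+2)/2) * (Zf (m:ℝ) φ r t * Wf m φ p q r)
    * (1 / (φ r + t^2) + 2 * (((m:ℝ)+2)/2 - 1) * t^2 / (φ r + t^2)^2)

theorem Gw_partials0 (h : ProfileG (m:ℝ) δ φ p q q') :
    HasPartials (Ioi (-δ)) (Gw m φ p q) (Gwr m φ p q) (Gwt m φ p q) := by
  constructor
  · intro r hr t
    have hr' : -δ < r := hr
    have hS := (S_pos h hr' t).ne'
    have h1 := (Zf_dr h hr' t).mul (Wf_hasDerivAt h hr')
    refine h1.congr_deriv ?_
    simp only [Gwr]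
    field_simp
    ring
  · intro r hr t
    have hr' : -δ < r := hr
    have hS := (S_pos h hr' t).ne'
    have h1 := (Zf_dt h hr' t).mul_const (Wf m φ p q r)
    refine h1.congr_deriv ?_
    simp only [Gwt]
    field_simp

theorem Gw_partials1 (h : ProfileG (m:ℝ) δ φ p q q') :
    HasPartials (Ioi (-δ)) (Gwr m φ p q) (Gwrr m φ p q q') (Gwrt m φ p q) := by
  constructor
  · intro r hr t
    have hr' : -δ < r := hr
    have hS0 := (S_pos h hr' t).ne'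
    have hS := hasDerivAt_S_r h hr' t
    have h1 := ((Zf_dr h hr' t).mul (Wf_hasDerivAt h hr')).mul
      ((((((h.dp r hr').const_mul (((m:ℝ)+2)/2)).mul (h.dφ r hr'))).div hS hS0).sub
        (gf_hasDerivAt h hr'))
    refine h1.congr_deriv ?_
    simp only [Gwrr, Pi.mul_apply, Pi.sub_apply, Pi.div_apply]
    generalize gf (m:ℝ) p q r = g
    generalize gf' (m:ℝ) p q q' r = g'
    generalize Zf (m:ℝ) φ r t = Z
    generalize Wf m φ p q r = W
    field_simp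
    ring
  · intro r hr t
    have hr' : -δ < r := hr
    have hS0 := (S_pos h hr' t).ne'
    have hS := hasDerivAt_S_t (φ r) t
    have h1 := ((Zf_dt h hr' t).mul_const (Wf m φ p q r)).mul
      ((((hasDerivAt_const t (((m:ℝ)+2)/2 * p r * φ r)).div hS hS0)).sub_const (gf (m:ℝ) p q r))
    refine h1.congr_deriv ?_
    simp only [Gwrt, Pi.mul_apply, Pi.sub_apply, Pi.div_apply]
    generalize gf (m:ℝ) p q r = g
    generalize Zf (m:ℝ) φ r t = Z
    generalize Wf m φ p q r = W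
    field_simp
    ring

theorem Gw_partials2 (h : ProfileG (m:ℝ) δ φ p q q') :
    HasPartials (Ioi (-δ)) (Gwt m φ p q) (Gwrt m φ p q) (Gwtt m φ p q) := by
  constructor
  · intro r hr t
    have hr' : -δ < r := hr
    have hS0 := (S_pos h hr' t).ne'
    have hS := hasDerivAt_S_r h hr' t
    have h1 := ((((Zf_dr h hr' t).mul (Wf_hasDerivAt h hr')).const_mul
      (2 * (((m:ℝ)+2)/2) * t))).div hS hS0
    refine h1.congr_deriv ?_
    simp only [Gwrt, Pi.mul_apply, Pi.sub_apply, Pi.div_apply]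
    generalize gf (m:ℝ) p q r = g
    generalize Zf (m:ℝ) φ r t = Z
    generalize Wf m φ p q r = W
    field_simp
    ring
  · intro r hr t
    have hr' : -δ < r := hr
    have hS0 := (S_pos h hr' t).ne'
    have hS := hasDerivAt_S_t (φ r) t
    have h1 := ((((hasDerivAt_id t).const_mul (2 * (((m:ℝ)+2)/2))).mul
      ((Zf_dt h hr' t).mul_const (Wf m φ p q r)))).div hS hS0
    refine h1.congr_deriv ?_
    simp only [Gwtt, id, Pi.mul_apply, Pi.sub_apply, Pi.div_apply]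
    generalize Zf (m:ℝ) φ r t = Z
    generalize Wf m φ p q r = W
    field_simp
    ring

end Vale.Agent.P252.Gen
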