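import Mathlib
import Vale.Agent.P252.GReduceW

open Set Matrix
open scoped ContDiff

namespace Vale.Agent.P252.Gen

open Vale.Agent.P252

variable {m : ℕ} {μ δ : ℝ} {φ p q q' : ℝ → ℝ}

lemma contraction_eq (μ a b c d r aw bw cw dw Δ : ℝ) (hΔ : Δ = (a + b * r) * d - c^2 * r)
    (ha : a ≠ 0) (hΔ0 : Δ ≠ 0) :
    μ * (1/a) * aw + ((1/a) * bw + ((c^2 - b*d) / (a * Δ)) * aw) * r
      + ((c^2 - b*d) / (a * Δ)) * bw * r^2 + 2 * (-c / Δ) * cw * r + ((a + b * r) / Δ) * dw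
    = ((μ-1)*Δ*aw + a*d*(aw+r*bw) - 2*a*c*cw*r + a*(a+b*r)*dw) / (a * Δ) := by
  field_simp
  subst hΔ
  ring

lemma am_algebra (μ r p q U t ZW D : ℝ) (hDdef : D = μ + 2*r*p) (hD : D ≠ 0) (hU : U ≠ 0) :
    let φ := U^2 - t^2
    let S := U^2
    let κ := (μ+2)/2
    let a := p*φ/U
    let b := φ*p*(p+q)/U - p^2*φ^2/U^3
    let c := -(p*φ*t)/U^3
    let d := φ/U^3
    let g := (μ+2)*p*(μ+1+2*r*p+2*r*q)/(2*D)
    let p' := p*(q-p)/2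
    let X := (1+r*q)*(-μ^2*q+(2*μ+3)*p+2*r*p^2+6*r*p*q)/(2*D) - q
    let g' := ((μ+2)*p'*(μ+1+2*r*p+2*r*q)+(μ+2)*p*(2*p+2*r*p'+2*q+2*X))/(2*D)
      - (μ+2)*p*(μ+1+2*r*p+2*r*q)*(2*(2*p+2*r*p'))/(2*D)^2
    let aw := 2*(ZW*(κ*p*φ/S-g))
    let bw := 4*(ZW*(κ*p*φ/S-g)^2+ZW*(κ*(φ*p*(p+q)/2)/S-κ*p^2*φ^2/S^2-g'))
    let cw := 2*(ZW*((2*κ*t/S)*(κ*p*φ/S-g)-2*t*κ*p*φ/S^2))
    let dw := 2*κ*ZW*(1/S+2*(κ-1)*t^2/S^2)
    let Δ := (a+b*r)*d-c^2*r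
    (μ-1)*Δ*aw + a*d*(aw+r*bw) - 2*a*c*cw*r + a*(a+b*r)*dw = 0 := by
  intro φ S κ a b c d g p' X g' aw bw cw dw Δ
  simp only [φ, S, κ, a, b, c, d, g, p', X, g', aw, bw, cw, dw, Δ]
  field_simp
  subst hDdef
  ring

lemma rad_mem (h : ProfileG μ δ φ p q q') (x : E (m+1)) : -δ < rad x := by
  have := rad_nonneg x
  have := h.hδ
  linarith

lemma uf_pos (h : ProfileG μ δ φ p q q') (x : E (m+1)) : 0 < uf φ x := Uf_pos h (rad_mem h x) _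

lemma uf_sq (h : ProfileG μ δ φ p q q') (x : E (m+1)) : (uf φ x)^2 = φ (rad x) + (lst x)^2 :=
  Uf_sq h (rad_mem h x) _

theorem wfun_uf (hm : 1 ≤ m) (h : ProfileG (m:ℝ) δ φ p q q') :
    wfun (uf φ) = fun x : E (m+1) => Gw m φ p q (rad x) (lst x) := by
  funext x
  unfold wfun Gw Wf Zf
  rw [det_hess_uf hm h x]
  have hU := uf_pos h x
  have hL := Lf_pos (m := m) h (rad_mem h x)
  have e : (-(((m+1:ℕ):ℝ) + 1) / (((m+1:ℕ):ℝ) + 2)) = -((m:ℝ)+2)/((m:ℝ)+3) := by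
    push_cast; ring_nf
  rw [e]
  change (Lf m φ p q (rad x) / (uf φ x)^(m+3)) ^ (-((m:ℝ)+2)/((m:ℝ)+3)) = _
  rw [Real.div_rpow hL.le (by positivity), ← uf_sq h x]
  have hm3 : (m:ℝ) + 3 ≠ 0 := by positivity
  have e2 : ((uf φ x)^(m+3)) ^ (-((m:ℝ)+2)/((m:ℝ)+3)) = ((uf φ x) ^ ((m:ℝ)+2))⁻¹ := by
    rw [← Real.rpow_natCast, ← Real.rpow_mul hU.le]
    have : ((m+3:ℕ):ℝ) * (-((m:ℝ)+2)/((m:ℝ)+3)) = -((m:ℝ)+2) := by
      push_cast; field_simp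
    rw [this, Real.rpow_neg hU.le]
  have e3 : ((uf φ x)^2) ^ (((m:ℝ)+2)/2) = (uf φ x) ^ ((m:ℝ)+2) := by
    rw [← Real.rpow_natCast, ← Real.rpow_mul hU.le]
    congr 1
    push_cast; ring
  rw [e2, e3]
  field_simp

theorem hess_wfun_uf (hm : 1 ≤ m) (h : ProfileG (m:ℝ) δ φ p q q') (x : E (m+1)) :
    hess (wfun (uf φ)) x = Mblk (2 * Gwr m φ p q (rad x) (lst x))
      (4 * Gwrr m φ p q q' (rad x) (lst x))
      (2 * Gwrt m φ p q (rad x) (lst x)) (Gwtt m φ p q (rad x) (lst x)) x := by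
  rw [wfun_uf hm h]
  exact hess_radial (Ioi (-δ)) (fun r hr => by have := h.hδ; simp only [mem_Ioi]; linarith) _ _ _ _ _ _
    (Gw_partials0 h) (Gw_partials1 h) (Gw_partials2 h) x

theorem am_uf (hm : 1 ≤ m) (h : ProfileG (m:ℝ) δ φ p q q') :
    AffineMaximalOn Set.univ (uf φ : E (m+1) → ℝ) := by
  intro x _
  have hr := rad_mem h x
  have hU := uf_pos h x
  have hUsq := uf_sq h x
  have hφ := h.φpos _ hr
  have hp := h.ppos _ hr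
  have hR := h.Rpos _ hr
  have hD := h.Dpos _ hr
  rw [hess_wfun_uf hm h x, hess_uf h x]
  have hdelta := delta_uf h x
  have hΔpos : 0 < (φ (rad x))^2 * p (rad x) * (1 + rad x * q (rad x)) / (uf φ x)^4 := by positivity
  have ha : p (rad x) * φ (rad x) / uf φ x ≠ 0 := by positivity
  rw [Mblk_inv _ _ _ _ x ha (by rw [hdelta]; exact hΔpos.ne')]
  simp only [Matrix.smul_apply, smul_eq_mul, mul_assoc, ← Finset.mul_sum]
  simp only [← mul_assoc]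
  rw [Mblk_contract]
  rw [contraction_eq _ _ _ _ _ _ _ _ _ _ _ rfl ha (by rw [hdelta]; exact hΔpos.ne')]
  have hφe : φ (rad x) = (uf φ x)^2 - (lst x)^2 := by linarith
  have hSe : φ (rad x) + (lst x)^2 = (uf φ x)^2 := hUsq.symm
  have key := am_algebra (m:ℝ) (rad x) (p (rad x)) (q (rad x)) (uf φ x) (lst x)
    (Zf (m:ℝ) φ (rad x) (lst x) * Wf m φ p q (rad x))
    ((m:ℝ) + 2 * rad x * p (rad x)) rfl hD.ne' hU.ne'
  simp only at key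
  simp only [Gwr, Gwrr, Gwrt, Gwtt, gf, gf', rq'_eq h hr, hSe]
  rw [hφe]
  rw [key]
  simp

end Vale.Agent.P252.Gen
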