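import Mathlib
import Vale.Agent.P252.AffDefs
import Vale.Agent.P252.GReduceAM
import Vale.Agent.P252.GGlueB

open Set Matrix
open scoped ContDiff

namespace Vale.Agent.P252.Gen

open Vale.Agent.P252

variable {m : ℕ} {μ δ r₀ Pl pmax : ℝ} {φ p q q' : ℝ → ℝ}

/-- the purely algebraic core of the gradient bound -/
lemma core_ineq (r t φ p q ξ τ W U : ℝ) (hr : 0 ≤ r) (hφ : 0 < φ) (hp : 0 < p)
    (hR : 0 < 1 + r * q) (hCS : ξ^2 ≤ r * W) (hW : 0 ≤ W) (hU : U^2 = φ + t^2) :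
    φ * (1 + r * q) * (p * φ * ξ + t * τ)^2
      ≤ (1 + r * (p + q)) * U^2
        * (U^2 * (p * φ * W + φ * p * (p + q) * ξ^2 + τ^2) - (p * φ * ξ + t * τ)^2) := by
  obtain ⟨A, hA⟩ : ∃ A, A = p * φ := ⟨_, rfl⟩
  obtain ⟨D, hD⟩ : ∃ D, D = 1 + r * (p + q) := ⟨_, rfl⟩
  obtain ⟨G, hG⟩ : ∃ G, G = W + (p + q) * ξ^2 := ⟨_, rfl⟩
  obtain ⟨Y, hY⟩ : ∃ Y, Y = (p * φ * ξ + t * τ)^2 := ⟨_, rfl⟩
  obtain ⟨N, hN⟩ : ∃ N, N = p * φ * W + φ * p * (p + q) * ξ^2 + τ^2 := ⟨_, rfl⟩
  have hA0 : 0 < A := by rw [hA]; positivity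
  have hrp : 0 ≤ r * p := by positivity
  have hD0 : 0 < D := by rw [hD]; nlinarith
  have hG0 : 0 ≤ G := by
    rw [hG]
    by_cases hs : 0 ≤ p + q
    · positivity
    · rw [not_le] at hs
      have h1 : (p + q) * (r * W) ≤ (p + q) * ξ^2 := mul_le_mul_of_nonpos_left hCS hs.le
      have h2 : 0 ≤ W * D := by positivity
      rw [hD] at h2
      nlinarith
  have hN0 : 0 ≤ N := by
    have : N = A * G + τ^2 := by rw [hN, hA, hG]; ring
    rw [this]; positivity
  have hE : 0 ≤ r * τ^2 + D * t^2 * G - 2 * D * ξ * t * τ := by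
    rcases hr.eq_or_lt with h0 | h0
    · have hξ : ξ = 0 := by
        have : ξ^2 ≤ 0 := by rw [← h0] at hCS; simpa using hCS
        exact pow_eq_zero_iff (two_ne_zero) |>.1 (le_antisymm this (sq_nonneg _))
      rw [← h0, hξ]
      have : 0 ≤ D * t^2 * G := by positivity
      linarith
    · have h1 : D * ξ^2 ≤ r * G := by rw [hD, hG]; nlinarith
      have h2 : 0 ≤ r * (r * τ^2 + D * t^2 * G - 2 * D * ξ * t * τ) := by
        have h3 : D * t^2 * (D * ξ^2) ≤ D * t^2 * (r * G) :=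
          mul_le_mul_of_nonneg_left h1 (by positivity)
        nlinarith [sq_nonneg (r * τ - D * t * ξ)]
      exact nonneg_of_mul_nonneg_right h2 h0
  have hstar : D * Y ≤ (r * A + D * t^2) * N := by
    have e : (r * A + D * t^2) * N - D * Y
        = A^2 * (r * W - ξ^2) + A * (r * τ^2 + D * t^2 * G - 2 * D * ξ * t * τ) := by
      rw [hN, hY, hG, hA, hD]; ring
    have h1 : 0 ≤ A^2 * (r * W - ξ^2) := mul_nonneg (by positivity) (by linarith)
    have h2 : 0 ≤ A * (r * τ^2 + D * t^2 * G - 2 * D * ξ * t * τ) := mul_nonneg hA0.le hE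
    linarith
  -- consequences
  have hDR : D = (1 + r * q) + r * p := by rw [hD]; ring
  have h1 : φ * (1 + r * q) * N ≤ D * (U^2 * N - Y) := by
    have e : D * (U^2 * N) - (r * A + D * t^2) * N = φ * (1 + r * q) * N := by
      rw [hU, hA, hDR]; ring
    linarith
  have h2 : D * Y ≤ D * (U^2 * N) := by
    have h3 : 0 ≤ φ * (1 + r * q) * N := by positivity
    linarith
  have h4 : Y ≤ U^2 * N := le_of_mul_le_mul_left h2 hD0
  have hU0 : 0 ≤ U^2 := sq_nonneg U
  rw [← hY, ← hN, ← hD]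
  calc φ * (1 + r * q) * Y ≤ φ * (1 + r * q) * (U^2 * N) :=
        mul_le_mul_of_nonneg_left h4 (by positivity)
    _ = U^2 * (φ * (1 + r * q) * N) := by ring
    _ ≤ U^2 * (D * (U^2 * N - Y)) := mul_le_mul_of_nonneg_left h1 hU0
    _ = D * U^2 * (U^2 * N - Y) := by ring

lemma hasDerivAt_rad_line (x v : E (m+1)) :
    HasDerivAt (fun s : ℝ => rad (x + s • v)) (2 * ∑ k : Fin m, x k.castSucc * v k.castSucc) 0 := by
  unfold rad
  have h1 : ∀ k : Fin m, HasDerivAt (fun s : ℝ => ((x + s • v) k.castSucc)^2)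
      (2 * (x k.castSucc * v k.castSucc)) 0 := by
    intro k
    have h2 : HasDerivAt (fun s : ℝ => x k.castSucc + s * v k.castSucc) (v k.castSucc) 0 := by
      have := ((hasDerivAt_id' (0:ℝ)).mul_const (v k.castSucc)).const_add (x k.castSucc)
      simpa using this
    have h3 := h2.pow 2
    simp only [zero_mul, add_zero] at h3
    refine (h3.congr_deriv ?_).congr_of_eventuallyEq ?_
    · simp; ring
    · exact Filter.Eventually.of_forall fun s => by simp
  have h4 := HasDerivAt.fun_sum (u := Finset.univ) (fun k _ => h1 k)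
  rw [Finset.mul_sum]
  exact h4

lemma hasDerivAt_lst_line (x v : E (m+1)) :
    HasDerivAt (fun s : ℝ => lst (x + s • v)) (v (Fin.last m)) 0 := by
  unfold lst
  have h2 : HasDerivAt (fun s : ℝ => x (Fin.last m) + s * v (Fin.last m)) (v (Fin.last m)) 0 := by
    have := ((hasDerivAt_id' (0:ℝ)).mul_const (v (Fin.last m))).const_add (x (Fin.last m))
    simpa using this
  exact h2.congr_of_eventuallyEq (Filter.Eventually.of_forall fun s => by simp)

lemma fderiv_uf (h : ProfileG μ δ φ p q q') (x v : E (m+1)) :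
    fderiv ℝ (uf φ) x v = (p (rad x) * φ (rad x) * (∑ k : Fin m, x k.castSucc * v k.castSucc)
      + lst x * v (Fin.last m)) / uf φ x := by
  have hd : DifferentiableAt ℝ (uf φ : E (m+1) → ℝ) x :=
    ((contDiff_uf h).differentiable (by simp)) x
  rw [← hd.lineDeriv_eq_fderiv]
  have hx0 : x + (0:ℝ) • v = x := by simp
  have h1 := hasDerivAt_rad_line x v
  have h2 := hasDerivAt_lst_line x v
  have h3 : HasDerivAt φ (p (rad x) * φ (rad x)) (rad (x + (0:ℝ) • v)) := by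
    rw [hx0]; exact h.dφ _ (neg_delta_lt_rad h x)
  have h4 := (h3.comp (0:ℝ) h1).add (h2.pow 2)
  have hpos : φ (rad x) + (lst x)^2 ≠ 0 := by
    have := h.φpos _ (neg_delta_lt_rad h x)
    positivity
  have h5 := HasDerivAt.sqrt h4 (by simpa [hx0] using hpos)
  have h6 : lineDeriv ℝ (uf φ) x v = _ := h5.deriv
  rw [h6]
  simp only [Function.comp, Pi.add_apply, Pi.pow_apply, hx0]
  have hU : 0 < uf φ x := Uf_pos h (neg_delta_lt_rad h x) _
  have e : √(φ (rad x) + lst x ^ 2) = uf φ x := rfl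
  rw [e]
  field_simp
  simp
  ring

lemma quad_uf (h : ProfileG μ δ φ p q q') (x v : E (m+1)) :
    ∑ i, ∑ j, hess (uf φ) x i j * v i * v j
      = ((uf φ x)^2 * (p (rad x) * φ (rad x) * (∑ k : Fin m, v k.castSucc ^ 2)
          + φ (rad x) * p (rad x) * (p (rad x) + q (rad x))
            * (∑ k : Fin m, x k.castSucc * v k.castSucc)^2 + v (Fin.last m)^2)
        - (p (rad x) * φ (rad x) * (∑ k : Fin m, x k.castSucc * v k.castSucc)
          + lst x * v (Fin.last m))^2) / (uf φ x)^3 := by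
  have hU : 0 < uf φ x := Uf_pos h (neg_delta_lt_rad h x) _
  have hsq : (uf φ x)^2 = φ (rad x) + (lst x)^2 := Uf_sq h (neg_delta_lt_rad h x) _
  have e1 : ∑ i, ∑ j, hess (uf φ) x i j * v i * v j
      = (fun i => v i) ⬝ᵥ (hess (uf φ) x *ᵥ (fun i => v i)) := by
    simp only [dotProduct, mulVec, Finset.mul_sum]
    refine Finset.sum_congr rfl fun i _ => Finset.sum_congr rfl fun j _ => ?_
    ring
  rw [e1, hess_uf h x, BlkAlgAux.quad_Mblk]
  have e : φ (rad x) = (uf φ x)^2 - (lst x)^2 := by linarith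
  generalize (∑ k : Fin m, x k.castSucc * v k.castSucc) = ξ
  generalize (∑ k : Fin m, v k.castSucc ^ 2) = W
  generalize v (Fin.last m) = τ
  generalize hUU : uf φ x = U at *
  generalize lst x = t at *
  generalize p (rad x) = P at *
  generalize q (rad x) = Q at *
  generalize φ (rad x) = F at *
  field_simp
  rw [e]
  ring

lemma phi_mono (h : ProfileG μ δ φ p q q') {r : ℝ} (hr : 0 ≤ r) : φ 0 ≤ φ r := by
  have hδ := h.hδ
  have hmono : MonotoneOn φ (Ici 0) := by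
    apply monotoneOn_of_deriv_nonneg (convex_Ici 0)
    · intro r hr
      have hr' : (0:ℝ) ≤ r := hr
      exact (h.dφ r (by linarith)).continuousAt.continuousWithinAt
    · intro r hr
      rw [interior_Ici] at hr
      have hr' : (0:ℝ) < r := hr
      exact (h.dφ r (by linarith)).differentiableAt.differentiableWithinAt
    · intro r hr
      rw [interior_Ici] at hr
      have hr' : (0:ℝ) < r := hr
      rw [(h.dφ r (by linarith)).deriv]
      have h1 := h.ppos r (by linarith)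
      have h2 := h.φpos r (by linarith)
      positivity
  exact hmono (mem_Ici.mpr le_rfl) (mem_Ici.mpr hr) hr

/-- lower bound of the conformal factor -/
lemma theta_lower (hm : 1 ≤ m) (h : ProfileG (m:ℝ) δ φ p q q')
    (hb : ProfileBounds (m:ℝ) p q r₀ Pl pmax) (x : E (m+1)) :
    uf φ x / ((1 + pmax^m * (7/2) / (φ 0)^2) * φ (rad x))
      ≤ (hess (uf φ) x).det ^ (-(1:ℝ) / (((m+1 : ℕ):ℝ) + 2)) := by
  have hδ := h.hδ
  have hr := rad_nonneg x
  have hU : 0 < uf φ x := Uf_pos h (neg_delta_lt_rad h x) _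
  have hp := h.ppos _ (neg_delta_lt_rad h x)
  have hφ := h.φpos _ (neg_delta_lt_rad h x)
  have hR := h.Rpos _ (neg_delta_lt_rad h x)
  have hφ0 : 0 < φ 0 := h.φpos 0 (by linarith)
  have hφm := phi_mono h hr
  have hpm := hb.pub _ hr
  have hRm := hb.Rub _ hr
  have hpmax : 0 < pmax := lt_of_lt_of_le hp hpm
  obtain ⟨K, hK⟩ : ∃ K, K = pmax^m * (7/2) / (φ 0)^2 := ⟨_, rfl⟩
  rw [← hK]
  have hK0 : 0 < K := by rw [hK]; positivity
  have hdet := det_hess_uf hm h x
  have hdetpos : 0 < (hess (uf φ) x).det := by rw [hdet]; positivity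
  obtain ⟨x0, hx0⟩ : ∃ x0, x0 = (1 + K) * φ (rad x) / uf φ x := ⟨_, rfl⟩
  have hx0pos : 0 < x0 := by rw [hx0]; positivity
  have hle : (hess (uf φ) x).det ≤ x0^(m+3) := by
    rw [hdet, hx0, div_pow, mul_pow]
    apply div_le_div_of_nonneg_right _ (by positivity)
    have h1 : (p (rad x))^m ≤ pmax^m := pow_le_pow_left₀ hp.le hpm m
    have h2 : (p (rad x))^m * (1 + rad x * q (rad x)) ≤ pmax^m * (7/2) :=
      mul_le_mul h1 hRm hR.le (by positivity)
    have h3 : pmax^m * (7/2) = K * (φ 0)^2 := by rw [hK]; field_simp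
    have h4 : (φ 0)^2 ≤ (φ (rad x))^2 := pow_le_pow_left₀ hφ0.le hφm 2
    have h5 : K ≤ (1 + K)^(m+3) :=
      le_trans (by linarith) (le_self_pow₀ (by linarith) (by omega))
    calc (φ (rad x))^(m+1) * (p (rad x))^m * (1 + rad x * q (rad x))
        = (φ (rad x))^(m+1) * ((p (rad x))^m * (1 + rad x * q (rad x))) := by ring
      _ ≤ (φ (rad x))^(m+1) * (K * (φ 0)^2) := by
          rw [← h3]; exact mul_le_mul_of_nonneg_left h2 (by positivity)
      _ ≤ (φ (rad x))^(m+1) * (K * (φ (rad x))^2) := by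
          apply mul_le_mul_of_nonneg_left _ (by positivity)
          exact mul_le_mul_of_nonneg_left h4 hK0.le
      _ = K * (φ (rad x))^(m+3) := by ring
      _ ≤ (1 + K)^(m+3) * (φ (rad x))^(m+3) := mul_le_mul_of_nonneg_right h5 (by positivity)
  have hz : -(1:ℝ) / (((m+1 : ℕ):ℝ) + 2) ≤ 0 := by
    apply div_nonpos_of_nonpos_of_nonneg (by norm_num) (by positivity)
  have h7 := Real.rpow_le_rpow_of_nonpos hdetpos hle hz
  have h8 : (x0^(m+3)) ^ (-(1:ℝ) / (((m+1 : ℕ):ℝ) + 2)) = x0⁻¹ := by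
    rw [← Real.rpow_natCast, ← Real.rpow_mul hx0pos.le]
    have : ((m+3 : ℕ):ℝ) * (-(1:ℝ) / (((m+1 : ℕ):ℝ) + 2)) = -1 := by
      push_cast
      field_simp
      ring
    rw [this, Real.rpow_neg_one]
  rw [h8] at h7
  have h9 : x0⁻¹ = uf φ x / ((1 + K) * φ (rad x)) := by rw [hx0, inv_div]
  rw [← h9]
  exact h7

/-- PACKAGE AC1. Gradient bound of `log u` for the Berwald-Blaschke metric. -/
theorem grad_bound (hm : 1 ≤ m) (h : ProfileG (m:ℝ) δ φ p q q')
    (hb : ProfileBounds (m:ℝ) p q r₀ Pl pmax) :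
    ∃ C : ℝ, 0 < C ∧ ∀ x v : E (m+1),
      (fderiv ℝ (uf φ) x v)^2 ≤ C^2 * (uf φ x)^2 * affForm (uf φ) x v := by
  have hδ := h.hδ
  have hφ0 : 0 < φ 0 := h.φpos 0 (by linarith)
  have hpmax : 0 < pmax := lt_of_lt_of_le (h.ppos 0 (by linarith)) (hb.pub 0 le_rfl)
  obtain ⟨K1, hK1⟩ : ∃ K1, K1 = 1 + pmax^m * (7/2) / (φ 0)^2 := ⟨_, rfl⟩
  have hK10 : 0 < K1 := by rw [hK1]; positivity
  refine ⟨K1 * (7 + m) + 1, by positivity, ?_⟩
  intro x v
  have hr := rad_nonneg x
  have hU : 0 < uf φ x := Uf_pos h (neg_delta_lt_rad h x) _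
  have hsq : (uf φ x)^2 = φ (rad x) + (lst x)^2 := Uf_sq h (neg_delta_lt_rad h x) _
  have hp := h.ppos _ (neg_delta_lt_rad h x)
  have hφ := h.φpos _ (neg_delta_lt_rad h x)
  have hR := h.Rpos _ (neg_delta_lt_rad h x)
  have hθ := theta_lower hm h hb x
  rw [← hK1] at hθ
  unfold affForm
  rw [fderiv_uf h x v, quad_uf h x v]
  have hW : 0 ≤ ∑ k : Fin m, v k.castSucc ^ 2 := Finset.sum_nonneg fun _ _ => sq_nonneg _
  have hCS : (∑ k : Fin m, x k.castSucc * v k.castSucc)^2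
      ≤ rad x * ∑ k : Fin m, v k.castSucc ^ 2 := Finset.sum_mul_sq_le_sq_mul_sq _ _ _
  have hcore := core_ineq (rad x) (lst x) (φ (rad x)) (p (rad x)) (q (rad x))
    (∑ k : Fin m, x k.castSucc * v k.castSucc) (v (Fin.last m)) (∑ k : Fin m, v k.castSucc ^ 2)
    (uf φ x) hr hφ hp hR hCS hW hsq
  have hPub := hb.Pub _ hr
  have hRub := hb.Rub _ hr
  have hRlb := hb.Rlb _ hr
  generalize (hess (uf φ) x).det ^ (-(1:ℝ) / (((m+1 : ℕ):ℝ) + 2)) = θ at hθ ⊢
  rw [div_pow]
  have hY0 : 0 ≤ (p (rad x) * φ (rad x) * (∑ k : Fin m, x k.castSucc * v k.castSucc)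
          + lst x * v (Fin.last m))^2 := sq_nonneg _
  generalize (p (rad x) * φ (rad x) * (∑ k : Fin m, x k.castSucc * v k.castSucc)
          + lst x * v (Fin.last m))^2 = Y at hcore hY0 ⊢
  generalize (uf φ x ^ 2 * (p (rad x) * φ (rad x) * ∑ k : Fin m, v k.castSucc ^ 2
      + φ (rad x) * p (rad x) * (p (rad x) + q (rad x))
        * (∑ k : Fin m, x k.castSucc * v k.castSucc) ^ 2 + v (Fin.last m) ^ 2) - Y) = Z
    at hcore ⊢
  obtain ⟨D, hD⟩ : ∃ D, D = 1 + rad x * (p (rad x) + q (rad x)) := ⟨_, rfl⟩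
  rw [← hD] at hcore
  obtain ⟨C, hC⟩ : ∃ C, C = K1 * (7 + (m:ℝ)) + 1 := ⟨_, rfl⟩
  rw [← hC]
  have hm0 : (0:ℝ) ≤ m := Nat.cast_nonneg m
  have hC1 : 1 ≤ C := by
    rw [hC]
    have : 0 ≤ K1 * (7 + (m:ℝ)) := by positivity
    linarith
  have hCC : K1 * (7 + (m:ℝ)) ≤ C^2 := by nlinarith
  generalize uf φ x = U at *
  generalize hRR : 1 + rad x * q (rad x) = R at *
  generalize φ (rad x) = F at *
  have hDle : D ≤ 7/2 + (m:ℝ)/2 := by
    have : D = R + rad x * p (rad x) := by rw [hD, ← hRR]; ring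
    linarith
  have hD0 : 0 < D := by
    have : D = R + rad x * p (rad x) := by rw [hD, ← hRR]; ring
    have h2 : 0 ≤ rad x * p (rad x) := by positivity
    linarith
  have hZ0 : 0 ≤ Z := by
    by_contra hneg
    rw [not_le] at hneg
    have h1 : D * U^2 * Z < 0 := mul_neg_of_pos_of_neg (by positivity) hneg
    have h2 : 0 ≤ F * R * Y := by positivity
    linarith
  have hKD : K1 * D ≤ C^2 * R := by
    have h1 : K1 * D ≤ K1 * (7/2 + (m:ℝ)/2) := mul_le_mul_of_nonneg_left hDle hK10.le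
    have h2 : C^2 * (1/2) ≤ C^2 * R := mul_le_mul_of_nonneg_left hRlb (by positivity)
    linarith
  rw [div_le_iff₀ (by positivity)]
  have h1 : C^2 * U^2 * ((U / (K1 * F)) * (Z / U^3)) * U^2
      ≤ C^2 * U^2 * (θ * (Z / U^3)) * U^2 := by gcongr
  have h2 : C^2 * U^2 * ((U / (K1 * F)) * (Z / U^3)) * U^2 = C^2 * U^2 * Z / (K1 * F) := by
    field_simp
  have h3 : Y ≤ D * U^2 * Z / (F * R) := by
    rw [le_div_iff₀ (by positivity)]
    linarith
  have h4 : D * U^2 * Z / (F * R) ≤ C^2 * U^2 * Z / (K1 * F) := by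
    rw [div_le_div_iff₀ (by positivity) (by positivity)]
    have : (K1 * D) * (U^2 * Z * F) ≤ (C^2 * R) * (U^2 * Z * F) :=
      mul_le_mul_of_nonneg_right hKD (by positivity)
    linarith
  linarith

end Vale.Agent.P252.Gen
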