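import Mathlib
import Vale.Agent.P252.AffDefs
import Vale.Agent.P252.Basic

open Set MeasureTheory
open scoped ContDiff

namespace Vale.Agent.P252.Gen
open Vale.Agent.P252

theorem complete_of_grad_bound {n : ℕ} (u : E n → ℝ) (hu : ContDiff ℝ 1 u) (hpos : ∀ x, 0 < u x)
    (C : ℝ) (hC : 0 < C)
    (hg : ∀ x v : E n, (fderiv ℝ u x v)^2 ≤ C^2 * (u x)^2 * affForm u x v)
    (hsub : ∀ M : ℝ, Bornology.IsBounded {x : E n | u x ≤ M}) : AffineCompleteEntire u := by
  intro γ hγ hint
  set f : ℝ → ℝ := fun t => Real.sqrt (affForm u (γ t) (deriv γ t)) with hf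
  set h' : ℝ → ℝ := fun t => fderiv ℝ u (γ t) (deriv γ t) / u (γ t) with hh'
  have hfnn : ∀ t, 0 ≤ f t := fun t => Real.sqrt_nonneg _
  have hder : ∀ t, HasDerivAt (fun s => Real.log (u (γ s))) (h' t) t := by
    intro t
    have h1 : HasFDerivAt u (fderiv ℝ u (γ t)) (γ t) :=
      (hu.differentiable (by norm_num) (γ t)).hasFDerivAt
    have h2 : HasDerivAt γ (deriv γ t) t := (hγ.differentiable (by norm_num) t).hasDerivAt
    have h3 : HasDerivAt (fun s => u (γ s)) (fderiv ℝ u (γ t) (deriv γ t)) t :=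
      h1.comp_hasDerivAt t h2
    exact h3.log (hpos _).ne'
  have hcont : Continuous h' := by
    have c1 : Continuous (fun t => fderiv ℝ u (γ t)) :=
      (hu.continuous_fderiv (by norm_num)).comp hγ.continuous
    have c2 : Continuous (deriv γ) := hγ.continuous_deriv (by norm_num)
    have c3 : Continuous (fun t => fderiv ℝ u (γ t) (deriv γ t)) := c1.clm_apply c2
    exact c3.div (hu.continuous.comp hγ.continuous) (fun t => (hpos _).ne')
  have hbound : ∀ t, h' t ≤ C * f t := by
    intro t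
    have hU := hpos (γ t)
    have h1 := hg (γ t) (deriv γ t)
    have hA : 0 ≤ affForm u (γ t) (deriv γ t) := by
      by_contra hneg
      rw [not_le] at hneg
      have : C^2 * (u (γ t))^2 * affForm u (γ t) (deriv γ t) < 0 :=
        mul_neg_of_pos_of_neg (by positivity) hneg
      nlinarith [sq_nonneg (fderiv ℝ u (γ t) (deriv γ t))]
    have h2 : (fderiv ℝ u (γ t) (deriv γ t))^2 ≤ (C * u (γ t) * f t)^2 := by
      have : (f t)^2 = affForm u (γ t) (deriv γ t) := Real.sq_sqrt hA
      calc _ ≤ C^2 * (u (γ t))^2 * affForm u (γ t) (deriv γ t) := h1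
        _ = (C * u (γ t) * f t)^2 := by rw [mul_pow, mul_pow, this]
    have h3 : fderiv ℝ u (γ t) (deriv γ t) ≤ C * u (γ t) * f t :=
      le_trans (le_abs_self _) (abs_le_of_sq_le_sq h2 (by have := hfnn t; positivity))
    simp only [hh']
    rw [div_le_iff₀ hU]
    linarith
  set Len : ℝ := ∫ t in Ici (0:ℝ), f t with hLen
  have hmain : ∀ t, 0 ≤ t → Real.log (u (γ t)) ≤ Real.log (u (γ 0)) + C * Len := by
    intro t ht
    have e1 : ∫ s in (0:ℝ)..t, h' s = Real.log (u (γ t)) - Real.log (u (γ 0)) :=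
      intervalIntegral.integral_eq_sub_of_hasDerivAt (fun s _ => hder s)
        (hcont.intervalIntegrable _ _)
    have hfi : IntervalIntegrable f volume 0 t := by
      rw [intervalIntegrable_iff_integrableOn_Ioc_of_le ht]
      exact hint.mono_set (fun s hs => hs.1.le)
    have e2 : ∫ s in (0:ℝ)..t, h' s ≤ ∫ s in (0:ℝ)..t, C * f s :=
      intervalIntegral.integral_mono_on ht (hcont.intervalIntegrable _ _) (hfi.const_mul C)
        (fun s _ => hbound s)
    have e3 : ∫ s in (0:ℝ)..t, C * f s = C * ∫ s in (0:ℝ)..t, f s :=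
      intervalIntegral.integral_const_mul _ _
    have e4 : ∫ s in (0:ℝ)..t, f s ≤ Len := by
      rw [intervalIntegral.integral_of_le ht]
      exact setIntegral_mono_set hint (Filter.Eventually.of_forall hfnn)
        (Filter.Eventually.of_forall (fun s hs => hs.1.le))
    have : C * ∫ s in (0:ℝ)..t, f s ≤ C * Len := mul_le_mul_of_nonneg_left e4 hC.le
    linarith
  refine (hsub (Real.exp (Real.log (u (γ 0)) + C * Len))).subset ?_
  rintro _ ⟨t, ht, rfl⟩
  show u (γ t) ≤ _
  rw [← Real.exp_log (hpos (γ t))]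
  exact Real.exp_le_exp.mpr (hmain t ht)

end Vale.Agent.P252.Gen
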