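import Mathlib
import Vale.Agent.P252.GReduceAM
import Vale.Agent.P252.GGlueB

open Set Matrix
open scoped ContDiff

namespace Vale.Agent.P252.Gen

open Vale.Agent.P252

variable {m : ℕ} {μ δ r₀ Pl pmax : ℝ} {φ p q q' : ℝ → ℝ}

lemma norm_sq_eq_rad_add (x : E (m+1)) : ‖x‖^2 = rad x + (lst x)^2 := by
  rw [EuclideanSpace.real_norm_sq_eq, Fin.sum_univ_castSucc]
  rfl

/-- PACKAGE AC3. Sublevel sets of `u` are bounded. -/
theorem sublevel_bounded (h : ProfileG μ δ φ p q q') (hb : ProfileBounds μ p q r₀ Pl pmax)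
    (M : ℝ) : Bornology.IsBounded {x : E (m+1) | uf φ x ≤ M} := by
  have hr₀ := hb.r₀pos
  have hPl := hb.Plpos
  have hδ := h.hδ
  have hder : ∀ r, r₀ ≤ r → HasDerivAt (fun r => Real.log (φ r) - Pl * Real.log r)
      (p r * φ r / φ r - Pl * r⁻¹) r := by
    intro r hr
    have h1 : -δ < r := by linarith
    have h2 : r ≠ 0 := by linarith
    exact ((h.dφ r h1).log (h.φpos r h1).ne').sub ((Real.hasDerivAt_log h2).const_mul Pl)
  have hmono : MonotoneOn (fun r => Real.log (φ r) - Pl * Real.log r) (Ici r₀) := by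
    apply monotoneOn_of_deriv_nonneg (convex_Ici r₀)
    · intro r hr
      exact (hder r hr).continuousAt.continuousWithinAt
    · intro r hr
      rw [interior_Ici] at hr
      exact (hder r (le_of_lt hr)).differentiableAt.differentiableWithinAt
    · intro r hr
      rw [interior_Ici] at hr
      have hr' : r₀ ≤ r := le_of_lt hr
      rw [(hder r hr').deriv]
      have h1 : -δ < r := by linarith
      have h2 : 0 < r := by linarith
      have h3 := hb.Plb r hr'
      have h4 := h.φpos r h1
      have e : p r * φ r / φ r - Pl * r⁻¹ = (r * p r - Pl) / r := by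
        field_simp
      rw [e]
      exact div_nonneg (by linarith) h2.le
  set B : ℝ := Real.log r₀ + (Real.log (M^2) - Real.log (φ r₀)) / Pl with hB
  rw [isBounded_iff_forall_norm_le]
  refine ⟨Real.sqrt (max r₀ (Real.exp B) + M^2), ?_⟩
  intro x hx
  have hx' : uf φ x ≤ M := hx
  have hU : 0 < uf φ x := Uf_pos h (neg_delta_lt_rad h x) _
  have hsq : (uf φ x)^2 = φ (rad x) + (lst x)^2 := Uf_sq h (neg_delta_lt_rad h x) _
  have hφ := h.φpos _ (neg_delta_lt_rad h x)
  have hM : 0 < M := by linarith
  have hle : (uf φ x)^2 ≤ M^2 := by nlinarith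
  have h1 : (lst x)^2 ≤ M^2 := by nlinarith
  have h2 : φ (rad x) ≤ M^2 := by nlinarith [sq_nonneg (lst x)]
  have h3 : rad x ≤ max r₀ (Real.exp B) := by
    by_cases hc : rad x ≤ r₀
    · exact le_trans hc (le_max_left _ _)
    · rw [not_le] at hc
      refine le_trans ?_ (le_max_right _ _)
      have hm := hmono (mem_Ici.mpr le_rfl) (mem_Ici.mpr hc.le) hc.le
      simp only [] at hm
      have h4 : Real.log (φ (rad x)) ≤ Real.log (M^2) := Real.log_le_log hφ h2
      have h5 : Pl * Real.log (rad x) ≤ Pl * B := by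
        rw [hB]
        have : Pl * (Real.log r₀ + (Real.log (M^2) - Real.log (φ r₀)) / Pl)
            = Pl * Real.log r₀ + (Real.log (M^2) - Real.log (φ r₀)) := by
          field_simp
        rw [this]
        linarith
      have h6 : Real.log (rad x) ≤ B := le_of_mul_le_mul_left h5 hPl
      have h7 : 0 < rad x := by linarith
      rw [← Real.exp_log h7]
      exact Real.exp_le_exp.mpr h6
  apply Real.le_sqrt_of_sq_le
  rw [norm_sq_eq_rad_add]
  linarith

end Vale.Agent.P252.Gen
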