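import Mathlib
import Vale.Agent.P252.GAffine1
import Vale.Agent.P252.GAffine2
import Vale.Agent.P252.GAffine3

open Set Matrix
open scoped ContDiff

namespace Vale.Agent.P252.Gen

open Vale.Agent.P252

variable {m : ℕ} {μ δ r₀ Pl pmax : ℝ} {φ p q q' : ℝ → ℝ}

theorem affineComplete_uf (hm : 1 ≤ m) (h : ProfileG (m:ℝ) δ φ p q q')
    (hb : ProfileBounds (m:ℝ) p q r₀ Pl pmax) : AffineCompleteEntire (uf φ : E (m+1) → ℝ) := by
  obtain ⟨C, hC, hg⟩ := grad_bound hm h hb
  exact complete_of_grad_bound _ ((contDiff_uf h).of_le (by norm_num)) (uf_pos h) C hC hg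
    (sublevel_bounded h hb)

end Vale.Agent.P252.Gen
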