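import Mathlib

open scoped ContDiff

namespace Vale.Agent.P252

/-- A global smooth solution of the reduced third order ODE (`m = 10`), written as a first order
system for `φ`, `p = φ'/φ`, `q = p + 2 p'/p`, on the interval `(-δ, ∞)`. -/
structure Profile (δ : ℝ) (φ p q q' : ℝ → ℝ) : Prop where
  hδ : 0 < δ
  dφ : ∀ r, -δ < r → HasDerivAt φ (p r * φ r) r
  dp : ∀ r, -δ < r → HasDerivAt p (p r * (q r - p r) / 2) r
  dq : ∀ r, -δ < r → HasDerivAt q (q' r) r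
  ode : ∀ r, -δ < r → 2 * (10 + 2 * r * p r) * (r * q' r + q r)
    = (1 + r * q r) * (-100 * q r + 23 * p r + 2 * r * p r ^ 2 + 6 * r * p r * q r)
  φpos : ∀ r, -δ < r → 0 < φ r
  ppos : ∀ r, -δ < r → 0 < p r
  Rpos : ∀ r, -δ < r → 0 < 1 + r * q r
  Dpos : ∀ r, -δ < r → 0 < 10 + 2 * r * p r
  smooth : ContDiffOn ℝ ∞ φ (Set.Ioi (-δ))

end Vale.Agent.P252
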