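import Mathlib
import Vale.Agent.P252.ProfileDefs
import Vale.Agent.P252.Local
import Vale.Agent.P252.Global

open Set
open scoped ContDiff

namespace Vale.Agent.P252

/-- PACKAGE G. Glue the local analytic solution and the global box solution. -/
theorem exists_profile : ∃ (δ : ℝ) (φ p q q' : ℝ → ℝ), Profile δ φ p q q' := by
  obtain ⟨p1, q1, q1', hloc, hsp1, hsq1⟩ := exists_local_solution
  have hp1 : ∀ r, |r| < 1/50 → 1/2 ≤ p1 r ∧ p1 r ≤ 3/2 := by
    intro r hr
    have := (hloc r hr).2.2.2.1
    rw [abs_le] at this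
    constructor <;> linarith [this.1, this.2]
  have hq1 : ∀ r, |r| < 1/50 → -3 ≤ q1 r ∧ q1 r ≤ 3 := by
    intro r hr
    exact abs_le.mp (hloc r hr).2.2.2.2
  have h100 : |(1/100:ℝ)| < 1/50 := by rw [abs_of_pos] <;> norm_num
  obtain ⟨P, R, hP0, hR0, hbox, hsP, hsR⟩ := exists_global_boxSol (1/200) (1/100)
    ((1/100) * p1 (1/100)) (1 + (1/100) * q1 (1/100)) (by norm_num) (by norm_num) (by norm_num)
    ⟨by linarith [(hp1 _ h100).1], by linarith [(hp1 _ h100).2]⟩
    ⟨by linarith [(hq1 _ h100).1], by linarith [(hq1 _ h100).2]⟩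
  have habs : ∀ r ∈ Icc (1/100:ℝ) (3/200), |r| < 1/50 := by
    intro r hr
    rw [abs_of_pos (by linarith [hr.1])]; linarith [hr.2]
  -- the local solution is a box solution on a short interval
  have hlocbox : BoxSol (1/200) (1/100) (3/200) (fun r => r * p1 r) (fun r => 1 + r * q1 r) := by
    refine ⟨?_, ?_, ?_, ?_⟩
    · intro r hr
      have h := hp1 r (habs r hr)
      constructor
      · show 1/200 ≤ r * p1 r
        nlinarith [hr.1, hr.2, h.1, h.2]
      · show r * p1 r ≤ 5
        nlinarith [hr.1, hr.2, h.1, h.2]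
    · intro r hr
      have h := hq1 r (habs r hr)
      constructor
      · show 1/2 ≤ 1 + r * q1 r
        nlinarith [hr.1, hr.2, h.1, h.2]
      · show 1 + r * q1 r ≤ 7/2
        nlinarith [hr.1, hr.2, h.1, h.2]
    · intro r hr
      have hr0 : 0 < r := by linarith [hr.1]
      have h := (hloc r (habs r hr)).1
      have hd : HasDerivAt (fun r => r * p1 r) (1 * p1 r + r * (p1 r * (q1 r - p1 r) / 2)) r :=
        (hasDerivAt_id' r).mul h
      have e : (fun r => r * p1 r) r * (1 + (fun r => 1 + r * q1 r) r - (fun r => r * p1 r) r)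
          / (2 * r) = 1 * p1 r + r * (p1 r * (q1 r - p1 r) / 2) := by
        simp only []
        field_simp
        ring
      rw [e]
      exact hd.hasDerivWithinAt
    · intro r hr
      have hr0 : 0 < r := by linarith [hr.1]
      have h := (hloc r (habs r hr)).2.1
      have L3 := (hloc r (habs r hr)).2.2.1
      have hpp := hp1 r (habs r hr)
      have hd : HasDerivAt (fun r => 1 + r * q1 r) (1 * q1 r + r * q1' r) r :=
        ((hasDerivAt_id' r).mul h).const_add 1
      have hpos : 0 < (10 + 2 * (r * p1 r)) * (2 * r) := by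
        have : 0 < r * p1 r := mul_pos hr0 (by linarith [hpp.1])
        positivity
      have e : (fun r => 1 + r * q1 r) r * Bf ((fun r => r * p1 r) r) ((fun r => 1 + r * q1 r) r)
          / ((10 + 2 * (fun r => r * p1 r) r) * (2 * r)) = 1 * q1 r + r * q1' r := by
        simp only []
        rw [div_eq_iff hpos.ne']
        unfold Bf
        linear_combination (-r) * L3
      rw [e]
      exact hd.hasDerivWithinAt
  have huniq := BoxSol.unique (by norm_num) (by norm_num) (hbox (3/200) (by norm_num)) hlocbox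
    (by simp only [hP0]) (by simp only [hR0])
  -- interior derivatives of the global solution
  have hdP : ∀ r, 1/100 < r → HasDerivAt P (P r * (1 + R r - P r) / (2 * r)) r := by
    intro r hr
    have hb := hbox (r+1) (by linarith)
    exact (hb.dP r ⟨hr.le, by linarith⟩).hasDerivAt (Icc_mem_nhds hr (by linarith))
  have hdR : ∀ r, 1/100 < r →
      HasDerivAt R (R r * Bf (P r) (R r) / ((10 + 2 * P r) * (2 * r))) r := by
    intro r hr
    have hb := hbox (r+1) (by linarith)
    exact (hb.dR r ⟨hr.le, by linarith⟩).hasDerivAt (Icc_mem_nhds hr (by linarith))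
  have hPm : ∀ r, 1/100 ≤ r → P r ∈ Icc (1/200:ℝ) 5 := fun r hr =>
    (hbox r hr).memP r ⟨hr, le_rfl⟩
  have hRm : ∀ r, 1/100 ≤ r → R r ∈ Icc (1/2:ℝ) (7/2) := fun r hr =>
    (hbox r hr).memR r ⟨hr, le_rfl⟩
  -- the glued functions
  let p : ℝ → ℝ := fun r => if r < 1/80 then p1 r else P r / r
  let q : ℝ → ℝ := fun r => if r < 1/80 then q1 r else (R r - 1) / r
  let q' : ℝ → ℝ := fun r => if r < 1/80 then q1' r else
    ((R r * Bf (P r) (R r) / ((10 + 2 * P r) * (2 * r))) * r - (R r - 1)) / r^2
  have hpL : ∀ r, r < 3/200 → p r = p1 r := by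
    intro r h2
    by_cases h : r < 1/80
    · simp only [p, if_pos h]
    · have hr : r ∈ Icc (1/100:ℝ) (3/200) := ⟨by linarith [not_lt.mp h], h2.le⟩
      have hr0 : r ≠ 0 := by linarith [hr.1]
      simp only [p, if_neg h]
      rw [(huniq r hr).1]
      field_simp
  have hqL : ∀ r, r < 3/200 → q r = q1 r := by
    intro r h2
    by_cases h : r < 1/80
    · simp only [q, if_pos h]
    · have hr : r ∈ Icc (1/100:ℝ) (3/200) := ⟨by linarith [not_lt.mp h], h2.le⟩
      have hr0 : r ≠ 0 := by linarith [hr.1]
      simp only [q, if_neg h]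
      rw [(huniq r hr).2]
      field_simp
      ring
  have hpG : ∀ r, 1/100 < r → p r = P r / r := by
    intro r h1
    by_cases h : r < 1/80
    · have hr : r ∈ Icc (1/100:ℝ) (3/200) := ⟨h1.le, by linarith⟩
      have hr0 : r ≠ 0 := by linarith [hr.1]
      simp only [p, if_pos h]
      rw [(huniq r hr).1]
      field_simp
    · simp only [p, if_neg h]
  have hqG : ∀ r, 1/100 < r → q r = (R r - 1) / r := by
    intro r h1
    by_cases h : r < 1/80
    · have hr : r ∈ Icc (1/100:ℝ) (3/200) := ⟨h1.le, by linarith⟩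
      have hr0 : r ≠ 0 := by linarith [hr.1]
      simp only [q, if_pos h]
      rw [(huniq r hr).2]
      field_simp
      ring
    · simp only [q, if_neg h]
  have hpLe : ∀ r, r < 3/200 → p =ᶠ[nhds r] p1 := fun r h =>
    Filter.eventually_of_mem (Iio_mem_nhds h) (fun y hy => hpL y hy)
  have hqLe : ∀ r, r < 3/200 → q =ᶠ[nhds r] q1 := fun r h =>
    Filter.eventually_of_mem (Iio_mem_nhds h) (fun y hy => hqL y hy)
  have hpGe : ∀ r, 1/100 < r → p =ᶠ[nhds r] fun y => P y / y := fun r h =>
    Filter.eventually_of_mem (Ioi_mem_nhds h) (fun y hy => hpG y hy)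
  have hqGe : ∀ r, 1/100 < r → q =ᶠ[nhds r] fun y => (R y - 1) / y := fun r h =>
    Filter.eventually_of_mem (Ioi_mem_nhds h) (fun y hy => hqG y hy)
  have habs' : ∀ r : ℝ, -(1/50) < r → r < 1/80 → |r| < 1/50 := by
    intro r h1 h2
    rw [abs_lt]; constructor <;> linarith
  -- the differential equations
  have dp : ∀ r, -(1/50) < r → HasDerivAt p (p r * (q r - p r) / 2) r := by
    intro r hr
    by_cases h : r < 1/80
    · have h2 : r < 3/200 := by linarith
      rw [hpL r h2, hqL r h2]
      exact ((hloc r (habs' r hr h)).1).congr_of_eventuallyEq (hpLe r h2)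
    · have h1 : 1/100 < r := by linarith [not_lt.mp h]
      have hr0 : r ≠ 0 := by linarith
      rw [hpG r h1, hqG r h1]
      have hd := ((hdP r h1).div (hasDerivAt_id' r) hr0).congr_of_eventuallyEq (hpGe r h1)
      have e : P r / r * ((R r - 1) / r - P r / r) / 2
          = (P r * (1 + R r - P r) / (2 * r) * r - P r * 1) / r ^ 2 := by
        field_simp
        ring
      rw [e]
      exact hd
  have dq : ∀ r, -(1/50) < r → HasDerivAt q (q' r) r := by
    intro r hr
    by_cases h : r < 1/80
    · have h2 : r < 3/200 := by linarith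
      simp only [q', if_pos h]
      exact ((hloc r (habs' r hr h)).2.1).congr_of_eventuallyEq (hqLe r h2)
    · have h1 : 1/100 < r := by linarith [not_lt.mp h]
      have hr0 : r ≠ 0 := by linarith
      simp only [q', if_neg h]
      have hd := (((hdR r h1).sub_const 1).div (hasDerivAt_id' r) hr0).congr_of_eventuallyEq
        (hqGe r h1)
      have e : (R r * Bf (P r) (R r) / ((10 + 2 * P r) * (2 * r)) * r - (R r - 1)) / r ^ 2
          = (R r * Bf (P r) (R r) / ((10 + 2 * P r) * (2 * r)) * r - (R r - 1) * 1) / r ^ 2 := by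
        rw [mul_one]
      rw [e]
      exact hd
  have ode : ∀ r, -(1/50) < r → 2 * (10 + 2 * r * p r) * (r * q' r + q r)
      = (1 + r * q r) * (-100 * q r + 23 * p r + 2 * r * p r ^ 2 + 6 * r * p r * q r) := by
    intro r hr
    by_cases h : r < 1/80
    · have h2 : r < 3/200 := by linarith
      rw [hpL r h2, hqL r h2]
      simp only [q', if_pos h]
      exact (hloc r (habs' r hr h)).2.2.1
    · have h1 : 1/100 < r := by linarith [not_lt.mp h]
      have hr0 : r ≠ 0 := by linarith
      have hP := hPm r h1.le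
      have hD : (10 + 2 * P r) ≠ 0 := by linarith [hP.1]
      rw [hpG r h1, hqG r h1]
      simp only [q', if_neg h]
      unfold Bf
      field_simp
      ring
  have ppos : ∀ r, -(1/50) < r → 0 < p r := by
    intro r hr
    by_cases h : r < 1/80
    · rw [hpL r (by linarith)]
      linarith [(hp1 r (habs' r hr h)).1]
    · have h1 : 1/100 < r := by linarith [not_lt.mp h]
      rw [hpG r h1]
      exact div_pos (by linarith [(hPm r h1.le).1]) (by linarith)
  have Rpos : ∀ r, -(1/50) < r → 0 < 1 + r * q r := by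
    intro r hr
    by_cases h : r < 1/80
    · rw [hqL r (by linarith)]
      have hq := hq1 r (habs' r hr h)
      have ha := abs_lt.mp (habs' r hr h)
      have : |r * q1 r| ≤ (1/50) * 3 := by
        rw [abs_mul]
        exact mul_le_mul (habs' r hr h).le (abs_le.mpr hq) (abs_nonneg _) (by norm_num)
      linarith [(abs_le.mp this).1]
    · have h1 : 1/100 < r := by linarith [not_lt.mp h]
      have hr0 : r ≠ 0 := by linarith
      rw [hqG r h1]
      have : 1 + r * ((R r - 1) / r) = R r := by field_simp; ring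
      rw [this]
      linarith [(hRm r h1.le).1]
  have Dpos : ∀ r, -(1/50) < r → 0 < 10 + 2 * r * p r := by
    intro r hr
    by_cases h : r < 1/80
    · rw [hpL r (by linarith)]
      have hp := hp1 r (habs' r hr h)
      have : |r * p1 r| ≤ (1/50) * (3/2) := by
        rw [abs_mul]
        exact mul_le_mul (habs' r hr h).le (abs_le.mpr ⟨by linarith [hp.1], hp.2⟩)
          (abs_nonneg _) (by norm_num)
      nlinarith [(abs_le.mp this).1]
    · have h1 : 1/100 < r := by linarith [not_lt.mp h]
      have hr0 : r ≠ 0 := by linarith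
      rw [hpG r h1]
      have : 10 + 2 * r * (P r / r) = 10 + 2 * P r := by field_simp
      rw [this]
      linarith [(hPm r h1.le).1]
  -- smoothness of p
  have hsp : ContDiffOn ℝ ∞ p (Ioi (-(1/50))) := by
    intro x hx
    have hx' : -(1/50) < x := hx
    refine ContDiffAt.contDiffWithinAt ?_
    by_cases h : x < 1/80
    · have h2 : x < 3/200 := by linarith
      exact (hsp1.contDiffAt (Ioo_mem_nhds hx' (by linarith))).congr_of_eventuallyEq (hpLe x h2)
    · have h1 : 1/100 < x := by linarith [not_lt.mp h]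
      have hr0 : x ≠ 0 := by linarith
      exact ((hsP.contDiffAt (Ioi_mem_nhds h1)).div contDiffAt_id hr0).congr_of_eventuallyEq
        (hpGe x h1)
  have hpc : ContinuousOn p (Ioi (-(1/50))) := hsp.continuousOn
  -- the primitive
  let I : ℝ → ℝ := fun r => ∫ x in (0:ℝ)..r, p x
  have dI : ∀ r, -(1/50) < r → HasDerivAt I (p r) r := by
    intro r hr
    have hsub : uIcc (0:ℝ) r ⊆ Ioi (-(1/50)) := by
      intro y hy
      have := hy.1
      have hm : -(1/50) < min 0 r := lt_min (by norm_num) hr
      exact lt_of_lt_of_le hm this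
    exact intervalIntegral.integral_hasDerivAt_right
      ((hpc.mono hsub).intervalIntegrable)
      (hpc.stronglyMeasurableAtFilter isOpen_Ioi r hr)
      ((dp r hr).continuousAt)
  have hsI : ContDiffOn ℝ ∞ I (Ioi (-(1/50))) := by
    rw [contDiffOn_infty_iff_deriv_of_isOpen isOpen_Ioi]
    refine ⟨fun r hr => (dI r hr).differentiableAt.differentiableWithinAt, ?_⟩
    exact hsp.congr (fun r hr => (dI r hr).deriv)
  refine ⟨1/50, fun r => Real.exp (I r), p, q, q', ?_⟩
  refine ⟨by norm_num, ?_, dp, dq, ode, fun r _ => Real.exp_pos _, ppos, Rpos, Dpos, hsI.exp⟩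
  intro r hr
  have h := (dI r hr).exp
  have e : p r * Real.exp (I r) = Real.exp (I r) * p r := mul_comm _ _
  rw [e]
  exact h

end Vale.Agent.P252
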