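import Mathlib
import Vale.Agent.P252.BlkDefs
import Vale.Agent.P252.BlkHess
import Vale.Agent.P252.BlkAlg
import Vale.Agent.P252.ProfileDefs

open Set Matrix
open scoped ContDiff

namespace Vale.Agent.P252

variable {δ : ℝ} {φ p q q' : ℝ → ℝ}

/-- `U(r,t) = sqrt (φ r + t^2)` -/
noncomputable def Uf (φ : ℝ → ℝ) (r t : ℝ) : ℝ := Real.sqrt (φ r + t^2)

/-- the candidate `u(x) = sqrt (φ(|x'|^2) + x_last^2)` on `R^11` -/
noncomputable def uf (φ : ℝ → ℝ) (x : E (10+1)) : ℝ := Uf φ (rad x) (lst x)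

lemma Uf_pos (h : Profile δ φ p q q') {r : ℝ} (hr : -δ < r) (t : ℝ) : 0 < Uf φ r t := by
  unfold Uf
  have := h.φpos r hr
  positivity

lemma Uf_sq (h : Profile δ φ p q q') {r : ℝ} (hr : -δ < r) (t : ℝ) :
    (Uf φ r t)^2 = φ r + t^2 := by
  unfold Uf
  have := h.φpos r hr
  exact Real.sq_sqrt (by positivity)

lemma Uf_dr (h : Profile δ φ p q q') {r : ℝ} (hr : -δ < r) (t : ℝ) :
    HasDerivAt (fun ρ => Uf φ ρ t) (p r * φ r / (2 * Uf φ r t)) r := by
  have h1 : HasDerivAt (fun ρ => φ ρ + t^2) (p r * φ r) r := (h.dφ r hr).add_const _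
  have hpos : φ r + t^2 ≠ 0 := by
    have := h.φpos r hr
    positivity
  exact h1.sqrt hpos

lemma Uf_dt (h : Profile δ φ p q q') {r : ℝ} (hr : -δ < r) (t : ℝ) :
    HasDerivAt (fun τ => Uf φ r τ) (t / Uf φ r t) t := by
  have h1 : HasDerivAt (fun τ => φ r + τ^2) (2 * t) t := by
    have := (hasDerivAt_pow 2 t).const_add (φ r)
    simpa using this
  have hpos : φ r + t^2 ≠ 0 := by
    have := h.φpos r hr
    positivity
  have h2 := h1.sqrt hpos
  have e : 2 * t / (2 * √(φ r + t^2)) = t / Uf φ r t := by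
    unfold Uf
    rw [mul_div_mul_left _ _ two_ne_zero]
  rw [e] at h2
  exact h2

/-- PACKAGE C3a (this whole file). -/
theorem Uf_partials0 (h : Profile δ φ p q q') :
    HasPartials (Ioi (-δ)) (Uf φ) (fun r t => p r * φ r / (2 * Uf φ r t))
      (fun r t => t / Uf φ r t) :=
  ⟨fun _ hr t => Uf_dr h hr t, fun _ hr t => Uf_dt h hr t⟩

theorem Uf_partials1 (h : Profile δ φ p q q') :
    HasPartials (Ioi (-δ)) (fun r t => p r * φ r / (2 * Uf φ r t))
      (fun r t => φ r * p r * (p r + q r) / (4 * Uf φ r t)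
        - (p r)^2 * (φ r)^2 / (4 * (Uf φ r t)^3))
      (fun r t => -(p r * φ r * t) / (2 * (Uf φ r t)^3)) := by
  constructor
  · intro r hr t
    have hU := Uf_pos h hr t
    have h1 := ((h.dp r hr).fun_mul (h.dφ r hr)).fun_div ((Uf_dr h hr t).const_mul 2)
      (by positivity)
    refine h1.congr_deriv ?_
    field_simp
    ring
  · intro r hr t
    have hU := Uf_pos h hr t
    have h1 := (hasDerivAt_const t (p r * φ r)).fun_div ((Uf_dt h hr t).const_mul 2)
      (by positivity)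
    refine h1.congr_deriv ?_
    field_simp
    ring

theorem Uf_partials2 (h : Profile δ φ p q q') :
    HasPartials (Ioi (-δ)) (fun r t => t / Uf φ r t)
      (fun r t => -(p r * φ r * t) / (2 * (Uf φ r t)^3))
      (fun r t => φ r / (Uf φ r t)^3) := by
  constructor
  · intro r hr t
    have hU := Uf_pos h hr t
    have h1 := (hasDerivAt_const r t).fun_div (Uf_dr h hr t) hU.ne'
    refine h1.congr_deriv ?_
    field_simp
    ring
  · intro r hr t
    have hU := Uf_pos h hr t
    have hsq := Uf_sq h hr t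
    have h1 := (hasDerivAt_id' t).fun_div (Uf_dt h hr t) hU.ne'
    refine h1.congr_deriv ?_
    field_simp
    linear_combination hsq

lemma neg_delta_lt_rad (h : Profile δ φ p q q') (x : E (10+1)) : -δ < rad x := by
  have h1 := h.hδ
  have h2 := rad_nonneg x
  linarith

theorem hess_uf (h : Profile δ φ p q q') (x : E (10+1)) :
    hess (uf φ) x = Mblk (p (rad x) * φ (rad x) / uf φ x)
      (φ (rad x) * p (rad x) * (p (rad x) + q (rad x)) / uf φ x
        - (p (rad x))^2 * (φ (rad x))^2 / (uf φ x)^3)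
      (-(p (rad x) * φ (rad x) * lst x) / (uf φ x)^3)
      (φ (rad x) / (uf φ x)^3) x := by
  have hS : ∀ r : ℝ, 0 ≤ r → r ∈ Ioi (-δ) := fun r hr => by
    have := h.hδ
    simp only [mem_Ioi]
    linarith
  have h1 := hess_radial (Ioi (-δ)) hS _ _ _ _ _ _ (Uf_partials0 h) (Uf_partials1 h)
    (Uf_partials2 h) x
  have hU : 0 < uf φ x := Uf_pos h (neg_delta_lt_rad h x) _
  change hess (fun y : E (10+1) => Uf φ (rad y) (lst y)) x = _
  rw [h1]
  change Mblk (2 * (p (rad x) * φ (rad x) / (2 * uf φ x)))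
    (4 * (φ (rad x) * p (rad x) * (p (rad x) + q (rad x)) / (4 * uf φ x)
        - (p (rad x))^2 * (φ (rad x))^2 / (4 * (uf φ x)^3)))
    (2 * (-(p (rad x) * φ (rad x) * lst x) / (2 * (uf φ x)^3))) (φ (rad x) / (uf φ x)^3) x = _
  congr 1
  · field_simp
  · field_simp
  · field_simp

/-- the 2 x 2 determinant `(a + b r) d - c^2 r` of the Hessian of `uf` -/
theorem delta_uf (h : Profile δ φ p q q') (x : E (10+1)) :
    (p (rad x) * φ (rad x) / uf φ x
      + (φ (rad x) * p (rad x) * (p (rad x) + q (rad x)) / uf φ x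
        - (p (rad x))^2 * (φ (rad x))^2 / (uf φ x)^3) * rad x) * (φ (rad x) / (uf φ x)^3)
      - (-(p (rad x) * φ (rad x) * lst x) / (uf φ x)^3)^2 * rad x
    = (φ (rad x))^2 * p (rad x) * (1 + rad x * q (rad x)) / (uf φ x)^4 := by
  have hU : 0 < uf φ x := Uf_pos h (neg_delta_lt_rad h x) _
  have hsq : (uf φ x)^2 = φ (rad x) + (lst x)^2 := Uf_sq h (neg_delta_lt_rad h x) _
  have e : (lst x)^2 = (uf φ x)^2 - φ (rad x) := by linarith
  generalize uf φ x = U at *
  generalize lst x = t at *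
  generalize rad x = r at *
  field_simp
  ring_nf
  rw [e]
  ring

theorem det_hess_uf (h : Profile δ φ p q q') (x : E (10+1)) :
    (hess (uf φ) x).det
      = (φ (rad x))^11 * (p (rad x))^10 * (1 + rad x * q (rad x)) / (uf φ x)^13 := by
  have hU : 0 < uf φ x := Uf_pos h (neg_delta_lt_rad h x) _
  have hp := h.ppos _ (neg_delta_lt_rad h x)
  have hφ := h.φpos _ (neg_delta_lt_rad h x)
  rw [hess_uf h x, Mblk_det (by norm_num) _ _ _ _ (by positivity), delta_uf h x]
  norm_num
  field_simp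

theorem posDef_hess_uf (h : Profile δ φ p q q') (x : E (10+1)) : (hess (uf φ) x).PosDef := by
  have hU : 0 < uf φ x := Uf_pos h (neg_delta_lt_rad h x) _
  have hp := h.ppos _ (neg_delta_lt_rad h x)
  have hφ := h.φpos _ (neg_delta_lt_rad h x)
  have hR := h.Rpos _ (neg_delta_lt_rad h x)
  rw [hess_uf h x]
  refine Mblk_posDef _ _ _ _ x (by positivity) (by positivity) ?_
  rw [delta_uf h x]
  positivity

theorem contDiff_rad : ContDiff ℝ ∞ (rad : E (10+1) → ℝ) := by
  unfold rad
  fun_prop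

theorem contDiff_lst : ContDiff ℝ ∞ (lst : E (10+1) → ℝ) := by
  unfold lst
  fun_prop

theorem contDiff_uf (h : Profile δ φ p q q') : ContDiff ℝ ∞ (uf φ) := by
  have h1 : ContDiff ℝ ∞ (fun x : E (10+1) => φ (rad x)) := by
    rw [← contDiffOn_univ]
    exact h.smooth.comp contDiff_rad.contDiffOn (fun x _ => neg_delta_lt_rad h x)
  have h2 : ContDiff ℝ ∞ (fun x : E (10+1) => φ (rad x) + (lst x)^2) :=
    h1.add (contDiff_lst.pow 2)
  refine h2.sqrt fun x => ?_
  have := h.φpos _ (neg_delta_lt_rad h x)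
  positivity

end Vale.Agent.P252
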