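import Mathlib
import Vale.Agent.P252.ReduceU

open Set Matrix
open scoped ContDiff

namespace Vale.Agent.P252

variable {δ : ℝ} {φ p q q' : ℝ → ℝ}

noncomputable def Lf (φ p q : ℝ → ℝ) (r : ℝ) : ℝ := (φ r)^11 * (p r)^10 * (1 + r * q r)

noncomputable def Wf (φ p q : ℝ → ℝ) (r : ℝ) : ℝ := (Lf φ p q r) ^ (-(12:ℝ)/13)

noncomputable def gf (p q : ℝ → ℝ) (r : ℝ) : ℝ :=
  6 * p r * (11 + 2*r*p r + 2*r*q r) / (10 + 2*r*p r)

noncomputable def gf' (p q q' : ℝ → ℝ) (r : ℝ) : ℝ :=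
  (6 * (p r*(q r - p r)/2) * (11 + 2*r*p r + 2*r*q r)
    + 6 * p r * (2*p r + 2*r*(p r*(q r-p r)/2) + 2*q r + 2*(r*q' r))) / (10+2*r*p r)
  - 6*p r*(11+2*r*p r+2*r*q r)*(2*p r + 2*r*(p r*(q r - p r)/2))/(10+2*r*p r)^2

lemma Lf_pos (h : Profile δ φ p q q') {r : ℝ} (hr : -δ < r) : 0 < Lf φ p q r := by
  unfold Lf
  have h1 := h.φpos r hr
  have h2 := h.ppos r hr
  have h3 := h.Rpos r hr
  positivity

lemma Wf_pos (h : Profile δ φ p q q') {r : ℝ} (hr : -δ < r) : 0 < Wf φ p q r :=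
  Real.rpow_pos_of_pos (Lf_pos h hr) _

lemma rq'_eq (h : Profile δ φ p q q') {r : ℝ} (hr : -δ < r) :
    r * q' r = (1 + r * q r) * (-100 * q r + 23 * p r + 2 * r * p r ^ 2 + 6 * r * p r * q r)
      / (2 * (10 + 2 * r * p r)) - q r := by
  have hode := h.ode r hr
  have hD := (h.Dpos r hr).ne'
  rw [eq_sub_iff_add_eq, eq_div_iff (by positivity)]
  linarith

lemma Lf_hasDerivAt (h : Profile δ φ p q q') {r : ℝ} (hr : -δ < r) :
    HasDerivAt (Lf φ p q) (Lf φ p q r * (13 * p r * (11 + 2*r*p r + 2*r*q r) / (2*(10+2*r*p r)))) r := by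
  have h1 := h.dφ r hr
  have h2 := h.dp r hr
  have h3 := h.dq r hr
  have hD := (h.Dpos r hr).ne'
  have h4 : HasDerivAt (fun r => 1 + r * q r) (1 * q r + r * q' r) r :=
    ((hasDerivAt_id r).mul h3).const_add 1
  have h5 := ((h1.pow 11).mul (h2.pow 10)).mul h4
  have hfun : Lf φ p q = (φ ^ 11 * p ^ 10 * fun r => 1 + r * q r) := by
    funext s; simp [Lf]
  rw [hfun]
  refine h5.congr_deriv ?_
  simp only [Pi.mul_apply, Pi.pow_apply]
  rw [rq'_eq h hr]
  generalize hDD : 10 + 2 * r * p r = D at *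
  field_simp
  subst hDD
  ring

lemma Wf_hasDerivAt (h : Profile δ φ p q q') {r : ℝ} (hr : -δ < r) :
    HasDerivAt (Wf φ p q) (-(gf p q r) * Wf φ p q r) r := by
  have h1 := Lf_hasDerivAt h hr
  have hL := Lf_pos h hr
  have h2 := h1.rpow_const (p := -(12:ℝ)/13) (Or.inl hL.ne')
  unfold Wf
  refine h2.congr_deriv ?_
  rw [Real.rpow_sub_one hL.ne']
  unfold gf
  have hD := (h.Dpos r hr).ne'
  generalize hDD : 10 + 2 * r * p r = D at *
  field_simp
  ring

lemma gf_hasDerivAt (h : Profile δ φ p q q') {r : ℝ} (hr : -δ < r) :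
    HasDerivAt (gf p q) (gf' p q q' r) r := by
  have h2 := h.dp r hr
  have h3 := h.dq r hr
  have hD := (h.Dpos r hr).ne'
  have hid := hasDerivAt_id r
  have hrp : HasDerivAt (fun r => r * p r) (1 * p r + r * (p r * (q r - p r)/2)) r := hid.mul h2
  have hrq : HasDerivAt (fun r => r * q r) (1 * q r + r * q' r) r := hid.mul h3
  have hnum := (h2.const_mul 6).mul (((hrp.const_mul 2).const_add 11).add (hrq.const_mul 2))
  have hden := (hrp.const_mul 2).const_add 10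
  have hdiv := hnum.div hden (by simpa [mul_assoc] using hD)
  have hfun : gf p q = ((fun y => 6 * p y) * ((fun x => 11 + 2 * (x * p x)) + fun y => 2 * (y * q y)))
      / (fun x => 10 + 2 * (x * p x)) := by
    funext s; simp [gf, mul_assoc]
  rw [hfun]
  refine hdiv.congr_deriv ?_
  simp only [Pi.mul_apply, Pi.add_apply]
  unfold gf'
  have e1 : 10 + 2 * (r * p r) = 10 + 2 * r * p r := by ring
  rw [e1]
  generalize hDD : 10 + 2 * r * p r = D at *
  field_simp
  ring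

noncomputable def Gw (φ p q : ℝ → ℝ) (r t : ℝ) : ℝ := (φ r + t^2)^6 * Wf φ p q r

noncomputable def Gwr (φ p q : ℝ → ℝ) (r t : ℝ) : ℝ :=
  Wf φ p q r * (φ r + t^2)^5 * (6 * p r * φ r - (φ r + t^2) * gf p q r)

noncomputable def Gwt (φ p q : ℝ → ℝ) (r t : ℝ) : ℝ := 12 * t * (φ r + t^2)^5 * Wf φ p q r

noncomputable def Gwrr (φ p q q' : ℝ → ℝ) (r t : ℝ) : ℝ :=
  -gf p q r * Wf φ p q r * (φ r + t^2)^5 * (6 * p r * φ r - (φ r + t^2) * gf p q r)
  + Wf φ p q r * 5 * (φ r + t^2)^4 * p r * φ r * (6 * p r * φ r - (φ r + t^2) * gf p q r)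
  + Wf φ p q r * (φ r + t^2)^5 * (3 * φ r * p r * (p r + q r) - p r * φ r * gf p q r
      - (φ r + t^2) * gf' p q q' r)

noncomputable def Gwrt (φ p q : ℝ → ℝ) (r t : ℝ) : ℝ :=
  12 * t * Wf φ p q r * (φ r + t^2)^4 * (5 * p r * φ r - (φ r + t^2) * gf p q r)

noncomputable def Gwtt (φ p q : ℝ → ℝ) (r t : ℝ) : ℝ :=
  12 * Wf φ p q r * (φ r + t^2)^4 * ((φ r + t^2) + 10 * t^2)

lemma hasDerivAt_S_r (h : Profile δ φ p q q') {r : ℝ} (hr : -δ < r) (t : ℝ) :
    HasDerivAt (fun ρ => φ ρ + t^2) (p r * φ r) r := (h.dφ r hr).add_const _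

lemma hasDerivAt_S_t (c t : ℝ) : HasDerivAt (fun τ : ℝ => c + τ^2) (2 * t) t := by
  have := ((hasDerivAt_id t).pow 2).const_add c
  refine this.congr_deriv ?_
  simp

theorem Gw_partials0 (h : Profile δ φ p q q') :
    HasPartials (Ioi (-δ)) (Gw φ p q) (Gwr φ p q) (Gwt φ p q) := by
  constructor
  · intro r hr t
    have hr' : -δ < r := hr
    have h1 := ((hasDerivAt_S_r h hr' t).pow 6).mul (Wf_hasDerivAt h hr')
    refine h1.congr_deriv ?_
    simp only [Gwr, Pi.pow_apply]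
    norm_num
    ring
  · intro r hr t
    have h1 := ((hasDerivAt_S_t (φ r) t).pow 6).mul_const (Wf φ p q r)
    refine h1.congr_deriv ?_
    simp only [Gwt, Nat.cast_ofNat, Nat.reduceSub]
    ring

theorem Gw_partials1 (h : Profile δ φ p q q') :
    HasPartials (Ioi (-δ)) (Gwr φ p q) (Gwrr φ p q q') (Gwrt φ p q) := by
  constructor
  · intro r hr t
    have hr' : -δ < r := hr
    have hS := hasDerivAt_S_r h hr' t
    have h1 := ((Wf_hasDerivAt h hr').mul (hS.pow 5)).mul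
      ((((h.dp r hr').const_mul 6).mul (h.dφ r hr')).sub (hS.mul (gf_hasDerivAt h hr')))
    refine h1.congr_deriv ?_
    simp only [Gwrr, Pi.pow_apply, Pi.mul_apply]
    norm_num
    ring
  · intro r hr t
    have hS := hasDerivAt_S_t (φ r) t
    have h1 := ((hS.pow 5).const_mul (Wf φ p q r)).mul
      ((hS.mul_const (gf p q r)).const_sub (6 * p r * φ r))
    refine h1.congr_deriv ?_
    simp only [Gwrt, Pi.pow_apply]
    norm_num
    ring

theorem Gw_partials2 (h : Profile δ φ p q q') :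
    HasPartials (Ioi (-δ)) (Gwt φ p q) (Gwrt φ p q) (Gwtt φ p q) := by
  constructor
  · intro r hr t
    have hr' : -δ < r := hr
    have hS := hasDerivAt_S_r h hr' t
    have h1 := ((hS.pow 5).const_mul (12 * t)).mul (Wf_hasDerivAt h hr')
    refine h1.congr_deriv ?_
    simp only [Gwrt, Pi.pow_apply]
    norm_num
    ring
  · intro r hr t
    have hS := hasDerivAt_S_t (φ r) t
    have h1 := ((((hasDerivAt_id t).const_mul 12).mul (hS.pow 5))).mul_const (Wf φ p q r)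
    refine h1.congr_deriv ?_
    simp only [Gwtt, Pi.pow_apply, id]
    norm_num
    ring

end Vale.Agent.P252
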